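import Vale.Agent.P202C.F5
import Vale.Agent.P202C.BC

/-!
P202 in characteristic p, arbitrary residue fields (helper19): homology of a free complex and flat
base change of the coefficients.
-/

set_option autoImplicit false

namespace Vale.Agent.P202C.SA

open IsLocalRing Vale.Agent.P202C TensorProduct

universe u v w v'

theorem rlen_equiv2 {S : Type u} [CommRing S] {M : Type v} [AddCommGroup M] [Module S M]
    {M' : Type v'} [AddCommGroup M'] [Module S M'] (e : M ≃ₗ[S] M') (N P : Submodule S M)
    (N' P' : Submodule S M') (hN : ∀ x, x ∈ N ↔ e x ∈ N') (hP : ∀ x, x ∈ P ↔ e x ∈ P') :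
    rlen N' P' = rlen N P := by
  have h1 : LinearMap.range ((e : M →ₗ[S] M') ∘ₗ P.subtype) = P' := by
    ext y
    constructor
    · rintro ⟨x, rfl⟩
      exact (hP _).1 x.2
    · intro hy
      refine ⟨⟨e.symm y, (hP _).2 (by rwa [e.apply_symm_apply])⟩, ?_⟩
      exact e.apply_symm_apply y
  rw [rlen_of_range _ N' P' h1]
  have h2 : N'.comap ((e : M →ₗ[S] M') ∘ₗ P.subtype) = N.submoduleOf P := by
    ext x
    exact (hN _).symm
  rw [h2]
  rfl

section

variable {R : Type u} [CommRing R] {S : Type v} [CommRing S] [Algebra R S]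
  {ι : Type} [Fintype ι]

theorem degPart_ker [DecidableEq ι] (G : FCx R ι) (V : Type w) [AddCommGroup V] [Module R V]
    (j : ℤ) : degPart G V j =
      LinearMap.ker (act (Matrix.diagonal fun a => if G.deg a = j then (0 : R) else 1) V) := by
  ext x
  rw [LinearMap.mem_ker]
  have key : ∀ a, act (Matrix.diagonal fun a => if G.deg a = j then (0 : R) else 1) V x a =
      if G.deg a = j then 0 else x a := by
    intro a
    rw [act_apply, Finset.sum_eq_single a]
    · rw [Matrix.diagonal_apply_eq]
      split_ifs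
      · rw [zero_smul]
      · rw [one_smul]
    · intro b _ hb
      rw [Matrix.diagonal_apply_ne _ hb.symm, zero_smul]
    · intro h
      exact absurd (Finset.mem_univ a) h
  constructor
  · intro h
    funext a
    rw [key]
    split_ifs with h1
    · rfl
    · exact h a h1
  · intro h a ha
    have h1 := congrFun h a
    rw [key, if_neg ha] at h1
    exact h1

/-- the isomorphism `S ⊗ V^ι = (S ⊗ V)^ι` -/
noncomputable def thS (R : Type u) [CommRing R] (S : Type v) [CommRing S] [Algebra R S]
    (ι : Type) [Fintype ι] [DecidableEq ι] (V : Type w) [AddCommGroup V] [Module R V] :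
    (S ⊗[R] (ι → V)) ≃ₗ[S] (ι → S ⊗[R] V) :=
  TensorProduct.piRight R S S (fun _ : ι => V)

theorem thS_act [DecidableEq ι] (m : Matrix ι ι R) (V : Type w) [AddCommGroup V] [Module R V]
    (x : S ⊗[R] (ι → V)) : thS R S ι V ((act m V).baseChange S x) =
      act (m.map (algebraMap R S)) (S ⊗[R] V) (thS R S ι V x) := by
  have h : ((thS R S ι V : (S ⊗[R] (ι → V)) →ₗ[S] (ι → S ⊗[R] V))) ∘ₗ (act m V).baseChange S =
      act (m.map (algebraMap R S)) (S ⊗[R] V) ∘ₗ
        (thS R S ι V : (S ⊗[R] (ι → V)) →ₗ[S] (ι → S ⊗[R] V)) := by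
    refine TensorProduct.AlgebraTensorModule.ext fun s f => ?_
    funext a
    change thS R S ι V ((act m V).baseChange S (s ⊗ₜ[R] f)) a =
      act (m.map (algebraMap R S)) (S ⊗[R] V) (thS R S ι V (s ⊗ₜ[R] f)) a
    rw [LinearMap.baseChange_tmul, act_apply]
    change s ⊗ₜ[R] (act m V f a) = ∑ b, m.map (algebraMap R S) a b • (s ⊗ₜ[R] f b)
    rw [act_apply, TensorProduct.tmul_sum]
    refine Finset.sum_congr rfl fun b _ => ?_
    rw [Matrix.map_apply, algebraMap_smul, TensorProduct.tmul_smul]
  exact LinearMap.congr_fun h x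

variable [Module.Flat R S]

/-- homology and flat base change -/
theorem Hc_bcmap [DecidableEq ι] (G : FCx R ι) (V : Type w) [AddCommGroup V] [Module R V] (j : ℤ) :
    ∃ (H : Type w) (_ : AddCommGroup H) (_ : Module R H), Hc G V j = Module.length R H ∧
      Hc (G.map (algebraMap R S)) (S ⊗[R] V) j = Module.length S (S ⊗[R] H) := by
  refine ⟨_, _, _, rfl, ?_⟩
  rw [← rlen_bc]
  unfold Hc hl
  have hdeg : ∀ j x, x ∈ (degPart G V j).baseChange S ↔
      thS R S ι V x ∈ degPart (G.map (algebraMap R S)) (S ⊗[R] V) j := by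
    intro j x
    rw [degPart_ker, degPart_ker, ← bc_ker, LinearMap.mem_ker, LinearMap.mem_ker]
    have h1 : (Matrix.diagonal fun a => if (G.map (algebraMap R S)).deg a = j then (0 : S) else 1) =
        (Matrix.diagonal fun a => if G.deg a = j then (0 : R) else 1).map (algebraMap R S) := by
      rw [Matrix.diagonal_map (map_zero _)]
      congr 1
      funext a
      change (if G.deg a = j then (0 : S) else 1) = algebraMap R S (if G.deg a = j then 0 else 1)
      split_ifs
      · rw [map_zero]
      · rw [map_one]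
    rw [h1, ← thS_act]
    constructor
    · intro h
      rw [h, map_zero]
    · intro h
      exact (LinearEquiv.map_eq_zero_iff _).1 h
  refine rlen_equiv2 (thS R S ι V) _ _ _ _ (fun x => ?_) (fun x => ?_)
  · unfold botF
    rw [bot_sup_eq, bot_sup_eq, bc_map]
    constructor
    · rintro ⟨y, hy, rfl⟩
      exact ⟨thS R S ι V y, (hdeg _ _).1 hy, (thS_act _ _ _).symm⟩
    · rintro ⟨y, hy, h⟩
      refine ⟨(thS R S ι V).symm y, (hdeg _ _).2 (by rwa [LinearEquiv.apply_symm_apply]), ?_⟩
      apply (thS R S ι V).injective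
      rw [thS_act, LinearEquiv.apply_symm_apply]
      exact h
  · unfold botF
    rw [bc_inf, bc_comap]
    have hb : (⊥ : Submodule R (ι → V)).baseChange S = ⊥ := Submodule.baseChange_bot S
    rw [hb]
    constructor
    · rintro ⟨h1, h2⟩
      refine ⟨(hdeg _ _).1 h1, ?_⟩
      have h3 : (act G.mat V).baseChange S x = 0 := h2
      change act (G.mat.map (algebraMap R S)) (S ⊗[R] V) (thS R S ι V x) = 0
      rw [← thS_act, h3, map_zero]
    · rintro ⟨h1, h2⟩
      refine ⟨(hdeg _ _).2 h1, ?_⟩
      have h3 : act (G.mat.map (algebraMap R S)) (S ⊗[R] V) (thS R S ι V x) = 0 := h2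
      change (act G.mat V).baseChange S x = 0
      rw [← thS_act] at h3
      exact (LinearEquiv.map_eq_zero_iff _).1 h3

variable [IsLocalRing R] [IsLocalRing S] [IsLocalHom (algebraMap R S)]

/-- homology lengths and flat local base change -/
theorem Hc_bc_mul (G : FCx R ι) (V : Type w) [AddCommGroup V] [Module R V] (j : ℤ) :
    Hc (G.map (algebraMap R S)) (S ⊗[R] V) j =
      Hc G V j * Module.length S (S ⧸ (maximalIdeal R).map (algebraMap R S)) := by
  classical
  obtain ⟨H, _, _, h1, h2⟩ := Hc_bcmap (S := S) G V j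
  rw [h1, h2, IsLocalRing.length_baseChange R S H]

/-- Euler characteristics and flat local base change -/
theorem chG_bc_mul (G : FCx R ι) (V : Type w) [AddCommGroup V] [Module R V] (D : ℕ) :
    chG (G.map (algebraMap R S)) (S ⊗[R] V) D =
      chG G V D * (Module.length S (S ⧸ (maximalIdeal R).map (algebraMap R S))).toNat := by
  unfold chG
  rw [Finset.sum_mul]
  refine Finset.sum_congr rfl fun j _ => ?_
  rw [Hc_bc_mul, ENat.toNat_mul]
  push_cast
  ring

end

end Vale.Agent.P202C.SA
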