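import Vale.Agent.P202K.KDefs2
import Vale.Agent.P202Y.YD9

/-! # P202K, KCo (helper22): reduction to complete rings -/

namespace Vale.Agent.P202K

open IsLocalRing Vale.Agent.P202 Vale.Agent.P202C Vale.Agent.P202Y TensorProduct

universe u v w

theorem KCo_nzd {R : Type u} {R' : Type v} [CommRing R] [CommRing R'] [Algebra R R']
    [Module.Flat R R'] {x : R} (hx : x ∈ nonZeroDivisors R) :
    algebraMap R R' x ∈ nonZeroDivisors R' := by
  have h1 : IsSMulRegular R x := by
    intro a b hab
    have h2 : x * (a - b) = 0 := by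
      rw [mul_sub, sub_eq_zero]
      exact hab
    exact sub_eq_zero.mp ((mul_right_mem_nonZeroDivisors_eq_zero_iff hx).mp
      (by rw [mul_comm]; exact h2))
  have h2 : IsSMulRegular R' (algebraMap R R' x) := h1.of_flat
  rw [mem_nonZeroDivisors_iff_right]
  intro y hy
  refine h2 ?_
  simp only [smul_eq_mul, mul_zero]
  rw [mul_comm]
  exact hy

/-- KCo -/
theorem coreD_of_coreC_proved (p : ℕ) [Fact p.Prime] (h : CoreC.{u, v} p) : CoreD.{u, v} p := by
  intro R S _ _ _ _ _ _ _ _ _ _ hinf hart hx n hn hdim eR eS hmR hmS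
  let R' := AdicCompletion (maximalIdeal R) R
  let S' := AdicCompletion (maximalIdeal S) S
  have hR'n : IsNoetherianRing R' := YD9_noeth R
  have hS'n : IsNoetherianRing S' := YD9_noeth S
  have hfR : Module.Flat R R' := AdicCompletion.flat_of_isNoetherian _
  have hfT : Module.Flat S S' := AdicCompletion.flat_of_isNoetherian _
  obtain ⟨i, hRS, hlocRS, hcomp⟩ := ext_trans R S S'
  obtain ⟨j, htow, hlocj⟩ := YD9_hom (R := R) (S := S')
  have hflat : Module.Flat R' S' := YD9_flat (R := R) (R' := R') (S := S') (maximalIdeal R)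
    AdicCompletion.maximalIdeal_eq_map.symm (YD9_approx R)
  have hmR' : (maximalIdeal R).map (algebraMap R R') = maximalIdeal R' :=
    AdicCompletion.maximalIdeal_eq_map.symm
  have hmS' : (maximalIdeal S).map (algebraMap S S') = maximalIdeal S' :=
    AdicCompletion.maximalIdeal_eq_map.symm
  have hdR' : ringKrullDim R' = (n + 1 : ℕ) := by
    rw [dim_eq (R := R) (S := R') (artin_fibre_field R R' hmR'), hdim]
  have hdS' : ringKrullDim S' = (n + 1 : ℕ) := by
    rw [dim_eq (R := S) (S := S') (artin_fibre_field S S' hmS'), dim_eq (R := R) (S := S) hart,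
      hdim]
  have hinj : Function.Injective (algebraMap R R') := by
    have hff : Module.FaithfullyFlat R R' := Module.FaithfullyFlat.of_flat_of_isLocalHom
    exact FaithfulSMul.algebraMap_injective R R'
  have hchar : CharP R' p := charP_of_injective_algebraMap hinj p
  have hinf' : Infinite (ResidueField R') :=
    Infinite.of_injective _ (ResidueField.map (algebraMap R R')).injective
  have hart' : IsArtinianRing (S' ⧸ (maximalIdeal R').map (algebraMap R' S')) :=
    artin_of_dim_eq (n + 1) hdR' (by rw [hdS', hdR'])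
  obtain ⟨x, hxm, hxz⟩ := hx
  have hclR : ∀ N, Module.length R' (R' ⧸ maximalIdeal R' ^ N) =
      Module.length R (R ⧸ maximalIdeal R ^ N) := by
    intro N
    rw [← hmR', ← Ideal.map_pow]
    exact cl_flat R R' hmR' _
  have hclS : ∀ N, Module.length S' (S' ⧸ maximalIdeal S' ^ N) =
      Module.length S (S ⧸ maximalIdeal S ^ N) := by
    intro N
    rw [← hmS', ← Ideal.map_pow]
    exact cl_flat S S' hmS' _
  refine h R' S' hinf' hart' ⟨algebraMap R R' x, ?_, KCo_nzd hxz⟩ n hn hdR' eR eS ?_ ?_
  · rw [← hmR']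
    exact Ideal.mem_map_of_mem _ hxm
  · obtain ⟨d, hd, hl⟩ := hmR
    refine ⟨d, ?_, ?_⟩
    · rw [hdR', ← hdim, hd]
    · simp only [hclR]
      exact hl
  · obtain ⟨d, hd, hl⟩ := hmS
    refine ⟨d, ?_, ?_⟩
    · rw [dim_eq (R := S) (S := S') (artin_fibre_field S S' hmS'), hd]
    · simp only [hclS]
      exact hl

end Vale.Agent.P202K
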