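import Vale.Agent.P202K.KDefs2
import Vale.Agent.P202G.Dep2

/-! # P202K, module KD: depth and dimension reduction without F-finiteness -/

set_option autoImplicit false

namespace Vale.Agent.P202K

open IsLocalRing Vale.Agent.P202 Vale.Agent.P202C Vale.Agent.P202G TensorProduct

universe u v w

/-- dimension at most one -/
theorem KD_small {R : Type u} {S : Type v} [CommRing R] [IsLocalRing R] [IsNoetherianRing R]
    [CommRing S] [IsLocalRing S] [IsNoetherianRing S] [Algebra R S] [Module.Flat R S]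
    [IsLocalHom (algebraMap R S)] (d : ℕ) (hd : ringKrullDim R = d) (h2 : d < 2)
    (eR eS : ℝ) (hR : HasMult R eR) (hS : HasMult S eS) : eR ≤ eS := by
  obtain ⟨eR', eS', hR', hS', -, h⟩ := full_ineq (R := R) (S := S) d hd
  have h4 : (d - 2).factorial = 1 := by
    have : d - 2 = 0 := by omega
    rw [this]
    rfl
  rw [h4, Nat.cast_one, one_mul] at h
  rw [Vale.Agent.P202.hasMult_unique hR hR', Vale.Agent.P202.hasMult_unique hS hS']
  exact h

/-- KD -/
theorem coreG_of_coreD_proved (p : ℕ) [Fact p.Prime] (core : CoreD.{u, v} p) : CoreG.{u, v} p := by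
  intro R S _ _ _ _ _ _ _ _ _ _ hinf hart e e' he he'
  obtain ⟨d, hd⟩ := exists_dim_nat (R := R)
  rcases Nat.lt_or_ge d 2 with h2 | h2
  · exact KD_small d hd h2 e e' he he'
  have hD : 1 ≤ ringKrullDim R := by
    rw [hd]
    exact_mod_cast (by omega : 1 ≤ d)
  obtain ⟨s, hs⟩ := exists_sat_pow (⊥ : Ideal R)
  have hJ : sat (⊥ : Ideal R) ≠ ⊤ := dep_ne_top hs hD
  obtain ⟨K, hK⟩ := exists_pow_le_fibre (R := R) (S := S) hart
  have hs' := dep_map_pow (S := S) hs hK
  have hJ' : (sat (⊥ : Ideal R)).map (algebraMap R S) ≠ ⊤ := dep_map_ne_top (S := S) hJ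
  have hD' : 1 ≤ ringKrullDim S := by
    rw [dim_eq (R := R) (S := S) hart]
    exact hD
  have : Nontrivial (R ⧸ sat (⊥ : Ideal R)) := Ideal.Quotient.nontrivial_iff.2 hJ
  have : Nontrivial (S ⧸ (sat (⊥ : Ideal R)).map (algebraMap R S)) :=
    Ideal.Quotient.nontrivial_iff.2 hJ'
  have : IsLocalRing (R ⧸ sat (⊥ : Ideal R)) :=
    IsLocalRing.of_surjective' (Ideal.Quotient.mk (sat (⊥ : Ideal R))) Ideal.Quotient.mk_surjective
  have : IsLocalRing (S ⧸ (sat (⊥ : Ideal R)).map (algebraMap R S)) :=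
    IsLocalRing.of_surjective' (Ideal.Quotient.mk ((sat (⊥ : Ideal R)).map (algebraMap R S)))
      Ideal.Quotient.mk_surjective
  have := dep_charP p hJ
  have := dep_flat (S := S) (sat (⊥ : Ideal R))
  have := dep_localHom (S := S) hJ
  have hres : Infinite (ResidueField (R ⧸ sat (⊥ : Ideal R))) := by
    have hloc : IsLocalHom (Ideal.Quotient.mk (sat (⊥ : Ideal R))) :=
      IsLocalHom.of_surjective _ Ideal.Quotient.mk_surjective
    exact Infinite.of_injective (ResidueField.map (Ideal.Quotient.mk (sat (⊥ : Ideal R))))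
      (RingHom.injective _)
  obtain ⟨n, rfl⟩ : ∃ n, d = n + 1 := ⟨d - 1, by omega⟩
  refine core (R ⧸ sat (⊥ : Ideal R)) (S ⧸ (sat (⊥ : Ideal R)).map (algebraMap R S))
    hres (dep_fibre hJ hart) (dep_nzd hJ) n (by omega) ?_ e e'
    ((dep_hasMult hs hD e).1 he) ((dep_hasMult hs' hD' e').1 he')
  rw [dep_dim hJ hs]
  exact hd

end Vale.Agent.P202K
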