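import Vale.Agent.P202K.KStubs
import Vale.Agent.P202C.UltFin

/-! # P202K: reductions to the complete case (owner helper85): definitions -/

set_option autoImplicit false

namespace Vale.Agent.P202K

open IsLocalRing Vale.Agent.P202 Vale.Agent.P202C TensorProduct

universe u v w

/-- core inequality for complete rings, positive depth, dimension at least two -/
def CoreC (p : ℕ) [Fact p.Prime] : Prop :=
  ∀ (R : Type u) (S : Type v) [CommRing R] [IsLocalRing R] [IsNoetherianRing R]
    [CommRing S] [IsLocalRing S] [IsNoetherianRing S] [Algebra R S] [Module.Flat R S]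
    [IsLocalHom (algebraMap R S)] [CharP R p] [IsAdicComplete (maximalIdeal R) R]
    [IsAdicComplete (maximalIdeal S) S],
    Infinite (ResidueField R) →
    IsArtinianRing (S ⧸ (maximalIdeal R).map (algebraMap R S)) →
    (∃ x ∈ maximalIdeal R, x ∈ nonZeroDivisors R) →
    ∀ n : ℕ, 1 ≤ n → ringKrullDim R = (n + 1 : ℕ) →
    ∀ eR eS : ℝ, HasMult R eR → HasMult S eS → eR ≤ eS

/-- the same without completeness -/
def CoreD (p : ℕ) [Fact p.Prime] : Prop :=
  ∀ (R : Type u) (S : Type v) [CommRing R] [IsLocalRing R] [IsNoetherianRing R]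
    [CommRing S] [IsLocalRing S] [IsNoetherianRing S] [Algebra R S] [Module.Flat R S]
    [IsLocalHom (algebraMap R S)] [CharP R p],
    Infinite (ResidueField R) →
    IsArtinianRing (S ⧸ (maximalIdeal R).map (algebraMap R S)) →
    (∃ x ∈ maximalIdeal R, x ∈ nonZeroDivisors R) →
    ∀ n : ℕ, 1 ≤ n → ringKrullDim R = (n + 1 : ℕ) →
    ∀ eR eS : ℝ, HasMult R eR → HasMult S eS → eR ≤ eS

/-- infinite residue field and Artinian fibre only -/
def CoreG (p : ℕ) [Fact p.Prime] : Prop :=
  ∀ (R : Type u) (S : Type v) [CommRing R] [IsLocalRing R] [IsNoetherianRing R]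
    [CommRing S] [IsLocalRing S] [IsNoetherianRing S] [Algebra R S] [Module.Flat R S]
    [IsLocalHom (algebraMap R S)] [CharP R p],
    Infinite (ResidueField R) →
    IsArtinianRing (S ⧸ (maximalIdeal R).map (algebraMap R S)) →
    ∀ eR eS : ℝ, HasMult R eR → HasMult S eS → eR ≤ eS

end Vale.Agent.P202K
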