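import Vale.Agent.P202K.KStubs
import Vale.Agent.P202K.KDefs2
import Vale.Agent.P202K.KCo
import Vale.Agent.P202K.KD
import Vale.Agent.P202K.KW
import Vale.Agent.P202C.UltFin

/-! # P202K: reductions to the complete case (owner helper85): wiring -/

set_option autoImplicit false

namespace Vale.Agent.P202K

open IsLocalRing Vale.Agent.P202 Vale.Agent.P202C TensorProduct

universe u v w

/-- KCo: completion of `R` and `S` (P202Y/YD9.lean lines 160-300: `R' = AdicCompletion (maximalIdeal R) R`,
`S' = AdicCompletion (maximalIdeal S) S`, the map `R' → S'`; it is flat by the stub `flat_crit`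
(K7) applied to `R → R'`, `R → S → S'`). -/
theorem coreD_of_coreC (p : ℕ) [Fact p.Prime] (h : CoreC.{u, v} p) : CoreD.{u, v} p :=
  coreD_of_coreC_proved p h

/-- KD: depth and dimension (P202C/UltFin.lean `coreF` and P202G/Dep2.lean `dep_reduction`, without
F-finiteness). -/
theorem coreG_of_coreD (p : ℕ) [Fact p.Prime] (h : CoreD.{u, v} p) : CoreG.{u, v} p :=
  coreG_of_coreD_proved p h

/-- KW: the wrapper (P202C/Wrap.lean `core_RZ`, `wrapF`, without F-finiteness). -/
theorem wrapK (p : ℕ) [Fact p.Prime] (HC : CoreG.{u, v} p)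
    (R : Type u) (S : Type v) [CommRing R] [IsLocalRing R] [IsNoetherianRing R]
    [CommRing S] [IsLocalRing S] [IsNoetherianRing S] [Algebra R S] [Module.Flat R S]
    [IsLocalHom (algebraMap R S)] [CharP R p]
    (eR eS : ℝ) (hmR : HasMult R eR) (hmS : HasMult S eS) : eR ≤ eS :=
  wrapK_proved p HC R S eR eS hmR hmS

end Vale.Agent.P202K
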