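import Vale.Agent.P202K.Ult2
import Vale.Agent.P202K.KStubs2

/-!
P202 in characteristic p, arbitrary residue fields: assembly (helper46).
-/

set_option autoImplicit false

namespace Vale.Agent.P202K

open IsLocalRing TensorProduct Vale.Agent.P202 Vale.Agent.P202C

universe u v

/-- the core inequality for complete rings from the existence of the twists -/
theorem coreC_of_twist (p : ℕ) [Fact p.Prime]
    (HT : ∀ (e : ℕ) (R : Type u) (S : Type v) [CommRing R]
    [IsLocalRing R] [IsNoetherianRing R] [CharP R p] [IsAdicComplete (maximalIdeal R) R]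
    [CommRing S] [IsLocalRing S] [IsNoetherianRing S] [IsAdicComplete (maximalIdeal S) S]
    (f : R →+* S) [IsLocalHom f] (_ : f.Flat)
    (_ : Module.length S (S ⧸ (maximalIdeal R).map f) ≠ ⊤), TwistData p e R S f) :
    CoreC.{u, v} p := by
  intro R S _ _ _ _ _ _ _ _ _ _ _ _ hinf hart hdep n hn hD eR eS hR hS
  have hfib : Module.length S (S ⧸ (maximalIdeal R).map (algebraMap R S)) ≠ ⊤ := by
    rw [Module.length_eq_of_surjective (S := S)
      (R := S ⧸ (maximalIdeal R).map (algebraMap R S)) Ideal.Quotient.mk_surjective]
    exact Module.length_ne_top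
  obtain ⟨e, he, h⟩ := ult_core2 R hinf p S n hn hD hart hdep
    (fun e => HT e R S (algebraMap R S) (RingHom.flat_algebraMap_iff.mpr inferInstance) hfib)
  rw [Vale.Agent.P202.hasMult_unique hR he]
  exact h eS hS

/-- **Lech's inequality in characteristic `p`**: every flat local homomorphism of Noetherian local
rings with source of characteristic `p` -/
theorem lech_charp (p : ℕ) [Fact p.Prime] (R : Type u) (S : Type v)
    [CommRing R] [IsLocalRing R] [IsNoetherianRing R] [CharP R p]
    [CommRing S] [IsLocalRing S] [IsNoetherianRing S]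
    [Algebra R S] [Module.Flat R S] [IsLocalHom (algebraMap R S)]
    (eR eS : ℝ) (hR : HasMult R eR) (hS : HasMult S eS) : eR ≤ eS :=
  wrapK p (coreG_of_coreD p (coreD_of_coreC p (coreC_of_twist p
    (fun e R S _ _ _ _ _ _ _ _ _ f _ hf hfib => exists_twist p e R S f hf hfib))))
    R S eR eS hR hS

end Vale.Agent.P202K
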