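import Vale.Agent.P202K.Tw2
import Vale.Agent.P202K.BCHom
import Vale.Agent.P202C.KSF5

/-!
P202 in characteristic p, arbitrary residue fields (helper19): the Frobenius formula for
`ψ : R → A` flat with `m_R A = m_A` and `φ : A → R` finite with `φ ψ = F^e`, `ψ φ = F^e`.
-/

set_option autoImplicit false

namespace Vale.Agent.P202C.SA

open IsLocalRing Vale.Agent.P202C TensorProduct

universe u v w

section Rank

variable {A : Type u} [CommRing A] [IsNoetherianRing A] {D : ℕ}

theorem xi_rank_pow (hA : ∀ c : LTSeries (PrimeSpectrum A), c.length ≤ D)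
    (P : Ideal A) [hP : P.IsPrime] (N : ℕ) : ∀ (V : Type u) [AddCommGroup V] [Module A V]
    [Module.Finite A V] (_ : ∀ r ∈ P ^ N, ∀ v : V, r • v = 0),
    ∃ m : ℕ, ∀ ξ : Xi A D, ξ.f V = m * ξ.f (A ⧸ P) := by
  induction N with
  | zero =>
    intro V _ _ _ h
    have : Subsingleton V := ⟨fun a b => by
      have h1 : ∀ v : V, v = 0 := fun v => by
        have := h 1 (by rw [pow_zero, Ideal.one_eq_top]; trivial) v
        rwa [one_smul] at this
      rw [h1 a, h1 b]⟩
    refine ⟨0, fun ξ => ?_⟩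
    rw [ξ.zero]
    simp
  | succ N ih =>
    intro V _ _ _ h
    obtain ⟨m1, hm1⟩ := ih (P • (⊤ : Submodule A V) : Submodule A V) (by
      rintro r hr ⟨v, hv⟩
      apply Subtype.ext
      change r • v = 0
      refine Submodule.smul_induction_on hv (fun s hs w _ => ?_) (fun x y hx hy => ?_)
      · rw [← mul_smul]
        refine h _ ?_ w
        rw [pow_succ]
        exact Ideal.mul_mem_mul hr hs
      · rw [smul_add, hx, hy, add_zero])
    obtain ⟨m2, hm2⟩ := xi_rank hA P (V ⧸ (P • (⊤ : Submodule A V))) (by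
      intro r hr v
      obtain ⟨v, rfl⟩ := Submodule.Quotient.mk_surjective _ v
      rw [← Submodule.Quotient.mk_smul, Submodule.Quotient.mk_eq_zero]
      exact Submodule.smul_mem_smul hr trivial)
    refine ⟨m1 + m2, fun ξ => ?_⟩
    rw [ξ.add (P • (⊤ : Submodule A V) : Submodule A V) V (V ⧸ (P • (⊤ : Submodule A V)))
      (P • (⊤ : Submodule A V)).subtype (P • (⊤ : Submodule A V)).mkQ
      (Submodule.subtype_injective _) (Submodule.mkQ_surjective _)
      (LinearMap.exact_subtype_mkQ _), hm1, hm2]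
    push_cast
    ring

end Rank

section Maps

variable {R : Type u} [CommRing R] {A : Type u} [CommRing A] [Algebra R A]

/-- base change and dimension -/
theorem dimM_bc (hinj : Function.Injective (PrimeSpectrum.comap (algebraMap R A)))
    {D : ℕ} (V : Type v) [AddCommGroup V] [Module R V] (h : dimM R D V) : dimM A D (A ⊗[R] V) := by
  intro c hc
  have hs : StrictMono (PrimeSpectrum.comap (algebraMap R A)) := by
    intro p p' hp
    refine lt_of_le_of_ne ?_ fun he => hp.ne (hinj he)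
    intro r hr
    exact hp.le hr
  have h1 := h (c.map _ hs) (fun i => ?_)
  · exact h1
  · rw [Module.mem_support_iff']
    by_contra hcon
    push Not at hcon
    obtain ⟨x, hx⟩ := (Module.mem_support_iff' (R := A)).1 (hc i)
    have key : ∀ x : A ⊗[R] V, ∃ r : A, r ∉ (c i).asIdeal ∧ r • x = 0 := by
      intro x
      induction x using TensorProduct.induction_on with
      | zero => exact ⟨1, fun h1 => (c i).isPrime.ne_top ((Ideal.eq_top_iff_one _).2 h1),
          smul_zero _⟩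
      | tmul a v =>
        obtain ⟨s, hs1, hs2⟩ := hcon v
        refine ⟨algebraMap R A s, fun h => hs1 h, ?_⟩
        rw [TensorProduct.smul_tmul', smul_eq_mul, ← Algebra.smul_def, TensorProduct.smul_tmul, hs2,
          TensorProduct.tmul_zero]
      | add x y hx hy =>
        obtain ⟨r, hr1, hr2⟩ := hx
        obtain ⟨s, hs1, hs2⟩ := hy
        refine ⟨r * s, fun h => ((c i).isPrime.mem_or_mem h).elim hr1 hs1, ?_⟩
        rw [smul_add, mul_comm, mul_smul, hr2, smul_zero, mul_comm, mul_smul, hs2, smul_zero,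
          add_zero]
    obtain ⟨r, hr1, hr2⟩ := key x
    exact hx r hr1 hr2

theorem dimM_killed (hinj : Function.Injective (PrimeSpectrum.comap (algebraMap R A)))
    {D : ℕ} (P : Ideal R) (h : dimM R D (R ⧸ P)) (M : Type v) [AddCommGroup M] [Module A M]
    (hM : ∀ r ∈ P, ∀ v : M, algebraMap R A r • v = 0) : dimM A D M := by
  intro c hc
  have hs : StrictMono (PrimeSpectrum.comap (algebraMap R A)) := by
    intro p p' hp
    refine lt_of_le_of_ne ?_ fun he => hp.ne (hinj he)
    intro r hr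
    exact hp.le hr
  have h1 := h (c.map _ hs) (fun i => ?_)
  · exact h1
  · obtain ⟨x, hx⟩ := (Module.mem_support_iff' (R := A)).1 (hc i)
    rw [Module.mem_support_iff']
    refine ⟨Submodule.Quotient.mk 1, fun s hs h0 => ?_⟩
    rw [← Submodule.Quotient.mk_smul, Submodule.Quotient.mk_eq_zero, smul_eq_mul, mul_one] at h0
    exact hx (algebraMap R A s) hs (hM s h0 x)

variable (φ : A →+* R) (q : ℕ)
  (h1 : ∀ r : R, φ (algebraMap R A r) = r ^ q) (h2 : ∀ a : A, algebraMap R A (φ a) = a ^ q)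

include h1 h2 in
/-- the spectra are order isomorphic -/
theorem spec_iso (hq : 0 < q) : Nonempty (PrimeSpectrum A ≃o PrimeSpectrum R) := by
  refine ⟨{
    toFun := PrimeSpectrum.comap (algebraMap R A)
    invFun := PrimeSpectrum.comap φ
    left_inv := ?_
    right_inv := ?_
    map_rel_iff' := ?_ }⟩
  · intro p
    ext a
    change algebraMap R A (φ a) ∈ p.asIdeal ↔ a ∈ p.asIdeal
    rw [h2]
    exact ⟨fun h => p.isPrime.mem_of_pow_mem q h, fun h => Ideal.pow_mem_of_mem _ h _ hq⟩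
  · intro p
    ext a
    change φ (algebraMap R A a) ∈ p.asIdeal ↔ a ∈ p.asIdeal
    rw [h1]
    exact ⟨fun h => p.isPrime.mem_of_pow_mem q h, fun h => Ideal.pow_mem_of_mem _ h _ hq⟩
  · intro p p'
    constructor
    · intro h a ha
      have h3 : φ a ∈ (PrimeSpectrum.comap (algebraMap R A) p).asIdeal := by
        change algebraMap R A (φ a) ∈ p.asIdeal
        rw [h2]
        exact Ideal.pow_mem_of_mem _ ha _ hq
      have h4 := h h3
      change algebraMap R A (φ a) ∈ p'.asIdeal at h4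
      rw [h2] at h4
      exact p'.isPrime.mem_of_pow_mem q h4
    · intro h a ha
      exact h ha

include h2 in
theorem spec_inj (hq : 0 < q) : Function.Injective (PrimeSpectrum.comap (algebraMap R A)) := by
  intro p p' h
  ext a
  have h3 : ∀ P : PrimeSpectrum A, a ∈ P.asIdeal ↔
      φ a ∈ (PrimeSpectrum.comap (algebraMap R A) P).asIdeal := by
    intro P
    change _ ↔ algebraMap R A (φ a) ∈ P.asIdeal
    rw [h2]
    exact ⟨fun h => Ideal.pow_mem_of_mem _ h _ hq, fun h => P.isPrime.mem_of_pow_mem q h⟩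
  rw [h3 p, h3 p', h]

end Maps

section KosMap

variable {R : Type u} [CommRing R] [IsLocalRing R] {A : Type v} [CommRing A] [IsLocalRing A]

theorem kos_map_scalar (f : R →+* A) (n : ℕ) (y : Fin n → R) (y' : Fin n → A)
    (h : ∀ i, f (y i) = y' i) (V : Type w) [AddCommGroup V] [Module A V] :
    chG ((kos n (fun i => y i • (1 : Matrix Unit Unit R)) (scalar_comm y)).map f) V n =
      chG (kos n (fun i => y' i • (1 : Matrix Unit Unit A)) (scalar_comm y')) V n := by
  unfold chG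
  have key : ∀ j, Hc ((kos n (fun i => y i • (1 : Matrix Unit Unit R)) (scalar_comm y)).map f) V j =
      Hc (kos n (fun i => y' i • (1 : Matrix Unit Unit A)) (scalar_comm y')) V j := by
    intro j
    refine Hc_congr (G := (kos n (fun i => y i • (1 : Matrix Unit Unit R)) (scalar_comm y)).map f)
      (G' := kos n (fun i => y' i • (1 : Matrix Unit Unit A)) (scalar_comm y')) rfl ?_ V j
    have h1 := kmat_map f.mapMatrix n (fun i => y i • (1 : Matrix Unit Unit R))
    have h2 : (fun i => f.mapMatrix (y i • (1 : Matrix Unit Unit R))) =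
        fun i => y' i • (1 : Matrix Unit Unit A) := by
      funext i
      ext a b
      rw [RingHom.mapMatrix_apply, Matrix.map_apply, Matrix.smul_apply, Matrix.smul_apply,
        smul_eq_mul, smul_eq_mul, map_mul, h i, Subsingleton.elim a b, Matrix.one_apply_eq,
        Matrix.one_apply_eq, map_one]
    rw [h2] at h1
    ext ⟨i, a⟩ ⟨k, b⟩
    change f (kmat n (fun i => y i • (1 : Matrix Unit Unit R)) i k a b) =
      kmat n (fun i => y' i • (1 : Matrix Unit Unit A)) i k a b
    rw [← h1]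
    rfl
  simp only [key]

/-- Koszul complexes on powers -/
theorem kos_pow_scalar [IsNoetherianRing R] (q : ℕ) (hq : 0 < q) (D : ℕ)
    (y : Fin D → R) (N : ℕ) (hW : ∀ r ∈ maximalIdeal R ^ N, ∃ W : Fin D → Matrix Unit Unit R,
      ∑ i, (y i • (1 : Matrix Unit Unit R)) * W i = r • (1 : Matrix Unit Unit R))
    (V : Type u) [AddCommGroup V] [Module R V] [Module.Finite R V] :
    chG (kos D (fun i => (y i ^ q) • (1 : Matrix Unit Unit R)) (scalar_comm fun i => y i ^ q)) V D =
      (q : ℤ) ^ D * chG (kos D (fun i => y i • (1 : Matrix Unit Unit R)) (scalar_comm y)) V D := by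
  rw [chG_kos, chG_kos]
  have hks := kos_serre D (fun i => y i • (1 : Matrix Unit Unit R)) (scalar_comm y) N hW V
  have hCm := Cm_ofFn (R := R) (z := endo V (fun i => y i • (1 : Matrix Unit Unit R)))
    (endo_comm V (scalar_comm y))
  have h := (Xk_pow q hq
    (List.ofFn (endo V (fun i => y i • (1 : Matrix Unit Unit R)))) hCm ⊤ ⊥ bot_le
    (fun _ _ _ _ => trivial) (fun z _ x hx => by
      rw [Submodule.mem_bot] at hx ⊢
      rw [hx, map_zero]) hks.1).2
  rw [List.length_ofFn] at h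
  have hl : (List.ofFn (endo V (fun i => y i • (1 : Matrix Unit Unit R)))).map
      (fun z => z ^ q) =
      List.ofFn (endo V (fun i => (y i ^ q) • (1 : Matrix Unit Unit R))) := by
    rw [List.map_ofFn]
    congr 1
    funext i
    refine LinearMap.ext fun x => ?_
    change ((act (y i • (1 : Matrix Unit Unit R)) V) ^ q) x =
      act ((y i ^ q) • (1 : Matrix Unit Unit R)) V x
    rw [act_smul, act_one]
    clear h
    generalize q = k
    induction k with
    | zero => simp
    | succ k ih =>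
      rw [pow_succ', Module.End.mul_apply, ih, act_smul, act_one, pow_succ', mul_smul]
  rw [hl] at h
  rw [h]

end KosMap

section Frob

variable {R : Type u} [CommRing R] [IsLocalRing R] [IsNoetherianRing R]
  {A : Type u} [CommRing A] [IsLocalRing A] [IsNoetherianRing A] [Algebra R A] [Module.Flat R A]
  [IsLocalHom (algebraMap R A)]
  (φ : A →+* R) (q : ℕ)
  (h1 : ∀ r : R, φ (algebraMap R A r) = r ^ q) (h2 : ∀ a : A, algebraMap R A (φ a) = a ^ q)
  (hm : (maximalIdeal R).map (algebraMap R A) = maximalIdeal A)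

omit [IsNoetherianRing R] [IsLocalRing A] [IsNoetherianRing A] [Algebra R A] [Module.Flat R A]
  [IsLocalHom (algebraMap R A)] in
theorem twist_chG2 {D : ℕ} {ι : Type} [Fintype ι] {G : FCx A ι} (hG : SerreLike G D)
    (hφ : φ.Finite) (V : Type u) [AddCommGroup V] [Module R V] [Module.Finite R V] :
    (∀ j, Hc (G.map φ) V j ≠ ⊤) ∧
      chG G (Tw2 φ V) D = ((twc2 φ).toNat : ℤ) * chG (G.map φ) V D := by
  have := Tw_finite2 φ hφ V
  have hfin := hG.fin (Tw2 φ V)
  refine ⟨fun j => ne_top_of_le_ne_top (hfin j) (Hc_twist_le2 G φ V j), ?_⟩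
  unfold chG
  rw [Finset.mul_sum]
  refine Finset.sum_congr rfl fun j _ => ?_
  rw [Hc_twist2 G φ V j (hfin j), ENat.toNat_mul]
  push_cast
  ring

include h1 hm in
theorem sop_complex2 (hq : 0 < q) (D : ℕ) (hD : ringKrullDim R = D) :
    ∃ (ι : Type) (_ : Fintype ι) (G : FCx A ι), SerreLike G D ∧
      (∀ (V : Type u) [AddCommGroup V] [Module R V] [Module.Finite R V], ¬ dimM R D V →
        0 < chG G (A ⊗[R] V) D) ∧
      ∀ (V : Type u) [AddCommGroup V] [Module R V] [Module.Finite R V],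
        chG (G.map φ) V D = (q : ℤ) ^ D * chG G (A ⊗[R] V) D := by
  obtain ⟨ys, hlen, hys, N, hN⟩ := exists_sop (R := R) D hD
  obtain ⟨y, hy⟩ : ∃ y : Fin D → R, ys = List.ofFn y := by
    subst hlen
    exact ⟨ys.get, (List.ofFn_get ys).symm⟩
  subst hy
  have hspan : maximalIdeal R ^ N ≤ Ideal.span (Set.range y) := by
    intro r hr
    have := hN hr
    unfold Ideal.ofList at this
    have h2 : {x | x ∈ List.ofFn y} = Set.range y := by
      ext x
      exact List.mem_ofFn' _ _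
    rwa [h2] at this
  have hW : ∀ r ∈ maximalIdeal R ^ N, ∃ W : Fin D → Matrix Unit Unit R,
      ∑ i, (y i • (1 : Matrix Unit Unit R)) * W i = r • (1 : Matrix Unit Unit R) := by
    intro r hr
    obtain ⟨a, ha⟩ := Ideal.mem_span_range_iff_exists_fun.1 (hspan hr)
    refine ⟨fun i => a i • 1, ?_⟩
    rw [← ha, Finset.sum_smul]
    refine Finset.sum_congr rfl fun i _ => ?_
    rw [smul_mul_smul_comm, one_mul, mul_comm]
  set y' : Fin D → A := fun i => algebraMap R A (y i) with hy'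
  have hspan' : maximalIdeal A ^ N ≤ Ideal.span (Set.range y') := by
    rw [← hm, ← Ideal.map_pow]
    refine (Ideal.map_mono hspan).trans ?_
    rw [Ideal.map_span]
    refine Ideal.span_mono ?_
    rintro _ ⟨_, ⟨i, rfl⟩, rfl⟩
    exact ⟨i, rfl⟩
  have hW' : ∀ r ∈ maximalIdeal A ^ N, ∃ W : Fin D → Matrix Unit Unit A,
      ∑ i, (y' i • (1 : Matrix Unit Unit A)) * W i = r • (1 : Matrix Unit Unit A) := by
    intro r hr
    obtain ⟨a, ha⟩ := Ideal.mem_span_range_iff_exists_fun.1 (hspan' hr)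
    refine ⟨fun i => a i • 1, ?_⟩
    rw [← ha, Finset.sum_smul]
    refine Finset.sum_congr rfl fun i _ => ?_
    rw [smul_mul_smul_comm, one_mul, mul_comm]
  have hser := kos_serreLike D (fun i => y' i • (1 : Matrix Unit Unit A)) (scalar_comm y') N hW'
  have hbc : ∀ (V : Type u) [AddCommGroup V] [Module R V],
      chG (kos D (fun i => y' i • (1 : Matrix Unit Unit A)) (scalar_comm y')) (A ⊗[R] V) D =
        chG (kos D (fun i => y i • (1 : Matrix Unit Unit R)) (scalar_comm y)) V D := by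
    intro V _ _
    rw [← kos_map_scalar (algebraMap R A) D y y' (fun i => rfl), chG_bc_mul, hm]
    have hsimp : IsSimpleModule A (A ⧸ maximalIdeal A) :=
      isSimpleModule_iff_quot_maximal.2 ⟨maximalIdeal A, inferInstance, ⟨LinearEquiv.refl _ _⟩⟩
    have hl : Module.length A (A ⧸ maximalIdeal A) = 1 := Module.length_eq_one A _
    rw [hl]
    simp
  refine ⟨KI D × Unit, inferInstance, kos D (fun i => y' i • 1) (scalar_comm y'), hser, ?_, ?_⟩
  · intro V _ _ _ hV
    rw [hbc, chG_kos, endo_scalar]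
    have hfin := (kos_serre D (fun i => y i • (1 : Matrix Unit Unit R)) (scalar_comm y) N hW V).1
    rw [endo_scalar] at hfin
    refine Xk_pos (List.ofFn y) hys ⊤ ⊥ bot_le hfin ?_
    rw [List.length_ofFn]
    exact fun h => hV (dimM_of_dimlt h)
  · intro V _ _ _
    rw [hbc, kos_map_scalar φ D y' (fun i => y i ^ q) (fun i => h1 (y i)),
      kos_pow_scalar q hq D y N hW V]

include h1 h2 hm in
theorem xi_frob2_prime (hq : 0 < q) (hφ : φ.Finite) (D : ℕ) (hD : ringKrullDim R = D)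
    (hA : ∀ c : LTSeries (PrimeSpectrum A), c.length ≤ D) (ξ : Xi A D) (P : Ideal R)
    [hP : P.IsPrime] :
    ξ.f (Tw2 φ (R ⧸ P)) = ((twc2 φ).toNat : ℤ) * ((q : ℤ) ^ D * ξ.f (A ⊗[R] (R ⧸ P))) := by
  have i1 := Tw_finite2 φ hφ (R ⧸ P)
  have hinj := spec_inj φ q h2 hq
  have hk1 : ∀ a ∈ P.comap φ, ∀ v : Tw2 φ (R ⧸ P), a • v = 0 := by
    intro a ha v
    change φ a • (show R ⧸ P from v) = 0
    obtain ⟨x, hx⟩ := Ideal.Quotient.mk_surjective (show R ⧸ P from v)
    rw [← hx]
    change Ideal.Quotient.mk P (φ a * x) = 0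
    exact Ideal.Quotient.eq_zero_iff_mem.2 (Ideal.mul_mem_right _ _ ha)
  have hk2 : ∀ a ∈ P.map (algebraMap R A), ∀ v : A ⊗[R] (R ⧸ P), a • v = 0 := by
    intro a ha v
    have h3 : P.map (algebraMap R A) ≤ Module.annihilator A (A ⊗[R] (R ⧸ P)) := by
      rw [Ideal.map_le_iff_le_comap]
      intro r hr
      rw [Ideal.mem_comap, Module.mem_annihilator]
      intro v
      induction v using TensorProduct.induction_on with
      | zero => rw [smul_zero]
      | tmul s n =>
        rw [TensorProduct.smul_tmul', smul_eq_mul, ← Algebra.smul_def, TensorProduct.smul_tmul]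
        have : r • n = 0 := by
          obtain ⟨x, rfl⟩ := Ideal.Quotient.mk_surjective n
          change Ideal.Quotient.mk P (r * x) = 0
          exact Ideal.Quotient.eq_zero_iff_mem.2 (Ideal.mul_mem_right _ _ hr)
        rw [this, TensorProduct.tmul_zero]
      | add a b ha hb => rw [smul_add, ha, hb, add_zero]
    exact Module.mem_annihilator.1 (h3 ha) v
  have hPP : P.map (algebraMap R A) ≤ P.comap φ := by
    rw [Ideal.map_le_iff_le_comap]
    intro r hr
    change φ (algebraMap R A r) ∈ P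
    rw [h1]
    exact Ideal.pow_mem_of_mem _ hr _ hq
  obtain ⟨N, hN⟩ : ∃ N, (P.comap φ) ^ N ≤ P.map (algebraMap R A) := by
    refine Ideal.exists_pow_le_of_le_radical_of_fg ?_ (IsNoetherian.noetherian _)
    intro a ha
    refine ⟨q, ?_⟩
    rw [← h2]
    exact Ideal.mem_map_of_mem _ ha
  obtain ⟨m, hmm⟩ := xi_rank hA (P.comap φ) (Tw2 φ (R ⧸ P)) hk1
  obtain ⟨m', hmm'⟩ := xi_rank_pow hA (P.comap φ) N (A ⊗[R] (R ⧸ P))
    (fun a ha v => hk2 a (hN ha) v)
  by_cases hdim : dimM R D (R ⧸ P)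
  · rw [ξ.van _ (dimM_killed hinj P hdim _ (fun r hr v =>
      hk1 _ (hPP (Ideal.mem_map_of_mem _ hr)) v)),
      ξ.van _ (dimM_killed hinj P hdim _ (fun r hr v => hk2 _ (Ideal.mem_map_of_mem _ hr) v)),
      mul_zero, mul_zero]
  · obtain ⟨ι', _, G', hG', hpos, hfr⟩ := sop_complex2 φ q h1 hm hq D hD
    have e1 : chG G' (Tw2 φ (R ⧸ P)) D = m * chG G' (A ⧸ P.comap φ) D := hmm hG'.xi
    have e2 : chG G' (A ⊗[R] (R ⧸ P)) D = m' * chG G' (A ⧸ P.comap φ) D := hmm' hG'.xi
    rw [(twist_chG2 φ hG' hφ (R ⧸ P)).2, hfr (R ⧸ P), e2] at e1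
    have e3 := hpos (R ⧸ P) hdim
    rw [e2] at e3
    have e4 : chG G' (A ⧸ P.comap φ) D ≠ 0 := by
      intro h0
      rw [h0, mul_zero] at e3
      exact lt_irrefl _ e3
    have e5 : ((twc2 φ).toNat : ℤ) * ((q : ℤ) ^ D * m') = m := by
      refine mul_right_cancel₀ e4 ?_
      rw [← e1]
      ring
    rw [hmm ξ, hmm' ξ, ← e5]
    ring

include h1 h2 hm in
/-- the Frobenius formula for additive functions -/
theorem xi_frob2 (hq : 0 < q) (hφ : φ.Finite) (D : ℕ) (hD : ringKrullDim R = D)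
    (hA : ∀ c : LTSeries (PrimeSpectrum A), c.length ≤ D) (ξ : Xi A D)
    (V : Type u) [AddCommGroup V] [Module R V] [hV : Module.Finite R V] :
    ξ.f (Tw2 φ V) = ((twc2 φ).toNat : ℤ) * ((q : ℤ) ^ D * ξ.f (A ⊗[R] V)) := by
  induction hV using IsNoetherianRing.induction_on_isQuotientEquivQuotientPrime R with
  | subsingleton N =>
    have : Subsingleton (Tw2 φ N) := ‹Subsingleton N›
    rw [ξ.zero, ξ.zero, mul_zero, mul_zero]
  | quotient N P ε =>
    have i1 := Tw_finite2 φ hφ N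
    have i2 := Tw_finite2 φ hφ (R ⧸ P.asIdeal)
    rw [ξ.equiv (ε.baseChange R A _ _), ξ.equiv (v3Equiv2 φ ε)]
    exact xi_frob2_prime φ q h1 h2 hm hq hφ D hD hA ξ P.asIdeal
  | exact N₁ N₂ N₃ f g hf hg hfg h₁ h₃ =>
    have i1 := Tw_finite2 φ hφ N₁
    have i2 := Tw_finite2 φ hφ N₂
    have i3 := Tw_finite2 φ hφ N₃
    rw [ξ.add (A ⊗[R] N₁) (A ⊗[R] N₂) (A ⊗[R] N₃) (f.baseChange A) (g.baseChange A)
        (Module.Flat.lTensor_preserves_injective_linearMap (M := A) f hf)
        (LinearMap.lTensor_surjective A hg) (lTensor_exact A hfg hg),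
      ξ.add (Tw2 φ N₁) (Tw2 φ N₂) (Tw2 φ N₃) (v3Map2 φ f) (v3Map2 φ g) hf hg hfg, h₁, h₃]
    ring

/-- pull back of an additive function along flat base change -/
noncomputable def Xi.bc {D : ℕ} (ξ : Xi A D)
    (hinj : Function.Injective (PrimeSpectrum.comap (algebraMap R A))) : Xi R D where
  f N _ _ := ξ.f (A ⊗[R] N)
  add N₁ N₂ N₃ _ _ _ _ _ _ _ _ _ g h hg hh hgh :=
    ξ.add (A ⊗[R] N₁) (A ⊗[R] N₂) (A ⊗[R] N₃) (g.baseChange A) (h.baseChange A)
      (Module.Flat.lTensor_preserves_injective_linearMap (M := A) g hg)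
      (LinearMap.lTensor_surjective A hh) (lTensor_exact A hgh hh)
  van N _ _ _ hd := ξ.van _ (dimM_bc hinj N hd)

end Frob

end Vale.Agent.P202C.SA

namespace Vale.Agent.P202C

open IsLocalRing TensorProduct

universe u v w

/-- the twist of a submodule -/
def v3SubEquiv2 {A : Type u} [CommRing A] {R : Type v} [CommRing R] (φ : A →+* R)
    {M : Type w} [AddCommGroup M] [Module R M]
    (N : Submodule R M) : v3Sub2 φ N ≃ₗ[A] Tw2 φ N where
  toFun x := (⟨x.1, x.2⟩ : N)
  map_add' := fun _ _ => rfl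
  map_smul' := fun _ _ => rfl
  invFun x := ⟨(show N from x).1, (show N from x).2⟩
  left_inv := fun _ => rfl
  right_inv := fun _ => rfl

section

variable {R : Type u} [CommRing R] [IsLocalRing R] [IsNoetherianRing R]
  {A : Type u} [CommRing A] [IsLocalRing A] [IsNoetherianRing A] [Algebra R A] [Module.Flat R A]
  [IsLocalHom (algebraMap R A)]
  {S : Type v} [CommRing S] [IsLocalRing S] [IsNoetherianRing S] [Algebra A S]
  [Module.Flat A S] [IsLocalHom (algebraMap A S)]
  (φ : A →+* R) (q : ℕ)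

/-- the two-ring version of U2 and U3 -/
theorem KS_comb2 (hφ : φ.Finite) (hq : 0 < q)
    (h1 : ∀ r : R, φ (algebraMap R A r) = r ^ q) (h2 : ∀ a : A, algebraMap R A (φ a) = a ^ q)
    (hm : (maximalIdeal R).map (algebraMap R A) = maximalIdeal A)
    (hfib : Module.length S (S ⧸ (maximalIdeal A).map (algebraMap A S)) ≠ ⊤)
    (D : ℕ) (hD : ringKrullDim R = D) (z : Fin D → S)
    (hzl : Module.length S (S ⧸ Ideal.span (Set.range z)) ≠ ⊤)
    (V : Type u) [AddCommGroup V] [Module R V] [Module.Finite R V] (m : ℕ)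
    (f : V →ₗ[R] (Fin m → R)) (y : R) (N : ℕ) (hf : Function.Injective f)
    (hy' : y ∈ nonZeroDivisors R)
    (hfy : ∀ v : Fin m → R, y ^ N • v ∈ LinearMap.range f) :
    ringKrullDim A = D ∧ twc2 φ ≠ ⊤ ∧ twc2 φ ≠ 0 ∧
    (∀ j, Hc (KS z) (S ⊗[A] Tw2 φ V) j ≠ ⊤) ∧
    MI.chiG (KS z) (S ⊗[A] Tw2 φ V) D =
      ((twc2 φ).toNat : ℤ) * (q : ℤ) ^ D * (m * MI.chiG (KS z) S D) := by
  obtain ⟨iso⟩ := SA.spec_iso φ q h1 h2 hq
  have hinj := SA.spec_inj φ q h2 hq
  have hDA : ringKrullDim A = D := by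
    rw [← hD]
    exact Order.krullDim_eq_of_orderIso iso
  have i1 := Tw_finite2 φ hφ V
  refine ⟨hDA, twc_ne_top2 _ hφ (fun r hr => ?_), twc_ne_zero2 _, kss_fin z hzl _, ?_⟩
  · rw [mem_maximalIdeal, mem_nonunits_iff] at hr ⊢
    intro hu
    apply hr
    have h3 := hu.map (algebraMap R A)
    rw [h2] at h3
    exact (isUnit_pow_iff hq.ne').1 h3
  · have e1 := SA.xi_frob2 φ q h1 h2 hm hq hφ D hD (ksf_chains D hDA) (ksfXi z hzl hfib) V
    have e2 := ((ksfXi z hzl hfib).bc (R := R) hinj).sub_free (ksf_chains D hD) m f hf y hy' N hfy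
    have e3 : (ksfXi z hzl hfib).f (A ⊗[R] V) = m * (ksfXi z hzl hfib).f (A ⊗[R] R) := e2
    have e4 : (ksfXi z hzl hfib).f (A ⊗[R] R) = MI.chiG (KS z) S D := by
      rw [(ksfXi z hzl hfib).equiv (TensorProduct.AlgebraTensorModule.rid R A A)]
      exact SA.chG_equiv (KS z) (TensorProduct.AlgebraTensorModule.rid A S S) D
    rw [e3, e4] at e1
    rw [mul_assoc]
    exact e1

/-- the same for the base change of the twist of a submodule -/
theorem KS_comb_sub2 (hφ : φ.Finite) (hq : 0 < q)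
    (h1 : ∀ r : R, φ (algebraMap R A r) = r ^ q) (h2 : ∀ a : A, algebraMap R A (φ a) = a ^ q)
    (hm : (maximalIdeal R).map (algebraMap R A) = maximalIdeal A)
    (hfib : Module.length S (S ⧸ (maximalIdeal A).map (algebraMap A S)) ≠ ⊤)
    (D : ℕ) (hD : ringKrullDim R = D) (z : Fin D → S)
    (hzl : Module.length S (S ⧸ Ideal.span (Set.range z)) ≠ ⊤)
    {X : Type w} [AddCommGroup X] [Module R X] (M : Submodule R X) [Module.Finite R M] (m : ℕ)
    (f : M →ₗ[R] (Fin m → R)) (y : R) (N : ℕ) (hf : Function.Injective f)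
    (hy' : y ∈ nonZeroDivisors R)
    (hfy : ∀ v : Fin m → R, y ^ N • v ∈ LinearMap.range f) :
    ringKrullDim A = D ∧ twc2 φ ≠ ⊤ ∧ twc2 φ ≠ 0 ∧
    (∀ j, Hc (KS z) (S ⊗[A] (v3Sub2 φ M)) j ≠ ⊤) ∧
    (∀ j, Hc (KS z) ((v3Sub2 φ M).baseChange S) j ≠ ⊤) ∧
    MI.chiG (KS z) (S ⊗[A] (v3Sub2 φ M)) D =
      ((twc2 φ).toNat : ℤ) * (q : ℤ) ^ D * (m * MI.chiG (KS z) S D) ∧
    MI.chiG (KS z) ((v3Sub2 φ M).baseChange S) D =
      ((twc2 φ).toNat : ℤ) * (q : ℤ) ^ D * (m * MI.chiG (KS z) S D) := by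
  let ε : M ≃ₗ[R] LinearMap.range f := LinearEquiv.ofInjective f hf
  have key := KS_comb2 φ q hφ hq h1 h2 hm hfib D hD z hzl (LinearMap.range f) m
    (LinearMap.range f).subtype y N (LinearMap.range f).subtype_injective hy' (by
      intro v
      rw [Submodule.range_subtype]
      exact hfy v)
  have e1 : (v3Sub2 φ M) ≃ₗ[A] Tw2 φ (LinearMap.range f) :=
    (v3SubEquiv2 φ M).trans (v3Equiv2 φ ε)
  have e2 : (S ⊗[A] (v3Sub2 φ M)) ≃ₗ[S] (S ⊗[A] Tw2 φ (LinearMap.range f)) :=
    e1.baseChange A S _ _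
  have h3 := SA.chG_baseChange (D := D) (KS z) (v3Sub2 φ M) (S := S)
  have h4 : MI.chiG (KS z) ((v3Sub2 φ M).baseChange S) D =
      MI.chiG (KS z) (S ⊗[A] (v3Sub2 φ M)) D := h3.2
  have h5 : MI.chiG (KS z) (S ⊗[A] (v3Sub2 φ M)) D =
      MI.chiG (KS z) (S ⊗[A] Tw2 φ (LinearMap.range f)) D :=
    SA.chG_equiv (KS z) e2 D
  have h6 : ∀ j, Hc (KS z) (S ⊗[A] (v3Sub2 φ M)) j ≠ ⊤ := fun j => by
    rw [SA.Hc_equiv (KS z) e2 j]
    exact key.2.2.2.1 j
  refine ⟨key.1, key.2.1, key.2.2.1, h6, fun j => ?_, ?_, ?_⟩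
  · rw [h3.1 j]
    exact h6 j
  · rw [h5, key.2.2.2.2]
  · rw [h4, h5, key.2.2.2.2]

end

end Vale.Agent.P202C
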