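import Vale.Agent.P202K.Frob2

/-!
P202 in characteristic p, arbitrary residue fields (helper19): the Frobenius formula with a ring
homomorphism `ψ` instead of an algebra structure.
-/

set_option autoImplicit false

namespace Vale.Agent.P202C

open IsLocalRing TensorProduct

universe u v w

/-- the two-ring version of U2 and U3 with `ψ : R → A` a ring homomorphism -/
theorem KS_comb_psi {R : Type u} [CommRing R] [IsLocalRing R] [IsNoetherianRing R]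
    {A : Type u} [CommRing A] [IsLocalRing A] [IsNoetherianRing A]
    (ψ : R →+* A) (φ : A →+* R) (q : ℕ) (hq : 0 < q) (hψ : ψ.Flat) (hloc : IsLocalHom ψ)
    (hm : (maximalIdeal R).map ψ = maximalIdeal A) (hφ : φ.Finite)
    (h1 : ∀ r : R, φ (ψ r) = r ^ q) (h2 : ∀ a : A, ψ (φ a) = a ^ q)
    {S : Type v} [CommRing S] [IsLocalRing S] [IsNoetherianRing S] [Algebra A S]
    [Module.Flat A S] [IsLocalHom (algebraMap A S)]
    (hfib : Module.length S (S ⧸ (maximalIdeal A).map (algebraMap A S)) ≠ ⊤)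
    (D : ℕ) (hD : ringKrullDim R = D) (z : Fin D → S)
    (hzl : Module.length S (S ⧸ Ideal.span (Set.range z)) ≠ ⊤)
    {X : Type w} [AddCommGroup X] [Module R X] (M : Submodule R X) [Module.Finite R M] (m : ℕ)
    (f : M →ₗ[R] (Fin m → R)) (y : R) (N : ℕ) (hf : Function.Injective f)
    (hy' : y ∈ nonZeroDivisors R)
    (hfy : ∀ v : Fin m → R, y ^ N • v ∈ LinearMap.range f) :
    ringKrullDim A = D ∧ twc2 φ ≠ ⊤ ∧ twc2 φ ≠ 0 ∧
    (∀ j, Hc (KS z) (S ⊗[A] (v3Sub2 φ M)) j ≠ ⊤) ∧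
    (∀ j, Hc (KS z) ((v3Sub2 φ M).baseChange S) j ≠ ⊤) ∧
    MI.chiG (KS z) (S ⊗[A] (v3Sub2 φ M)) D =
      ((twc2 φ).toNat : ℤ) * (q : ℤ) ^ D * (m * MI.chiG (KS z) S D) ∧
    MI.chiG (KS z) ((v3Sub2 φ M).baseChange S) D =
      ((twc2 φ).toNat : ℤ) * (q : ℤ) ^ D * (m * MI.chiG (KS z) S D) := by
  letI : Algebra R A := ψ.toAlgebra
  haveI : Module.Flat R A := hψ
  haveI : IsLocalHom (algebraMap R A) := hloc
  exact KS_comb_sub2 φ q hφ hq h1 h2 hm hfib D hD z hzl M m f y N hf hy' hfy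

/-- the same for `q = p ^ e` -/
theorem KS_comb_psi_pow {R : Type u} [CommRing R] [IsLocalRing R] [IsNoetherianRing R]
    {A : Type u} [CommRing A] [IsLocalRing A] [IsNoetherianRing A]
    (p : ℕ) (hp : 0 < p) (e : ℕ)
    (ψ : R →+* A) (φ : A →+* R) (hψ : ψ.Flat) (hloc : IsLocalHom ψ)
    (hm : (maximalIdeal R).map ψ = maximalIdeal A) (hφ : φ.Finite)
    (h1 : ∀ r : R, φ (ψ r) = r ^ p ^ e) (h2 : ∀ a : A, ψ (φ a) = a ^ p ^ e)
    {S : Type v} [CommRing S] [IsLocalRing S] [IsNoetherianRing S] [Algebra A S]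
    [Module.Flat A S] [IsLocalHom (algebraMap A S)]
    (hfib : Module.length S (S ⧸ (maximalIdeal A).map (algebraMap A S)) ≠ ⊤)
    (D : ℕ) (hD : ringKrullDim R = D) (z : Fin D → S)
    (hzl : Module.length S (S ⧸ Ideal.span (Set.range z)) ≠ ⊤)
    {X : Type w} [AddCommGroup X] [Module R X] (M : Submodule R X) [Module.Finite R M] (m : ℕ)
    (f : M →ₗ[R] (Fin m → R)) (y : R) (N : ℕ) (hf : Function.Injective f)
    (hy' : y ∈ nonZeroDivisors R)
    (hfy : ∀ v : Fin m → R, y ^ N • v ∈ LinearMap.range f) :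
    twc2 φ ≠ ⊤ ∧ twc2 φ ≠ 0 ∧
    (∀ j, Hc (KS z) ((v3Sub2 φ M).baseChange S) j ≠ ⊤) ∧
    MI.chiG (KS z) (S ⊗[A] (v3Sub2 φ M)) D =
      ((twc2 φ).toNat : ℤ) * (p : ℤ) ^ (e * D) * (m * MI.chiG (KS z) S D) ∧
    MI.chiG (KS z) ((v3Sub2 φ M).baseChange S) D =
      ((twc2 φ).toNat : ℤ) * (p : ℤ) ^ (e * D) * (m * MI.chiG (KS z) S D) := by
  have h := KS_comb_psi ψ φ (p ^ e) (pow_pos hp e) hψ hloc hm hφ h1 h2 hfib D hD z hzl M m f y N
    hf hy' hfy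
  have e1 : (((p ^ e : ℕ) : ℤ)) ^ D = (p : ℤ) ^ (e * D) := by
    push_cast
    rw [← pow_mul]
  rw [e1] at h
  exact ⟨h.2.1, h.2.2.1, h.2.2.2.2.1, h.2.2.2.2.2.1, h.2.2.2.2.2.2⟩

end Vale.Agent.P202C
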