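import Vale.Agent.P202Y.Ps

/-! # P202K, K0: complete local rings with F-finite residue field are F-finite (helper85) -/

set_option autoImplicit false

namespace Vale.Agent.P202K

open IsLocalRing

universe u v w

theorem K0_gen {R : Type u} {T : Type v} [CommRing R] [CommRing T] [IsLocalRing T]
    [IsNoetherianRing T] (g : R →+* T)
    (h : ∃ (n : ℕ) (V : Fin n → T), ∀ t : T, ∃ c : Fin n → R,
      t - ∑ i, g (c i) * V i ∈ maximalIdeal T) (N : ℕ) :
    ∃ (n : ℕ) (U : Fin n → T), ∀ t : T, ∃ c : Fin n → R,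
      t - ∑ i, g (c i) * U i ∈ maximalIdeal T ^ N := by
  obtain ⟨m, V, hV⟩ := h
  induction N with
  | zero => exact ⟨0, Fin.elim0, fun r => ⟨Fin.elim0, by simp⟩⟩
  | succ N ih =>
    obtain ⟨n, U, hU⟩ := ih
    obtain ⟨s, G, hG⟩ := Submodule.fg_iff_exists_fin_generating_family.mp
      (IsNoetherian.noetherian (maximalIdeal T ^ N))
    have key : ∃ W : Fin n ⊕ (Fin s × Fin m) → T, ∀ r : T, ∃ c : Fin n ⊕ (Fin s × Fin m) → R,
        r - ∑ i, g (c i) * W i ∈ maximalIdeal T ^ (N + 1) := by
      refine ⟨Sum.elim U (fun q => G q.1 * V q.2), fun r => ?_⟩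
      obtain ⟨c, hc⟩ := hU r
      rw [← hG] at hc
      obtain ⟨a, ha⟩ := (Submodule.mem_span_range_iff_exists_fun T).mp hc
      choose d hd using fun j => hV (a j)
      refine ⟨Sum.elim c (fun q => d q.1 q.2), ?_⟩
      rw [Fintype.sum_sum_type]
      simp only [Sum.elim_inl, Sum.elim_inr]
      rw [Fintype.sum_prod_type, ← sub_sub, ← ha, ← Finset.sum_sub_distrib]
      refine Ideal.sum_mem _ fun j _ => ?_
      have e1 : a j • G j - ∑ v, g (d j v) * (G j * V v) =
          (a j - ∑ v, g (d j v) * V v) * G j := by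
        rw [smul_eq_mul, sub_mul, Finset.sum_mul]
        congr 1
        exact Finset.sum_congr rfl fun v _ => by ring
      rw [e1, pow_succ']
      refine Ideal.mul_mem_mul (hd j) ?_
      have : G j ∈ Submodule.span T (Set.range G) := Submodule.subset_span ⟨j, rfl⟩
      rwa [hG] at this
    obtain ⟨W, hW⟩ := key
    let e := Fintype.equivFin (Fin n ⊕ (Fin s × Fin m))
    refine ⟨_, W ∘ e.symm, fun r => ?_⟩
    obtain ⟨c, hc⟩ := hW r
    refine ⟨c ∘ e.symm, ?_⟩
    have : ∑ i, g ((c ∘ e.symm) i) * (W ∘ e.symm) i = ∑ i, g (c i) * W i :=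
      Equiv.sum_comp e.symm (fun i => g (c i) * W i)
    rwa [this]

/-- a local homomorphism which is finite on residue fields, with Artinian closed fibre and complete
source, is finite -/
theorem finite_of_residue {R : Type u} {T : Type v} [CommRing R] [CommRing T] [IsLocalRing T]
    [IsNoetherianRing T] (g : R →+* T) (I : Ideal R) [IsPrecomplete I R]
    [IsHausdorff (maximalIdeal T) T] (hI : I.map g ≤ maximalIdeal T) (N : ℕ)
    (hN : maximalIdeal T ^ N ≤ I.map g)
    (h : ∃ (n : ℕ) (V : Fin n → T), ∀ t : T, ∃ c : Fin n → R,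
      t - ∑ i, g (c i) * V i ∈ maximalIdeal T) : g.Finite := by
  classical
  letI : Algebra R T := g.toAlgebra
  change Module.Finite R T
  obtain ⟨n, U, hU⟩ := K0_gen g h N
  haveI : IsHausdorff (I.map (algebraMap R T)) T :=
    ⟨fun x hx => IsHausdorff.haus ‹IsHausdorff (maximalIdeal T) T› x fun n => by
      have := hx n
      rw [SModEq.zero] at this ⊢
      exact Submodule.smul_mono_left (Ideal.pow_right_mono hI n) this⟩
  haveI : IsHausdorff I T := IsHausdorff.map_algebraMap_iff.mp ‹_›
  let f : (Fin n → R) →ₗ[R] T := Fintype.linearCombination R U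
  haveI : IsPrecomplete I (Fin n → R) := P202Y.pi_precomplete _ n
  have hsurj : Function.Surjective ((Submodule.mkQ (I • ⊤ : Submodule R T)) ∘ₗ f) := by
    intro x
    obtain ⟨r, rfl⟩ := Submodule.mkQ_surjective _ x
    obtain ⟨c, hc⟩ := hU r
    refine ⟨c, ?_⟩
    rw [LinearMap.comp_apply, ← sub_eq_zero, ← map_sub, Submodule.mkQ_apply,
      Submodule.Quotient.mk_eq_zero, Ideal.smul_top_eq_map, Submodule.restrictScalars_mem]
    have h1 : f c = ∑ i, g (c i) * U i := by
      rw [Fintype.linearCombination_apply]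
      rfl
    rw [h1, ← neg_mem_iff, neg_sub]
    exact hN hc
  exact Module.Finite.of_surjective f (surjective_of_mkQ_comp_surjective hsurj)

theorem K0_span_pow {R : Type u} [CommRing R] {n : ℕ} (x : Fin n → R) (q : ℕ) :
    Ideal.span (Set.range x) ^ (n * q + 1) ≤ Ideal.span (Set.range fun i => x i ^ q) := by
  classical
  rw [Ideal.span, Submodule.span_pow, Submodule.span_le]
  intro y hy
  obtain ⟨f, hf⟩ := Set.mem_pow.mp hy
  -- `y = ∏ x (j i)`
  choose j hj using fun i => (f i).2
  have h1 : y = ∏ i, x (j i) := by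
    rw [← hf, List.prod_ofFn]
    exact Finset.prod_congr rfl fun i _ => (hj i).symm
  have h2 : y = ∏ a, x a ^ (Finset.univ.filter fun i => j i = a).card := by
    rw [h1, ← Finset.prod_fiberwise_of_maps_to (g := j) (t := Finset.univ) (fun _ _ => Finset.mem_univ _)]
    refine Finset.prod_congr rfl fun a _ => ?_
    rw [Finset.prod_congr rfl (g := fun _ => x a) (fun i hi => by
      rw [(Finset.mem_filter.mp hi).2]), Finset.prod_const]
  have h3 : ∃ a, q ≤ (Finset.univ.filter fun i => j i = a).card := by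
    by_contra hcon
    push Not at hcon
    have h4 : (Finset.univ : Finset (Fin (n * q + 1))).card ≤ n * q := by
      rw [Finset.card_eq_sum_card_fiberwise (f := j) (t := Finset.univ) (fun _ _ => Finset.mem_univ _)]
      calc ∑ a, (Finset.univ.filter fun i => j i = a).card ≤ ∑ _a : Fin n, q :=
            Finset.sum_le_sum fun a _ => (hcon a).le
        _ = n * q := by simp
    simp at h4
  obtain ⟨a, ha⟩ := h3
  rw [h2, ← Finset.mul_prod_erase _ _ (Finset.mem_univ a)]
  refine Ideal.mul_mem_right _ _ ?_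
  rw [← Nat.sub_add_cancel ha, pow_add]
  exact Ideal.mul_mem_left _ _ (Ideal.subset_span ⟨a, rfl⟩)

theorem finite_iff_gen {A : Type u} {B : Type v} [CommRing A] [CommRing B] (f : A →+* B) :
    f.Finite ↔ ∃ (n : ℕ) (V : Fin n → B), ∀ b : B, ∃ c : Fin n → A, b = ∑ i, f (c i) * V i := by
  letI : Algebra A B := f.toAlgebra
  constructor
  · intro h
    haveI : Module.Finite A B := h
    obtain ⟨n, v, hv⟩ := Module.Finite.exists_fin (R := A) (M := B)
    refine ⟨n, v, fun b => ?_⟩
    have h2 : b ∈ Submodule.span A (Set.range v) := by rw [hv]; trivial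
    obtain ⟨c, hc⟩ := (Submodule.mem_span_range_iff_exists_fun _).mp h2
    exact ⟨c, hc.symm⟩
  · rintro ⟨n, V, hV⟩
    change Module.Finite A B
    refine Module.Finite.of_surjective (Fintype.linearCombination A V) fun b => ?_
    obtain ⟨c, hc⟩ := hV b
    exact ⟨c, by rw [Fintype.linearCombination_apply, hc]; rfl⟩

/-- a complete Noetherian local ring whose residue field is F-finite is F-finite -/
theorem frob_finite_of_complete (p : ℕ) [Fact p.Prime] (R : Type u) [CommRing R] [IsLocalRing R]
    [IsNoetherianRing R] [CharP R p] [IsAdicComplete (maximalIdeal R) R]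
    [CharP (ResidueField R) p] (h : (frobenius (ResidueField R) p).Finite) :
    (frobenius R p).Finite := by
  classical
  have hp : 0 < p := (Fact.out : p.Prime).pos
  obtain ⟨s, g, hg⟩ := Submodule.fg_iff_exists_fin_generating_family.mp
    (IsNoetherian.noetherian (maximalIdeal R))
  have hg' : maximalIdeal R = Ideal.span (Set.range g) := hg.symm
  refine finite_of_residue (frobenius R p) (maximalIdeal R) ?_ (s * p + 1) ?_ ?_
  · rw [Ideal.map_le_iff_le_comap]
    intro r hr
    rw [Ideal.mem_comap, frobenius_def]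
    exact Ideal.pow_mem_of_mem _ hr p hp
  · conv_lhs => rw [hg']
    refine (K0_span_pow g p).trans ?_
    rw [Ideal.span_le]
    rintro _ ⟨i, rfl⟩
    have : g i ∈ maximalIdeal R := by rw [hg']; exact Ideal.subset_span ⟨i, rfl⟩
    exact Ideal.mem_map_of_mem (frobenius R p) this
  · obtain ⟨n, v, hv⟩ := (finite_iff_gen _).mp h
    choose V hV using fun i => residue_surjective (R := R) (v i)
    refine ⟨n, V, fun r => ?_⟩
    obtain ⟨c, hc⟩ := hv (residue R r)
    choose d hd using fun i => residue_surjective (R := R) (c i)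
    refine ⟨d, ?_⟩
    rw [← residue_eq_zero_iff, map_sub, map_sum, sub_eq_zero, hc]
    refine Finset.sum_congr rfl fun i _ => ?_
    rw [map_mul, frobenius_def, frobenius_def, map_pow, hd, hV]

end Vale.Agent.P202K
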