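import Mathlib

/-! # P202K, K1: fields of characteristic `p` are formally smooth over `F_p` (helper78) -/

set_option autoImplicit false

namespace Vale.Agent.P202K

open MvPolynomial KaehlerDifferential TensorProduct

universe u v

theorem K1_crit (F : Type v) (A : Type u) [CommRing F] [CommRing A] [Algebra F A] :
    Subsingleton (Algebra.H1Cotangent F A) ↔ ∀ f : MvPolynomial A F, aeval id f = (0 : A) →
      (∀ i, aeval id (pderiv i f) = (0 : A)) →
      f ∈ (RingHom.ker (aeval (R := F) (id : A → A))) ^ 2 := by
  let : Algebra (MvPolynomial A F) A := (aeval (R := F) (id : A → A)).toAlgebra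
  have : IsScalarTower F (MvPolynomial A F) A := IsScalarTower.of_algebraMap_eq fun r => by
    rw [RingHom.algebraMap_toAlgebra]
    simp
  have hf : Function.Surjective (algebraMap (MvPolynomial A F) A) := fun a => ⟨X a, by
    rw [RingHom.algebraMap_toAlgebra]
    simp⟩
  rw [← Algebra.FormallySmooth.kerCotangentToTensor_injective_iff hf, injective_iff_map_eq_zero]
  have key : ∀ f : MvPolynomial A F, ((1 : A) ⊗ₜ[MvPolynomial A F] D F (MvPolynomial A F) f) = 0 ↔
      ∀ i, aeval id (pderiv i f) = (0 : A) := by
    intro f
    let b := (mvPolynomialBasis F A).baseChange A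
    rw [← b.repr.map_eq_zero_iff, Finsupp.ext_iff]
    apply forall_congr'
    intro i
    simp only [b, Module.Basis.baseChange_repr_tmul, mvPolynomialBasis_repr_apply, Finsupp.coe_zero,
      Pi.zero_apply, Algebra.smul_def, mul_one]
    rfl
  constructor
  · intro h f h0 h1
    have hf0 : f ∈ RingHom.ker (algebraMap (MvPolynomial A F) A) := h0
    have := h (Ideal.toCotangent _ ⟨f, hf0⟩) (by
      rw [kerCotangentToTensor_toCotangent]
      exact (key f).2 h1)
    rw [Ideal.toCotangent_eq_zero] at this
    exact this
  · intro h x hx
    obtain ⟨⟨f, hf0⟩, rfl⟩ := Ideal.toCotangent_surjective _ x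
    rw [kerCotangentToTensor_toCotangent] at hx
    rw [Ideal.toCotangent_eq_zero]
    exact h f hf0 ((key f).1 hx)

theorem formallySmooth_field_proved (p : ℕ) [Fact p.Prime] (K : Type u) [Field K]
    [Algebra (ZMod p) K] : Algebra.FormallySmooth (ZMod p) K := by
  classical
  let F := ZMod p
  have hH : Subsingleton (Algebra.H1Cotangent F K) := by
    rw [K1_crit]
    intro f h0 h1
    let L : IntermediateField F K := IntermediateField.adjoin F (f.vars : Set K)
    have hfg : L.FG := ⟨f.vars, rfl⟩
    have : Algebra.EssFiniteType F L := IntermediateField.essFiniteType_iff.2 hfg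
    have : Algebra.FormallySmooth F L := Algebra.FormallySmooth.of_perfectField
    have hL : Subsingleton (Algebra.H1Cotangent F L) := inferInstance
    rw [K1_crit] at hL
    obtain ⟨g, hg⟩ := exists_rename_eq_of_vars_subset_range f ((↑) : L → K)
      Subtype.val_injective (by
        rw [Subtype.range_coe]
        exact IntermediateField.subset_adjoin F _)
    have hcomp : ∀ q : MvPolynomial L F,
        aeval (id : K → K) (rename ((↑) : L → K) q) = ((aeval (id : L → L) q : L) : K) := by
      intro q
      rw [aeval_rename]
      have : (aeval (id ∘ ((↑) : L → K)) : MvPolynomial L F →ₐ[F] K) =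
          (L.val).comp (aeval (id : L → L)) := by
        ext i
        simp
      rw [this]
      rfl
    have hmem := hL g (by
      apply Subtype.val_injective
      rw [← hcomp, hg]
      exact h0) (fun i => by
      apply Subtype.val_injective
      rw [← hcomp, ← pderiv_rename Subtype.val_injective, hg]
      exact h1 _)
    rw [← hg]
    have hmap : Ideal.map (rename ((↑) : L → K)) (RingHom.ker (aeval (R := F) (id : L → L))) ≤
        RingHom.ker (aeval (R := F) (id : K → K)) := by
      rw [Ideal.map_le_iff_le_comap]
      intro q hq
      rw [RingHom.mem_ker] at hq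
      rw [Ideal.mem_comap, RingHom.mem_ker, hcomp, hq]
      rfl
    have h2 := Ideal.mem_map_of_mem (rename ((↑) : L → K)) hmem
    rw [Ideal.map_pow] at h2
    exact Ideal.pow_right_mono hmap 2 h2
  exact ⟨inferInstance, hH⟩

end Vale.Agent.P202K
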