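import Vale.Agent.P202K.KDefs
import Vale.Agent.P202K.K1

/-! # P202K, module K2: coefficient fields in characteristic `p` (helper66) -/

set_option autoImplicit false

namespace Vale.Agent.P202K

open IsLocalRing

universe u

theorem exists_coeff_p_proved (p : ℕ) [Fact p.Prime] (R : Type u) [CommRing R] [IsLocalRing R]
    [CharP R p] [IsAdicComplete (maximalIdeal R) R] :
    ∃ (k : Type u) (_ : Field k) (_ : CharP k p) (a : k →+* R),
      ∀ x, ∃ t, x - a t ∈ maximalIdeal R := by
  letI : Algebra (ZMod p) R := ZMod.algebra R p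
  haveI : Algebra.FormallySmooth (ZMod p) (ResidueField R) :=
    formallySmooth_field_proved p (ResidueField R)
  let f : ResidueField R →ₐ[ZMod p] R ⧸ maximalIdeal R := AlgHom.id (ZMod p) (R ⧸ maximalIdeal R)
  obtain ⟨g, hg⟩ := Algebra.FormallySmooth.exists_mkₐ_comp_eq_of_isAdicComplete
    (R := ZMod p) (A := ResidueField R) (S := R) (I := maximalIdeal R) f
  have hch : CharP (ResidueField R) p :=
    charP_of_injective_algebraMap (algebraMap (ZMod p) (ResidueField R)).injective p
  refine ⟨ResidueField R, inferInstance, hch, g.toRingHom, fun x => ⟨residue R x, ?_⟩⟩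
  have h1 := congrArg (fun F => F (residue R x)) hg
  have h2 : Ideal.Quotient.mk (maximalIdeal R) (g (residue R x)) =
      Ideal.Quotient.mk (maximalIdeal R) x := h1
  exact Ideal.Quotient.eq.mp h2.symm

end Vale.Agent.P202K
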