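import Vale.Agent.P202Y.YD2

/-! # P202K, K3: presentations of complete local rings containing a coefficient field (helper87) -/

set_option autoImplicit false

namespace Vale.Agent.P202K

open IsLocalRing

universe u v w

/-- K3: presentations. -/
theorem exists_pres_proved (R : Type u) [CommRing R] [IsLocalRing R] [IsNoetherianRing R]
    [IsAdicComplete (maximalIdeal R) R] {k : Type v} [Field k] (a : k →+* R)
    (hk : ∀ x, ∃ t, x - a t ∈ maximalIdeal R) :
    ∃ (h : ℕ) (π : MvPowerSeries (Fin h) k →+* R), Function.Surjective π ∧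
      (∀ t, π (MvPowerSeries.C t) = a t) ∧ (∀ i, π (MvPowerSeries.X i) ∈ maximalIdeal R) := by
  obtain ⟨h, y, hy⟩ := Submodule.fg_iff_exists_fin_generating_family.mp
    (IsNoetherian.noetherian (maximalIdeal R))
  have hym : ∀ i, y i ∈ maximalIdeal R := fun i => by
    rw [← hy]; exact Submodule.subset_span ⟨i, rfl⟩
  obtain ⟨π, hC, hX⟩ := P202Y.exists_psHom_proved h a y hym
  refine ⟨h, π, ?_, hC, fun i => by rw [hX]; exact hym i⟩
  set I : Ideal (MvPowerSeries (Fin h) k) := Ideal.span (Set.range MvPowerSeries.X) with hI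
  have hIR : I.map π = maximalIdeal R := by
    rw [hI, Ideal.map_span, ← Set.range_comp]
    have : (π ∘ MvPowerSeries.X : Fin h → R) = y := funext hX
    rw [this]
    exact hy
  haveI : IsPrecomplete I (MvPowerSeries (Fin h) k) := by
    rw [hI]; infer_instance
  haveI : IsHausdorff (I.map π) R := by
    rw [hIR]; exact ‹IsAdicComplete (maximalIdeal R) R›.toIsHausdorff
  refine surjective_of_mk_map_comp_surjective (I := I) π fun x => ?_
  obtain ⟨r, rfl⟩ := Ideal.Quotient.mk_surjective x
  obtain ⟨t, ht⟩ := hk r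
  refine ⟨MvPowerSeries.C t, ?_⟩
  rw [RingHom.comp_apply, hC, Ideal.Quotient.eq, hIR, ← neg_mem_iff, neg_sub]
  exact ht

end Vale.Agent.P202K
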