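import Vale.Agent.P202K.KDefs
import Vale.Agent.P202K.K1
import Vale.Agent.P202Y.YC1

/-! # P202K, module K4a: lifting a field through a surjection of complete local rings (helper40) -/

set_option autoImplicit false

namespace Vale.Agent.P202K

open IsLocalRing Vale.Agent.P202 Vale.Agent.P202C TensorProduct

universe u v w

/-- a complete Noetherian local ring is complete for every proper ideal -/
theorem K4a_complete {A : Type u} [CommRing A] [IsLocalRing A] [IsNoetherianRing A]
    [IsAdicComplete (maximalIdeal A) A] (J : Ideal A) (hJ : J ≤ maximalIdeal A) :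
    IsAdicComplete J A := by
  have hle : ∀ n : ℕ, (J ^ n • ⊤ : Submodule A A) ≤ (maximalIdeal A ^ n • ⊤ : Submodule A A) :=
    fun n => Submodule.smul_mono_left (Ideal.pow_right_mono hJ n)
  have h1 : IsHausdorff J A := ⟨fun x hx =>
    IsHausdorff.haus (inferInstance : IsHausdorff (maximalIdeal A) A) x fun n => by
      have := hx n
      rw [SModEq.zero] at this ⊢
      exact hle n this⟩
  have h2 : IsPrecomplete J A := ⟨fun f hf => by
    obtain ⟨L, hL⟩ := IsPrecomplete.prec
      (inferInstance : IsPrecomplete (maximalIdeal A) A) (f := f) (fun {m n} hmn => by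
        have := hf hmn
        rw [SModEq.sub_mem] at this ⊢
        exact hle m this)
    refine ⟨L, fun n => ?_⟩
    rw [SModEq.sub_mem, smul_eq_mul, Ideal.mul_top]
    -- `J^n` is closed
    have h3 : ∀ k, Ideal.Quotient.mk (J ^ n) (f n - L) ∈
        (maximalIdeal A ^ k • ⊤ : Submodule A (A ⧸ J ^ n)) := by
      intro k
      have h4 : f n - L = (f n - f (max n k)) + (f (max n k) - L) := by ring
      have h5 := hf (le_max_left n k)
      rw [SModEq.sub_mem, smul_eq_mul, Ideal.mul_top] at h5
      have h6 := hL (max n k)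
      rw [SModEq.sub_mem, smul_eq_mul, Ideal.mul_top] at h6
      rw [h4, map_add, Ideal.Quotient.eq_zero_iff_mem.mpr h5, zero_add]
      have h7 : f (max n k) - L ∈ maximalIdeal A ^ k := Ideal.pow_le_pow_right (le_max_right n k) h6
      have h8 : Ideal.Quotient.mk (J ^ n) (f (max n k) - L) =
          (f (max n k) - L) • (1 : A ⧸ J ^ n) := by
        rw [Algebra.smul_def, mul_one]
        rfl
      rw [h8]
      exact Submodule.smul_mem_smul h7 Submodule.mem_top
    have h9 : Ideal.Quotient.mk (J ^ n) (f n - L) ∈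
        (⨅ k : ℕ, (maximalIdeal A ^ k • ⊤ : Submodule A (A ⧸ J ^ n))) :=
      (Submodule.mem_iInf _).mpr h3
    rw [Ideal.iInf_pow_smul_eq_bot_of_isLocalRing _ (Ideal.IsPrime.ne_top'), Submodule.mem_bot] at h9
    exact Ideal.Quotient.eq_zero_iff_mem.mp h9⟩
  exact {}

theorem exists_lift_field_proved (p : ℕ) [Fact p.Prime] {k : Type u} [Field k] [CharP k p]
    {l : Type v} [Field l] {h : ℕ} {S : Type v} [CommRing S] (π : PS h l →+* S)
    (hπ : Function.Surjective π) [Nontrivial S] (f : k →+* S) :
    ∃ κ : k →+* PS h l, ∀ t, π (κ t) = f t := by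
  -- characteristic
  have hcS : (p : S) = 0 := by
    have := congrArg f (CharP.cast_eq_zero k p)
    rwa [map_natCast, map_zero] at this
  have hcl : (p : l) = 0 := by
    have hinj : Function.Injective (π.comp (MvPowerSeries.C : l →+* PS h l)) :=
      RingHom.injective _
    apply hinj
    rw [map_natCast, map_zero, hcS]
  have : CharP l p := by
    have h1 := CharP.exists l
    obtain ⟨q, hq⟩ := h1
    have h2 : q ∣ p := (CharP.cast_eq_zero_iff l q p).mp hcl
    rcases (Nat.dvd_prime (Fact.out : p.Prime)).mp h2 with h3 | h3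
    · subst h3
      exact absurd ((CharP.cast_eq_zero_iff l 1 1).mpr dvd_rfl) (by
        rw [Nat.cast_one]
        exact one_ne_zero)
    · rwa [h3] at hq
  have : CharP (PS h l) p := charP_PS h l p
  let : Algebra (ZMod p) k := ZMod.algebra k p
  let : Algebra (ZMod p) (PS h l) := ZMod.algebra (PS h l) p
  have := formallySmooth_field_proved p k
  have : IsAdicComplete (maximalIdeal (PS h l)) (PS h l) := by
    rw [P202Y.mvps_maximal_proved]
    infer_instance
  have hJ : RingHom.ker π ≤ maximalIdeal (PS h l) := by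
    refine IsLocalRing.le_maximalIdeal fun h1 => ?_
    have h2 : (1 : PS h l) ∈ RingHom.ker π := by rw [h1]; exact Submodule.mem_top
    rw [RingHom.mem_ker, map_one] at h2
    exact one_ne_zero h2
  have := K4a_complete (RingHom.ker π) hJ
  let e := RingHom.quotientKerEquivOfSurjective hπ
  let g0 : k →+* (PS h l ⧸ RingHom.ker π) := (e.symm : S →+* (PS h l ⧸ RingHom.ker π)).comp f
  let g : k →ₐ[ZMod p] (PS h l ⧸ RingHom.ker π) :=
    { g0 with
      commutes' := fun r => RingHom.congr_fun (Subsingleton.elim
        (g0.comp (algebraMap (ZMod p) k)) (algebraMap (ZMod p) (PS h l ⧸ RingHom.ker π))) r }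
  obtain ⟨κ, hκ⟩ := Algebra.FormallySmooth.exists_mkₐ_comp_eq_of_isAdicComplete g
  refine ⟨κ.toRingHom, fun t => ?_⟩
  have h1 : Ideal.Quotient.mk (RingHom.ker π) (κ t) = g t := DFunLike.congr_fun hκ t
  have h2 := congrArg e h1
  have h3 : e (g t) = f t := e.apply_symm_apply (f t)
  rw [h3] at h2
  exact h2

end Vale.Agent.P202K
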