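import Vale.Agent.P202K.KDefs
import Vale.Agent.P202K.K4a
import Vale.Agent.P202Y.Ps2

/-! # P202K, module K4: lifting a homomorphism to the presentations (helper95) -/

set_option autoImplicit false

namespace Vale.Agent.P202K

open IsLocalRing Vale.Agent.P202 Vale.Agent.P202C TensorProduct

universe u v w

theorem K4_complete (h : ℕ) (l : Type u) [Field l] :
    IsAdicComplete (maximalIdeal (PS h l)) (PS h l) := by
  have h1 : maximalIdeal (PS h l) = Ideal.span (Set.range MvPowerSeries.X) := by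
    rw [P202Y.maxIdeal_mvps, Ideal.ofList]
    congr 1
    ext x
    simp [List.mem_ofFn]
  rw [h1]
  infer_instance

/-- K4: lifting the homomorphism `f : R → S` to the presentations, and the Frobenius companion. -/
theorem exists_lift_proved (p : ℕ) [Fact p.Prime] (e : ℕ) {k : Type u} [Field k] [CharP k p]
    {l : Type v} [Field l] [CharP l p] {h h' : ℕ} {R : Type u} {S : Type v} [CommRing R]
    [IsLocalRing R] [CommRing S] [IsLocalRing S] [IsNoetherianRing S]
    [IsAdicComplete (maximalIdeal S) S] (f : R →+* S) [IsLocalHom f] (πR : PS h k →+* R)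
    (hR : ∀ i, πR (MvPowerSeries.X i) ∈ maximalIdeal R)
    (πS : PS h' l →+* S) (hS : Function.Surjective πS)
    (hS' : ∀ i, πS (MvPowerSeries.X i) ∈ maximalIdeal S) :
    ∃ (ρ β : PS h k →+* PS h' l),
      (∀ i, ρ (MvPowerSeries.X i) ∈ maximalIdeal (PS h' l)) ∧ (∀ a, πS (ρ a) = f (πR a)) ∧
      (∀ a, β (psi h k p e a) = (ρ a) ^ (p ^ e)) ∧
      (∀ i, β (MvPowerSeries.X i) = ρ (MvPowerSeries.X i) ^ (p ^ e)) := by
  have hcomp : IsAdicComplete (maximalIdeal (PS h' l)) (PS h' l) := K4_complete h' l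
  obtain ⟨κ, hκ⟩ := exists_lift_field_proved p πS hS ((f.comp πR).comp MvPowerSeries.C)
  choose g hg using fun i : Fin h => hS (f (πR (MvPowerSeries.X i)))
  have hfm : ∀ i, f (πR (MvPowerSeries.X i)) ∈ maximalIdeal S := by
    intro i
    have h1 := hR i
    rw [mem_maximalIdeal, mem_nonunits_iff] at h1 ⊢
    exact fun h2 => h1 (isUnit_of_map_unit f _ h2)
  have hgm : ∀ i, g i ∈ maximalIdeal (PS h' l) := by
    intro i
    have h1 := hfm i
    rw [← hg i] at h1
    rw [mem_maximalIdeal, mem_nonunits_iff] at h1 ⊢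
    exact fun h2 => h1 (h2.map πS)
  have hq : p ^ e ≠ 0 := pow_ne_zero e (Fact.out : p.Prime).ne_zero
  have hgq : ∀ i, g i ^ (p ^ e) ∈ maximalIdeal (PS h' l) := fun i =>
    Ideal.pow_mem_of_mem _ (hgm i) _ (Nat.pos_of_ne_zero hq)
  obtain ⟨ρ, hρC, hρX⟩ := P202Y.exists_psHom_proved h κ g hgm
  obtain ⟨β, hβC, hβX⟩ := P202Y.exists_psHom_proved h κ (fun i => g i ^ (p ^ e)) hgq
  refine ⟨ρ, β, fun i => ?_, fun a => ?_, fun a => ?_, fun i => ?_⟩
  · rw [hρX]
    exact hgm i
  · have h1 : πS.comp ρ = f.comp πR := by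
      refine P202Y.psHom_unique_proved h _ _ (fun t => ?_) (fun i => ?_) (fun i => ?_)
      · rw [RingHom.comp_apply, hρC, hκ]
        rfl
      · rw [RingHom.comp_apply, hρX, hg]
        rfl
      · rw [RingHom.comp_apply, hρX, hg]
        exact hfm i
    exact RingHom.congr_fun h1 a
  · have h1 : β.comp (psi h k p e) = (iterateFrobenius (PS h' l) p e).comp ρ := by
      refine P202Y.psHom_unique_proved h _ _ (fun t => ?_) (fun i => ?_) (fun i => ?_)
      · rw [RingHom.comp_apply, RingHom.comp_apply, hρC, psi, MvPowerSeries.map_C, hβC,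
          iterateFrobenius_def, iterateFrobenius_def, map_pow]
      · rw [RingHom.comp_apply, RingHom.comp_apply, hρX, psi, MvPowerSeries.map_X, hβX,
          iterateFrobenius_def]
      · rw [RingHom.comp_apply, psi, MvPowerSeries.map_X, hβX]
        exact hgq i
    have h2 := RingHom.congr_fun h1 a
    rw [RingHom.comp_apply, RingHom.comp_apply, iterateFrobenius_def] at h2
    exact h2
  · rw [hβX, hρX]

end Vale.Agent.P202K
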