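import Vale.Agent.P202K.KDefs
import Vale.Agent.P202C.Flat
import Vale.Agent.P202Y.YD3

/-! # P202K, module K5: flatness over a regular local ring by regular sequences (helper95) -/

set_option autoImplicit false

namespace Vale.Agent.P202K

open IsLocalRing Vale.Agent.P202 Vale.Agent.P202C TensorProduct

universe u v w

/-- homomorphisms from fields are flat -/
theorem K5_field {A : Type u} {B : Type v} [CommRing A] [CommRing B] (f : A →+* B)
    (hA : IsField A) : f.Flat := by
  let _ := f.toAlgebra
  change Module.Flat A B
  let _ := hA.toField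
  exact Module.Flat.of_free

/-- K5: a local homomorphism from a regular local ring is flat if a regular system of parameters
maps to a regular sequence. -/
theorem flat_of_regular_seq_proved (n : ℕ) {A : Type u} {B : Type v} [CommRing A] [IsLocalRing A]
    [IsNoetherianRing A] [CommRing B] [IsLocalRing B] [IsNoetherianRing B] (f : A →+* B)
    [IsLocalHom f] (rs : List A) (hn : rs.length = n) (hA : Ideal.ofList rs = maximalIdeal A)
    (hreg : RingTheory.Sequence.IsWeaklyRegular A rs)
    (hB : RingTheory.Sequence.IsWeaklyRegular B (rs.map f)) : f.Flat := by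
  induction n generalizing A B with
  | zero =>
    have h0 : rs = [] := List.length_eq_zero_iff.mp hn
    rw [h0, Ideal.ofList_nil] at hA
    exact K5_field f (IsLocalRing.isField_iff_maximalIdeal_eq.mpr hA.symm)
  | succ n ih =>
    obtain ⟨x, rs', rfl⟩ : ∃ x rs', rs = x :: rs' := by
      cases rs with
      | nil => simp at hn
      | cons x rs' => exact ⟨x, rs', rfl⟩
    have hn' : rs'.length = n := by
      rw [List.length_cons] at hn
      omega
    have hxm : x ∈ maximalIdeal A := by
      rw [← hA, Ideal.ofList_cons]
      exact Ideal.mem_sup_left (Ideal.mem_span_singleton_self x)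
    have hfx : f x ∈ maximalIdeal B := by
      rw [mem_maximalIdeal, mem_nonunits_iff] at hxm ⊢
      exact fun h => hxm (isUnit_of_map_unit f x h)
    have hneA : (Ideal.span {x} : Ideal A) ≠ ⊤ := by
      intro h
      have h1 : (Ideal.span {x} : Ideal A) ≤ maximalIdeal A := by
        rw [Ideal.span_singleton_le_iff_mem]
        exact hxm
      rw [h] at h1
      exact (maximalIdeal.isMaximal A).ne_top (top_le_iff.mp h1)
    have hneB : (Ideal.span {f x} : Ideal B) ≠ ⊤ := by
      intro h
      have h1 : (Ideal.span {f x} : Ideal B) ≤ maximalIdeal B := by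
        rw [Ideal.span_singleton_le_iff_mem]
        exact hfx
      rw [h] at h1
      exact (maximalIdeal.isMaximal B).ne_top (top_le_iff.mp h1)
    have : Nontrivial (A ⧸ Ideal.span {x}) := Ideal.Quotient.nontrivial_iff.mpr hneA
    have : Nontrivial (B ⧸ Ideal.span {f x}) := Ideal.Quotient.nontrivial_iff.mpr hneB
    have : IsLocalRing (A ⧸ Ideal.span {x}) :=
      IsLocalRing.of_surjective' (Ideal.Quotient.mk _) Ideal.Quotient.mk_surjective
    have : IsLocalRing (B ⧸ Ideal.span {f x}) :=
      IsLocalRing.of_surjective' (Ideal.Quotient.mk _) Ideal.Quotient.mk_surjective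
    have : IsLocalHom (Ideal.Quotient.mk (Ideal.span {x})) :=
      IsLocalHom.of_surjective _ Ideal.Quotient.mk_surjective
    have : IsLocalHom (Ideal.Quotient.mk (Ideal.span {f x})) :=
      IsLocalHom.of_surjective _ Ideal.Quotient.mk_surjective
    have hle : Ideal.span {x} ≤ Ideal.comap f (Ideal.span {f x}) := by
      rw [Ideal.span_singleton_le_iff_mem, Ideal.mem_comap]
      exact Ideal.mem_span_singleton_self _
    let g : A ⧸ Ideal.span {x} →+* B ⧸ Ideal.span {f x} := Ideal.quotientMap _ f hle
    have hg : ∀ a, g (Ideal.Quotient.mk _ a) = Ideal.Quotient.mk _ (f a) := fun a =>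
      Ideal.quotientMap_mk
    have hgl : IsLocalHom g := by
      constructor
      intro y hy
      obtain ⟨a, rfl⟩ := Ideal.Quotient.mk_surjective y
      rw [hg] at hy
      have h1 : IsUnit (f a) := isUnit_of_map_unit (Ideal.Quotient.mk (Ideal.span {f x})) _ hy
      have h2 : IsUnit a := isUnit_of_map_unit f a h1
      exact h2.map _
    have hmax : Ideal.ofList (rs'.map (Ideal.Quotient.mk (Ideal.span {x}))) =
        maximalIdeal (A ⧸ Ideal.span {x}) := by
      have h1 : (maximalIdeal A).map (Ideal.Quotient.mk (Ideal.span {x})) =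
          maximalIdeal (A ⧸ Ideal.span {x}) := by
        refine (IsLocalRing.eq_maximalIdeal ?_)
        refine Ideal.map_eq_top_or_isMaximal_of_surjective _ Ideal.Quotient.mk_surjective
          (maximalIdeal.isMaximal A) |>.resolve_left ?_
        intro h
        have h2 : (maximalIdeal A).map (Ideal.Quotient.mk (Ideal.span {x})) ≤
            maximalIdeal (A ⧸ Ideal.span {x}) := by
          rw [Ideal.map_le_iff_le_comap]
          intro a ha
          rw [Ideal.mem_comap, mem_maximalIdeal, mem_nonunits_iff]
          rw [mem_maximalIdeal, mem_nonunits_iff] at ha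
          exact fun h3 => ha (isUnit_of_map_unit _ a h3)
        rw [h] at h2
        exact (maximalIdeal.isMaximal _).ne_top (top_le_iff.mp h2)
      rw [← h1, ← hA, Ideal.ofList_cons, Ideal.map_sup, Ideal.map_ofList]
      have h3 : (Ideal.span {x}).map (Ideal.Quotient.mk (Ideal.span {x})) = ⊥ := by
        rw [Ideal.map_quotient_self]
      rw [h3, bot_sup_eq]
    have hgflat : g.Flat := by
      refine ih g (rs'.map (Ideal.Quotient.mk (Ideal.span {x}))) (by rw [List.length_map, hn'])
        hmax (P202Y.yd3_tail x rs' hreg) ?_
      rw [List.map_cons] at hB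
      have h1 := P202Y.yd3_tail (f x) (rs'.map f) hB
      rw [List.map_map] at h1 ⊢
      have h2 : (⇑g ∘ ⇑(Ideal.Quotient.mk (Ideal.span {x}))) =
          (⇑(Ideal.Quotient.mk (Ideal.span {f x})) ∘ ⇑f) := by
        funext a
        exact hg a
      rw [h2]
      exact h1
    have hfm : Flat.FlatMod f x := Flat.flatMod_of_flat f x (Ideal.Quotient.mk (Ideal.span {x}))
      (Ideal.Quotient.mk (Ideal.span {f x})) Ideal.Quotient.mk_surjective
      Ideal.Quotient.mk_surjective
      (fun a ha => by
        rw [Ideal.Quotient.eq_zero_iff_mem, Ideal.mem_span_singleton'] at ha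
        obtain ⟨c, hc⟩ := ha
        exact ⟨c, by rw [← hc, mul_comm]⟩)
      (fun a ha => by
        rw [Ideal.Quotient.eq_zero_iff_mem, Ideal.mem_span_singleton'] at ha
        obtain ⟨c, hc⟩ := ha
        exact ⟨c, by rw [← hc, mul_comm]⟩)
      (by rw [Ideal.Quotient.eq_zero_iff_mem]; exact Ideal.mem_span_singleton_self _)
      g hg hgflat
    refine Flat.flat_of_flatMod f hfx (fun z hz => ?_) hfm
    rw [List.map_cons, RingTheory.Sequence.isWeaklyRegular_cons_iff] at hB
    refine hB.1 (a₁ := z) (a₂ := 0) ?_
    change f x * z = f x * 0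
    rw [hz, mul_zero]

end Vale.Agent.P202K
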