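import Vale.Agent.P202K.K5
import Vale.Agent.P202Y.YC1
import Vale.Agent.P202Y.YC2

/-! # P202K, module K5a: coefficient extensions of power series rings are flat (helper66) -/

set_option autoImplicit false

namespace Vale.Agent.P202K

open IsLocalRing

universe u v

theorem K5a_local (h : ℕ) {k : Type u} {k' : Type v} [Field k] [Field k'] (j : k →+* k') :
    IsLocalHom (MvPowerSeries.map j : PS h k →+* PS h k') := by
  constructor
  intro a ha
  rw [MvPowerSeries.isUnit_iff_constantCoeff] at ha ⊢
  rw [MvPowerSeries.constantCoeff_map] at ha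
  exact isUnit_of_map_unit j _ ha

theorem K5a_max (h : ℕ) (k : Type u) [Field k] :
    Ideal.ofList (List.ofFn (MvPowerSeries.X : Fin h → MvPowerSeries (Fin h) k)) =
      maximalIdeal (PS h k) := by
  rw [P202Y.mvps_maximal_proved, Ideal.ofList]
  congr 1
  ext x
  simp [List.mem_ofFn]

theorem flat_map_PS_proved (h : ℕ) {k : Type u} {k' : Type v} [Field k] [Field k'] (j : k →+* k') :
    (MvPowerSeries.map j : PS h k →+* PS h k').Flat := by
  have hloc := K5a_local h j
  refine flat_of_regular_seq_proved h (MvPowerSeries.map j : PS h k →+* PS h k')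
    (List.ofFn (MvPowerSeries.X : Fin h → MvPowerSeries (Fin h) k)) List.length_ofFn
    (K5a_max h k) (P202Y.mvps_regular_proved h k).toIsWeaklyRegular ?_
  have h1 : (List.ofFn (MvPowerSeries.X : Fin h → MvPowerSeries (Fin h) k)).map
      (MvPowerSeries.map j : PS h k →+* PS h k') =
      List.ofFn (MvPowerSeries.X : Fin h → MvPowerSeries (Fin h) k') := by
    rw [List.map_ofFn]
    congr 1
    funext i
    exact MvPowerSeries.map_X _ _
  rw [h1]
  exact (P202Y.mvps_regular_proved h k').toIsWeaklyRegular

end Vale.Agent.P202K
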