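import Vale.Agent.P202K.KDefs
import Vale.Agent.P202K.K5
import Vale.Agent.P202C.Mult
import Vale.Agent.P202Y.Ps2
import Vale.Agent.P202Y.YC2

/-! # P202K, module K5b: the Frobenius of a power series ring over a field is flat (helper31) -/

set_option autoImplicit false

namespace Vale.Agent.P202K

open IsLocalRing RingTheory.Sequence

universe u

/-- powers of a weakly regular sequence are weakly regular -/
theorem K5b_pow {R : Type u} [CommRing R] [IsLocalRing R] [IsNoetherianRing R]
    (A : ℕ) (hA : 0 < A) (l2 : List R) : ∀ l1 : List R,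
    (∀ r ∈ l1, r ∈ maximalIdeal R) → (∀ r ∈ l2, r ∈ maximalIdeal R) →
    IsWeaklyRegular R (l1 ++ l2) → IsWeaklyRegular R (l1 ++ l2.map (· ^ A)) := by
  induction l2 with
  | nil =>
    intro l1 _ _ h
    simpa using h
  | cons a l2 ih =>
    intro l1 h1 h2 h3
    have ha : a ∈ maximalIdeal R := h2 a List.mem_cons_self
    have h2' : ∀ r ∈ l2, r ∈ maximalIdeal R := fun r hr => h2 r (List.mem_cons_of_mem _ hr)
    have haA : a ^ A ∈ maximalIdeal R := Ideal.pow_mem_of_mem _ ha A hA
    have hall : ∀ r ∈ l1 ++ a :: l2, r ∈ maximalIdeal R := by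
      intro r hr
      rcases List.mem_append.mp hr with h | h
      · exact h1 r h
      · exact h2 r h
    have hp1 : List.Perm (l1 ++ a :: l2) ((l1 ++ l2) ++ [a]) := by
      refine List.perm_middle.trans ?_
      exact (List.perm_append_singleton a (l1 ++ l2)).symm
    have h4 : IsWeaklyRegular R ((l1 ++ l2) ++ [a]) :=
      IsLocalRing.isWeaklyRegular_of_perm_of_subset_maximalIdeal h3 hp1 hall
    have h5 : IsWeaklyRegular R ((l1 ++ l2) ++ [a ^ A]) := P202C.mu_wr_pow h4 A
    have hp2 : List.Perm ((l1 ++ l2) ++ [a ^ A]) ((l1 ++ [a ^ A]) ++ l2) := by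
      refine (List.perm_append_singleton (a ^ A) (l1 ++ l2)).trans ?_
      rw [List.append_assoc, List.singleton_append]
      exact List.perm_middle.symm
    have hall2 : ∀ r ∈ (l1 ++ l2) ++ [a ^ A], r ∈ maximalIdeal R := by
      intro r hr
      rcases List.mem_append.mp hr with h | h
      · rcases List.mem_append.mp h with h | h
        · exact h1 r h
        · exact h2' r h
      · rw [List.mem_singleton.mp h]
        exact haA
    have h6 : IsWeaklyRegular R ((l1 ++ [a ^ A]) ++ l2) :=
      IsLocalRing.isWeaklyRegular_of_perm_of_subset_maximalIdeal h5 hp2 hall2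
    have h1' : ∀ r ∈ l1 ++ [a ^ A], r ∈ maximalIdeal R := by
      intro r hr
      rcases List.mem_append.mp hr with h | h
      · exact h1 r h
      · rw [List.mem_singleton.mp h]
        exact haA
    have h7 := ih (l1 ++ [a ^ A]) h1' h2' h6
    have e1 : l1 ++ (a :: l2).map (· ^ A) = (l1 ++ [a ^ A]) ++ l2.map (· ^ A) := by
      rw [List.map_cons, List.append_assoc, List.singleton_append]
    rw [e1]
    exact h7

theorem flat_frob_PS_proved (h : ℕ) (l : Type u) [Field l] (p : ℕ) [Fact p.Prime] [CharP l p]
    (e : ℕ) : (iterateFrobenius (PS h l) p e).Flat := by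
  have hp : 0 < p ^ e := pow_pos (Fact.out : p.Prime).pos e
  haveI : IsLocalHom (iterateFrobenius (PS h l) p e) := by
    constructor
    intro a ha
    rw [iterateFrobenius_def] at ha
    exact (isUnit_pow_iff hp.ne').1 ha
  refine flat_of_regular_seq_proved h (iterateFrobenius (PS h l) p e)
    (List.ofFn fun i : Fin h => (MvPowerSeries.X i : MvPowerSeries (Fin h) l)) (by simp)
    (P202Y.maxIdeal_mvps l h).symm (P202Y.mvps_regular_proved h l).toIsWeaklyRegular ?_
  have h1 := K5b_pow (p ^ e) hp
    (List.ofFn fun i : Fin h => (MvPowerSeries.X i : MvPowerSeries (Fin h) l)) [] (by simp)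
    (by
      intro r hr
      rw [P202Y.maxIdeal_mvps l h]
      exact Ideal.subset_span hr)
    (P202Y.mvps_regular_proved h l).toIsWeaklyRegular
  rw [List.nil_append] at h1
  have h2 : (List.ofFn fun i : Fin h => (MvPowerSeries.X i : MvPowerSeries (Fin h) l)).map
      (iterateFrobenius (PS h l) p e) =
      (List.ofFn fun i : Fin h => (MvPowerSeries.X i : MvPowerSeries (Fin h) l)).map
        (· ^ (p ^ e)) := by
    refine List.map_congr_left fun x _ => ?_
    rw [iterateFrobenius_def]
  rw [h2]
  exact h1

end Vale.Agent.P202K
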