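import Mathlib

/-! # P202K, module K5c: flatness passes to quotients (helper66) -/

set_option autoImplicit false

namespace Vale.Agent.P202K

open TensorProduct

universe u v

theorem flat_quot_proved {A : Type u} {B : Type v} [CommRing A] [CommRing B] (f : A →+* B)
    (hf : f.Flat) (I : Ideal A) :
    (Ideal.quotientMap (I.map f) f Ideal.le_comap_map : A ⧸ I →+* B ⧸ I.map f).Flat := by
  let _ : Algebra A B := f.toAlgebra
  have h1 : Module.Flat A B := hf
  have h2 : Module.Flat (A ⧸ I) (B ⧸ I.map (algebraMap A B)) :=
    Module.Flat.of_linearEquiv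
      (Algebra.TensorProduct.quotIdealMapEquivQuotTensor B I).toLinearEquiv
  have h3 : (algebraMap (A ⧸ I) (B ⧸ I.map (algebraMap A B))).Flat :=
    RingHom.flat_algebraMap_iff.mpr h2
  exact h3

end Vale.Agent.P202K
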