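import Vale.Agent.P202K.KDefs

/-! # P202K, module K6a: `θ ψ = ψ θ = F^e` (helper40) -/

set_option autoImplicit false

namespace Vale.Agent.P202K

open IsLocalRing Vale.Agent.P202 Vale.Agent.P202C TensorProduct

universe u v w

theorem psi_theta_proved (h : ℕ) (k : Type u) [Field k] (p : ℕ) [hp : Fact p.Prime] [CharP k p]
    (e : ℕ) (a : PS h k) : psi h k p e (theta h k p e a) = a ^ (p ^ e) := by
  unfold psi theta
  exact MvPowerSeries.map_iterateFrobenius_expand p hp.out.ne_zero a e

theorem theta_psi_proved (h : ℕ) (k : Type u) [Field k] (p : ℕ) [hp : Fact p.Prime] [CharP k p]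
    (e : ℕ) (a : PS h k) : theta h k p e (psi h k p e a) = a ^ (p ^ e) := by
  rw [← psi_theta_proved]
  unfold psi theta
  exact (MvPowerSeries.map_expand (p ^ e) (pow_ne_zero e hp.out.ne_zero)
    (iterateFrobenius k p e) a).symm

end Vale.Agent.P202K
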