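import Vale.Agent.P202K.KDefs
import Vale.Agent.P202Y.YC1

/-! # P202K, module K6b: `θ` is finite (helper66) -/

set_option autoImplicit false

namespace Vale.Agent.P202K

open IsLocalRing

universe u

theorem theta_finite_proved (h : ℕ) (k : Type u) [Field k] (p : ℕ) [hp : Fact p.Prime] (e : ℕ) :
    (theta h k p e).Finite := by
  have hX : ∀ i, theta h k p e (MvPowerSeries.X i) = MvPowerSeries.X i ^ (p ^ e) := fun i =>
    MvPowerSeries.expand_X (p ^ e) (pow_ne_zero e hp.out.ne_zero) i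
  have hC : ∀ t, theta h k p e (MvPowerSeries.C t) = MvPowerSeries.C t := fun t =>
    MvPowerSeries.expand_C (p ^ e) (pow_ne_zero e hp.out.ne_zero) t
  have hAd : IsAdicComplete (maximalIdeal (PS h k)) (PS h k) := by
    rw [P202Y.mvps_maximal_proved]
    infer_instance
  have hmem : ∀ i, (MvPowerSeries.X i : PS h k) ∈ maximalIdeal (PS h k) := fun i => by
    rw [P202Y.mvps_maximal_proved]
    exact Ideal.subset_span ⟨i, rfl⟩
  refine finite_of_residue (theta h k p e) (maximalIdeal (PS h k)) ?_ (h * p ^ e + 1) ?_ ?_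
  · rw [P202Y.mvps_maximal_proved, Ideal.map_span, Ideal.span_le]
    rintro _ ⟨_, ⟨i, rfl⟩, rfl⟩
    rw [SetLike.mem_coe, hX, ← P202Y.mvps_maximal_proved]
    exact Ideal.pow_mem_of_mem _ (hmem i) _ (pow_pos hp.out.pos e)
  · conv_lhs => rw [P202Y.mvps_maximal_proved]
    refine (K0_span_pow (MvPowerSeries.X : Fin h → MvPowerSeries (Fin h) k) (p ^ e)).trans ?_
    rw [Ideal.span_le]
    rintro _ ⟨i, rfl⟩
    have h1 := Ideal.mem_map_of_mem (theta h k p e) (hmem i)
    rw [hX] at h1
    exact h1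
  · refine ⟨1, fun _ => 1, fun t => ⟨fun _ => MvPowerSeries.C (MvPowerSeries.constantCoeff t), ?_⟩⟩
    rw [Fin.sum_univ_one, mul_one, hC, mem_maximalIdeal, mem_nonunits_iff,
      MvPowerSeries.isUnit_iff_constantCoeff, map_sub, MvPowerSeries.constantCoeff_C, sub_self]
    exact not_isUnit_zero

end Vale.Agent.P202K
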