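import Mathlib

/-! # P202K, K7: flatness criterion (helper47)

`R → R1` with `m R1 = m1`, `S1` flat over `R` ⇒ `S1` flat over `R1` (local criterion of flatness,
proved by devissage and Artin-Rees). -/

set_option autoImplicit false

namespace Vale.Agent.P202K

open IsLocalRing TensorProduct

universe u v w

/-- devissage step -/
theorem K7_step {A : Type v} {S : Type w} [CommRing A] [CommRing S] [Algebra A S]
    (m I I' : Ideal A) (hII : I ≤ I') (p : A) (hp : p ∈ I')
    (h1 : ∀ x ∈ m, x * p ∈ I) (h2 : ∀ y ∈ I', ∃ k ∈ I, ∃ a, y = k + a * p)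
    (h3 : ∀ a, a * p ∈ I → a ∈ m)
    (H : Function.Injective (LinearMap.lTensor S (Submodule.subtype m))) :
    Function.Injective (LinearMap.lTensor S (Submodule.inclusion hII)) := by
  -- the maps
  let u : m →ₗ[A] (I × A) :=
    { toFun := fun x => (⟨x.1 * p, h1 x.1 x.2⟩, -x.1)
      map_add' := fun x y => by
        ext
        · simp [add_mul]
        · simp [add_comm]
      map_smul' := fun r x => by
        ext
        · simp [mul_assoc]
        · simp }
  let v : (I × A) →ₗ[A] I' :=
    { toFun := fun x => ⟨x.1.1 + x.2 * p, I'.add_mem (hII x.1.2) (I'.mul_mem_left _ hp)⟩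
      map_add' := fun x y => by
        ext
        simp; ring
      map_smul' := fun r x => by
        ext
        simp; ring }
  have hex : Function.Exact u v := by
    intro y
    constructor
    · intro hy
      have hy1 : y.1.1 + y.2 * p = 0 := congrArg Subtype.val hy
      have ha : y.2 ∈ m := h3 _ (by
        have : y.2 * p = -y.1.1 := by linear_combination hy1
        rw [this]; exact I.neg_mem y.1.2)
      refine ⟨⟨-y.2, m.neg_mem ha⟩, ?_⟩
      ext
      · change -y.2 * p = y.1.1
        linear_combination -hy1
      · change - -y.2 = y.2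
        ring
    · rintro ⟨x, rfl⟩
      ext
      change x.1 * p + -x.1 * p = 0
      ring
  have hsur : Function.Surjective v := by
    intro y
    obtain ⟨k, hk, a, hy⟩ := h2 y.1 y.2
    exact ⟨(⟨k, hk⟩, a), Subtype.ext hy.symm⟩
  have hT := lTensor_exact S hex hsur
  rw [injective_iff_map_eq_zero]
  intro z hz
  set z' := LinearMap.lTensor S (LinearMap.inl A I A) z with hz'
  have e1 : LinearMap.lTensor S v z' = 0 := by
    rw [hz', ← LinearMap.comp_apply, ← LinearMap.lTensor_comp]
    have : v ∘ₗ LinearMap.inl A I A = Submodule.inclusion hII := by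
      ext x
      change x.1 + 0 * p = x.1
      ring
    rw [this, hz]
  obtain ⟨w, hw⟩ := (hT z').mp e1
  have e2 : LinearMap.lTensor S (Submodule.subtype m) w = 0 := by
    have h5 : LinearMap.lTensor S (LinearMap.snd A I A) z' = 0 := by
      rw [hz', ← LinearMap.comp_apply, ← LinearMap.lTensor_comp, LinearMap.snd_comp_inl]
      simp
    rw [← hw, ← LinearMap.comp_apply, ← LinearMap.lTensor_comp] at h5
    have h6 : LinearMap.snd A I A ∘ₗ u = -(Submodule.subtype m) := by
      ext x
      rfl
    rw [h6, LinearMap.lTensor_neg, LinearMap.neg_apply, neg_eq_zero] at h5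
    exact h5
  have e3 : w = 0 := H (by rw [e2, map_zero])
  have e4 : z' = 0 := by rw [← hw, e3, map_zero]
  have e5 : LinearMap.lTensor S (LinearMap.fst A I A) z' = z := by
    rw [hz', ← LinearMap.comp_apply, ← LinearMap.lTensor_comp, LinearMap.fst_comp_inl]
    simp
  rw [← e5, e4, map_zero]

/-- ideals containing a power of the maximal ideal -/
theorem K7_primary {A : Type v} {S : Type w} [CommRing A] [IsLocalRing A] [IsNoetherianRing A]
    [CommRing S] [Algebra A S]
    (H : Function.Injective (LinearMap.lTensor S (Submodule.subtype (maximalIdeal A)))) (n : ℕ) :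
    ∀ I : Ideal A, maximalIdeal A ^ n ≤ I →
      Function.Injective (LinearMap.lTensor S (Submodule.subtype I)) := by
  intro I
  induction I using WellFoundedGT.induction with
  | ind I ih =>
    intro hI
    by_cases hT : I = ⊤
    · subst hT
      have : Submodule.subtype (⊤ : Ideal A) = (Submodule.topEquiv : (⊤ : Ideal A) ≃ₗ[A] A).toLinearMap :=
        rfl
      rw [this]
      exact (LinearEquiv.lTensor S (Submodule.topEquiv : (⊤ : Ideal A) ≃ₗ[A] A)).injective
    · classical
      have hex : ∃ j, maximalIdeal A ^ j ≤ I := ⟨n, hI⟩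
      have hj := Nat.find_spec hex
      set j := Nat.find hex with hjd
      have hj0 : j ≠ 0 := by
        intro h0
        rw [h0, pow_zero, Ideal.one_eq_top, top_le_iff] at hj
        exact hT hj
      obtain ⟨i, hi⟩ := Nat.exists_eq_succ_of_ne_zero hj0
      have hnot : ¬ maximalIdeal A ^ i ≤ I := Nat.find_min hex (by omega)
      obtain ⟨p, hp, hpI⟩ := Set.not_subset.mp hnot
      have hmp : ∀ x ∈ maximalIdeal A, x * p ∈ I := by
        intro x hx
        apply hj
        rw [hi, Nat.succ_eq_add_one, pow_succ']
        exact Ideal.mul_mem_mul hx hp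
      set I' := I ⊔ Ideal.span {p} with hI'
      have hII : I ≤ I' := le_sup_left
      have hpI' : p ∈ I' := Ideal.mem_sup_right (Ideal.mem_span_singleton_self p)
      have hlt : I' > I := lt_of_le_of_ne hII (fun h => hpI (h ▸ hpI'))
      have hinj := ih I' hlt (hI.trans hII)
      have hst := K7_step (S := S) (maximalIdeal A) I I' hII p hpI' hmp
        (by
          intro y hy
          obtain ⟨k, hk, q, hq, rfl⟩ := Submodule.mem_sup.mp hy
          obtain ⟨a, rfl⟩ := Ideal.mem_span_singleton'.mp hq
          exact ⟨k, hk, a, rfl⟩)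
        (by
          intro a ha
          rw [mem_maximalIdeal, mem_nonunits_iff]
          intro hu
          obtain ⟨b, hb⟩ := hu.exists_left_inv
          apply hpI
          have : p = b * (a * p) := by rw [← mul_assoc, hb, one_mul]
          rw [this]
          exact I.mul_mem_left _ ha) H
      have : Submodule.subtype I = Submodule.subtype I' ∘ₗ Submodule.inclusion hII := rfl
      rw [this, LinearMap.lTensor_comp]
      exact hinj.comp hst

/-- elements of `m^k I` -/
theorem K7_tens {A : Type v} {S : Type w} [CommRing A] [CommRing S] [Algebra A S]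
    (m I : Ideal A) (k : ℕ) (s : S) (x : I) (hx : x.1 ∈ m ^ k * I) :
    s ⊗ₜ[A] x ∈ (m.map (algebraMap A S)) ^ k • (⊤ : Submodule S (S ⊗[A] I)) := by
  have h1 : x ∈ m ^ k • (⊤ : Submodule A I) := by
    have h2 : Submodule.map (Submodule.subtype I) (m ^ k • (⊤ : Submodule A I)) = m ^ k * I := by
      rw [Submodule.map_smul'', Submodule.map_top, Submodule.range_subtype, smul_eq_mul]
    rw [← h2] at hx
    obtain ⟨y, hy, hyx⟩ := hx
    have : y = x := Subtype.ext hyx
    rw [← this]
    exact hy
  refine Submodule.smul_induction_on (p := fun x : I =>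
    s ⊗ₜ[A] x ∈ (m.map (algebraMap A S)) ^ k • (⊤ : Submodule S (S ⊗[A] I))) h1 ?_ ?_
  · intro r hr y _
    have e : s ⊗ₜ[A] (r • y) = algebraMap A S r • (s ⊗ₜ[A] y) := by
      rw [TensorProduct.tmul_smul, algebraMap_smul]
    rw [e]
    refine Submodule.smul_mem_smul ?_ trivial
    rw [← Ideal.map_pow]
    exact Ideal.mem_map_of_mem _ hr
  · intro a b ha hb
    rw [TensorProduct.tmul_add]
    exact Submodule.add_mem _ ha hb

/-- local criterion of flatness -/
theorem K7_local {A : Type v} {S : Type w} [CommRing A] [IsLocalRing A] [IsNoetherianRing A]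
    [CommRing S] [IsLocalRing S] [IsNoetherianRing S] [Algebra A S] [IsLocalHom (algebraMap A S)]
    (H : Function.Injective (LinearMap.lTensor S (Submodule.subtype (maximalIdeal A)))) :
    Module.Flat A S := by
  rw [Module.Flat.iff_lTensor_injective']
  intro I
  rw [injective_iff_map_eq_zero]
  intro z hz
  set m := maximalIdeal A with hm
  set J : Ideal S := m.map (algebraMap A S) with hJ
  have hJ1 : J ≠ ⊤ := by
    have : J ≤ maximalIdeal S := by
      rw [hJ, Ideal.map_le_iff_le_comap]
      intro x hx
      rw [Ideal.mem_comap, mem_maximalIdeal, mem_nonunits_iff]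
      intro hu
      exact (mem_maximalIdeal _).mp hx (isUnit_of_map_unit (algebraMap A S) x hu)
    intro h
    rw [h, top_le_iff] at this
    exact (Ideal.IsPrime.ne_top inferInstance : maximalIdeal S ≠ ⊤) this
  have hK := Ideal.iInf_pow_smul_eq_bot_of_isLocalRing (M := S ⊗[A] I) J hJ1
  suffices h : z ∈ ⨅ i : ℕ, J ^ i • (⊤ : Submodule S (S ⊗[A] I)) by
    rw [hK] at h
    exact (Submodule.mem_bot S).mp h
  rw [Submodule.mem_iInf]
  intro k
  obtain ⟨k0, hk0⟩ := Ideal.exists_pow_inf_eq_pow_smul m (M := A) I
  have hAR : m ^ (k + k0) ⊓ I ≤ m ^ k * I := by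
    have := hk0 (k + k0) (by omega)
    rw [Nat.add_sub_cancel] at this
    rw [smul_eq_mul, Ideal.mul_top] at this
    rw [this, smul_eq_mul]
    exact Ideal.mul_mono_right inf_le_right
  -- the quotient
  set n := k + k0 with hn
  have hprim := K7_primary (S := S) H n (I ⊔ m ^ n) le_sup_right
  have hle : I ≤ I ⊔ m ^ n := le_sup_left
  have hz2 : LinearMap.lTensor S (Submodule.inclusion hle) z = 0 := by
    apply hprim
    rw [map_zero, ← LinearMap.comp_apply, ← LinearMap.lTensor_comp]
    exact hz
  set K : Submodule A I := Submodule.comap (Submodule.subtype I) (m ^ n) with hKd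
  -- map from the sum to the quotient
  have hz3 : LinearMap.lTensor S K.mkQ z = 0 := by
    let e := LinearMap.quotientInfEquivSupQuotient I (m ^ n)
    have hKle : (Submodule.comap (Submodule.subtype I) I ⊓
        Submodule.comap (Submodule.subtype I) (m ^ n)) ≤ Submodule.comap LinearMap.id K := by
      intro x hx
      exact hx.2
    let g : _ →ₗ[A] (I ⧸ K) := (Submodule.mapQ
        (Submodule.comap (Submodule.subtype I) I ⊓ Submodule.comap (Submodule.subtype I) (m ^ n)) K
        LinearMap.id hKle) ∘ₗ (e.symm.toLinearMap ∘ₗ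
          (Submodule.mkQ (Submodule.comap (Submodule.subtype (I ⊔ m ^ n)) (m ^ n))))
    have hfac : K.mkQ = g ∘ₗ Submodule.inclusion hle := by
      apply LinearMap.ext
      intro x
      have : e.symm (Submodule.mkQ _ (Submodule.inclusion hle x)) =
          Submodule.Quotient.mk x := by
        rw [LinearEquiv.symm_apply_eq]
        rfl
      change K.mkQ x = Submodule.mapQ _ K LinearMap.id hKle
        (e.symm (Submodule.mkQ _ (Submodule.inclusion hle x)))
      rw [this]
      rfl
    rw [hfac, LinearMap.lTensor_comp, LinearMap.comp_apply, hz2, map_zero]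
  have hexact := lTensor_exact S (f := K.subtype) (g := K.mkQ)
    (by
      rw [LinearMap.exact_iff]
      simp) (Submodule.mkQ_surjective K)
  obtain ⟨y, hy⟩ := (hexact z).mp hz3
  rw [← hy]
  clear hy hz3 hz2 hz z
  induction y using TensorProduct.induction_on with
  | zero => rw [map_zero]; exact Submodule.zero_mem _
  | add a b ha hb => rw [map_add]; exact Submodule.add_mem _ ha hb
  | tmul s x =>
    rw [LinearMap.lTensor_tmul]
    exact K7_tens m I k s x.1 (hAR ⟨x.2, x.1.2⟩)

/-- the change of base -/
theorem K7_base {R : Type u} {R1 : Type v} {S1 : Type w} [CommRing R] [CommRing R1] [CommRing S1]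
    [Algebra R R1] [Algebra R1 S1] [Algebra R S1]
    [IsScalarTower R R1 S1] [Module.Flat R S1] (a : Ideal R) :
    Function.Injective (LinearMap.lTensor S1
      (Submodule.subtype (a.map (algebraMap R R1) : Ideal R1))) := by
  set b : Ideal R1 := a.map (algebraMap R R1) with hb
  -- the map `R1 ⊗ a → b`
  let θ0 : R1 ⊗[R] a →ₗ[R1] R1 :=
    (TensorProduct.AlgebraTensorModule.rid R R1 R1).toLinearMap ∘ₗ
      (TensorProduct.AlgebraTensorModule.map LinearMap.id (Submodule.subtype a))
  have hθ0 : ∀ (r : R1) (x : a), θ0 (r ⊗ₜ x) = r * algebraMap R R1 x.1 := by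
    intro r x
    simp [θ0, Algebra.smul_def, mul_comm]
  have hrange : LinearMap.range θ0 = b := by
    apply le_antisymm
    · rintro _ ⟨x, rfl⟩
      induction x using TensorProduct.induction_on with
      | zero => rw [map_zero]; exact Submodule.zero_mem _
      | add x y hx hy => rw [map_add]; exact Submodule.add_mem _ hx hy
      | tmul r x =>
        rw [hθ0]
        exact Ideal.mul_mem_left _ _ (Ideal.mem_map_of_mem _ x.2)
    · rw [hb, Ideal.map, Ideal.span_le]
      rintro _ ⟨x, hx, rfl⟩
      exact ⟨1 ⊗ₜ ⟨x, hx⟩, by rw [hθ0, one_mul]⟩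
  let θ : R1 ⊗[R] a →ₗ[R1] b := LinearMap.codRestrict b θ0 (fun x => hrange ▸ ⟨x, rfl⟩)
  have hθs : Function.Surjective θ := by
    intro y
    have : y.1 ∈ LinearMap.range θ0 := by rw [hrange]; exact y.2
    obtain ⟨x, hx⟩ := this
    exact ⟨x, Subtype.ext hx⟩
  rw [injective_iff_map_eq_zero]
  intro z hz
  obtain ⟨w, rfl⟩ := LinearMap.lTensor_surjective S1 hθs z
  set w' := TensorProduct.AlgebraTensorModule.cancelBaseChange R R1 S1 S1 a w with hw'
  have hfl : Function.Injective (LinearMap.lTensor S1 (Submodule.subtype a)) :=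
    Module.Flat.lTensor_preserves_injective_linearMap _ Subtype.val_injective
  have hcomp : ∀ w : S1 ⊗[R1] (R1 ⊗[R] a),
      TensorProduct.rid R S1 (LinearMap.lTensor S1 (Submodule.subtype a)
        (TensorProduct.AlgebraTensorModule.cancelBaseChange R R1 S1 S1 a w)) =
      TensorProduct.rid R1 S1 (LinearMap.lTensor S1 (Submodule.subtype b)
        (LinearMap.lTensor S1 θ w)) := by
    intro w
    induction w using TensorProduct.induction_on with
    | zero => simp
    | add x y hx hy => simp only [map_add, hx, hy]
    | tmul s t =>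
      induction t using TensorProduct.induction_on with
      | zero => simp
      | add x y hx hy => simp only [TensorProduct.tmul_add, map_add, hx, hy]
      | tmul r x =>
        simp only [TensorProduct.AlgebraTensorModule.cancelBaseChange_tmul, LinearMap.lTensor_tmul,
          TensorProduct.rid_tmul, Submodule.subtype_apply]
        have : (θ (r ⊗ₜ x)).1 = r * algebraMap R R1 x.1 := hθ0 r x
        rw [this, mul_smul, algebraMap_smul, smul_comm]
  have h0 : LinearMap.lTensor S1 (Submodule.subtype a) w' = 0 := by
    apply (TensorProduct.rid R S1).injective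
    rw [map_zero, hw', hcomp, hz, map_zero]
  have h1 : w' = 0 := hfl (by rw [h0, map_zero])
  have h2 : w = 0 := by
    apply (TensorProduct.AlgebraTensorModule.cancelBaseChange R R1 S1 S1 a).injective
    rw [map_zero]
    exact h1
  rw [h2, map_zero]

/-- K7 -/
theorem flat_crit_proved {R : Type u} {R1 : Type v} {S1 : Type w} [CommRing R] [IsLocalRing R]
    [IsNoetherianRing R] [CommRing R1] [IsLocalRing R1] [IsNoetherianRing R1] [CommRing S1]
    [IsLocalRing S1] [IsNoetherianRing S1] [Algebra R R1] [Algebra R1 S1] [Algebra R S1]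
    [IsScalarTower R R1 S1] [Module.Flat R R1] [Module.Flat R S1]
    [IsLocalHom (algebraMap R1 S1)]
    (hm : (maximalIdeal R).map (algebraMap R R1) = maximalIdeal R1)
    (hfin : Module.length S1 (S1 ⧸ (maximalIdeal R1).map (algebraMap R1 S1)) ≠ ⊤) :
    Module.Flat R1 S1 := by
  have h := K7_base (R := R) (R1 := R1) (S1 := S1) (maximalIdeal R)
  rw [hm] at h
  exact K7_local h

end Vale.Agent.P202K
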