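import Vale.Agent.P202K.KDefs
import Vale.Agent.P202K.K2
import Vale.Agent.P202K.K3
import Vale.Agent.P202K.K4
import Vale.Agent.P202K.K5a
import Vale.Agent.P202K.K5b
import Vale.Agent.P202K.K5c
import Vale.Agent.P202K.K6a
import Vale.Agent.P202K.K6b
import Vale.Agent.P202K.K7
import Vale.Agent.P202Y.YC1
import Vale.Agent.P202.XY

/-! # P202K, module K6: the rings `R1`, `S1` (helper85) -/

set_option autoImplicit false

namespace Vale.Agent.P202K

open IsLocalRing

universe u v w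

/-- quotient of a local ring by an ideal in the maximal ideal -/
theorem K6_local {A : Type u} [CommRing A] [IsLocalRing A] (I : Ideal A)
    (hI : I ≤ maximalIdeal A) : IsLocalRing (A ⧸ I) := by
  have : Nontrivial (A ⧸ I) := Ideal.Quotient.nontrivial_iff.2 (by
    rintro rfl
    exact (Ideal.IsPrime.ne_top inferInstance) (top_le_iff.1 hI))
  exact IsLocalRing.of_surjective' (Ideal.Quotient.mk I) Ideal.Quotient.mk_surjective

theorem K6_mk_unit {A : Type u} [CommRing A] [IsLocalRing A] (I : Ideal A)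
    (hI : I ≤ maximalIdeal A) (a : A) (ha : IsUnit (Ideal.Quotient.mk I a)) : IsUnit a := by
  by_contra h
  have h1 : a ∈ maximalIdeal A := h
  obtain ⟨b, hb⟩ := ha.exists_right_inv
  obtain ⟨b, rfl⟩ := Ideal.Quotient.mk_surjective b
  rw [← map_mul, ← map_one (Ideal.Quotient.mk I), Ideal.Quotient.eq] at hb
  have h2 : (1 : A) ∈ maximalIdeal A := by
    have : (1 : A) = a * b - (a * b - 1) := by ring
    rw [this]
    exact Ideal.sub_mem _ (Ideal.mul_mem_right _ _ h1) (hI hb)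
  exact (Ideal.ne_top_iff_one _).1 (Ideal.IsPrime.ne_top inferInstance) h2

/-- maximal ideals under surjections -/
theorem K6_max {A : Type u} {B : Type v} [CommRing A] [IsLocalRing A] [CommRing B] [IsLocalRing B]
    (π : A →+* B) (hπ : Function.Surjective π) :
    (maximalIdeal A).map π = maximalIdeal B := by
  have : IsLocalHom π := IsLocalHom.of_surjective _ hπ
  have h1 : (maximalIdeal B).comap π = maximalIdeal A := by
    ext x
    rw [Ideal.mem_comap, mem_maximalIdeal, mem_maximalIdeal, mem_nonunits_iff, mem_nonunits_iff,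
      isUnit_map_iff]
  rw [← h1, Ideal.map_comap_of_surjective _ hπ]

/-- descent of a flat endomorphism-like map `g : A → B` to `A/I → B/IB`, for `A/I = R` -/
theorem K6_desc {A : Type u} {B : Type v} {R : Type w} [CommRing A] [CommRing B] [CommRing R]
    (π : A →+* R) (hπ : Function.Surjective π) (g : A →+* B) (hg : g.Flat) :
    ∃ ψ : R →+* B ⧸ (RingHom.ker π).map g, ψ.Flat ∧
      ∀ a, ψ (π a) = Ideal.Quotient.mk ((RingHom.ker π).map g) (g a) := by
  have h1 := flat_quot_proved g hg (RingHom.ker π)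
  refine ⟨(Ideal.quotientMap ((RingHom.ker π).map g) g Ideal.le_comap_map).comp
    (RingHom.quotientKerEquivOfSurjective hπ).symm.toRingHom, ?_, ?_⟩
  · exact RingHom.Flat.comp
      (RingHom.Flat.of_bijective (RingHom.quotientKerEquivOfSurjective hπ).symm.bijective) h1
  · intro a
    have h2 : (RingHom.quotientKerEquivOfSurjective hπ).symm (π a) =
        Ideal.Quotient.mk (RingHom.ker π) a := by
      rw [RingEquiv.symm_apply_eq]
      rfl
    rw [RingHom.comp_apply]
    have h3 : (RingHom.quotientKerEquivOfSurjective hπ).symm.toRingHom (π a) =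
        Ideal.Quotient.mk (RingHom.ker π) a := h2
    rw [h3, Ideal.quotientMap_mk]

theorem K6_ker_le {A : Type u} {R : Type w} [CommRing A] [IsLocalRing A] [CommRing R] [Nontrivial R]
    (π : A →+* R) : RingHom.ker π ≤ maximalIdeal A :=
  IsLocalRing.le_maximalIdeal (RingHom.ker_ne_top π)

/-- K6 -/
theorem exists_twist_proved (p : ℕ) [Fact p.Prime] (e : ℕ) (R : Type u) (S : Type v) [CommRing R]
    [IsLocalRing R] [IsNoetherianRing R] [CharP R p] [IsAdicComplete (maximalIdeal R) R]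
    [CommRing S] [IsLocalRing S] [IsNoetherianRing S] [IsAdicComplete (maximalIdeal S) S]
    (f : R →+* S) [IsLocalHom f] (hf : f.Flat) :
    ∃ (R1 : Type u) (S1 : Type v) (_ : CommRing R1) (_ : CommRing S1) (_ : IsLocalRing R1)
      (_ : IsNoetherianRing R1) (_ : IsLocalRing S1) (_ : IsNoetherianRing S1)
      (ψ : R →+* R1) (φ : R1 →+* R) (α : S →+* S1) (β : R1 →+* S1),
      (∀ r, φ (ψ r) = r ^ (p ^ e)) ∧ (∀ r, ψ (φ r) = r ^ (p ^ e)) ∧ ψ.Flat ∧ IsLocalHom ψ ∧
      (maximalIdeal R).map ψ = maximalIdeal R1 ∧ IsLocalHom φ ∧ φ.Finite ∧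
      (∀ x : R, ∃ r : R1, x - φ r ∈ maximalIdeal R) ∧
      α.Flat ∧ IsLocalHom α ∧ Module.length S1 (S1 ⧸ (maximalIdeal S).map α) ≠ ⊤ ∧
      β.Flat ∧ IsLocalHom β ∧ (∀ r, β (ψ r) = α (f r)) := by
  have hp := (Fact.out : p.Prime)
  have hq : p ^ e ≠ 0 := pow_ne_zero e hp.ne_zero
  have hSp : CharP S p := by
    rw [CharP.charP_iff_prime_eq_zero hp]
    have h1 := congrArg f (CharP.cast_eq_zero R p)
    rwa [map_natCast, map_zero] at h1
  obtain ⟨k, _, hkp, aR, hkR⟩ := exists_coeff_p_proved p R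
  obtain ⟨l, _, hlp, aS, hlS⟩ := exists_coeff_p_proved p S
  obtain ⟨h, πR, hπR, hπRC, hπRX⟩ := exists_pres_proved R aR hkR
  obtain ⟨h', πS, hπS, hπSC, hπSX⟩ := exists_pres_proved S aS hlS
  obtain ⟨ρ, β0, hρX, hρ, hβ0, hβ0X⟩ := exists_lift_proved p e f πR hπRX πS hπS hπSX
  have hcpP : CharP (PS h' l) p := charP_PS h' l p
  set FP : PS h' l →+* PS h' l := iterateFrobenius (PS h' l) p e with hFP
  set ψ0 : PS h k →+* PS h k := psi h k p e with hψ0
  set θ0 : PS h k →+* PS h k := theta h k p e with hθ0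
  have hψX : ∀ i, ψ0 (MvPowerSeries.X i) = MvPowerSeries.X i := fun i => by
    rw [hψ0]; exact MvPowerSeries.map_X _ _
  have hθC : ∀ t, θ0 (MvPowerSeries.C t) = MvPowerSeries.C t := fun t =>
    MvPowerSeries.expand_C (p ^ e) hq t
  have hθψ : ∀ a, θ0 (ψ0 a) = a ^ (p ^ e) := theta_psi_proved h k p e
  have hψθ : ∀ a, ψ0 (θ0 a) = a ^ (p ^ e) := psi_theta_proved h k p e
  -- the ideals lie in the maximal ideals
  have hI1 : (RingHom.ker πR).map ψ0 ≤ maximalIdeal (PS h k) := by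
    rw [Ideal.map_le_iff_le_comap]
    intro a ha
    rw [Ideal.mem_comap]
    have ha' : a ∈ maximalIdeal (PS h k) := K6_ker_le πR ha
    rw [mem_maximalIdeal, mem_nonunits_iff] at ha' ⊢
    intro hu
    refine ha' ?_
    have h1 := hu.map θ0
    rw [hθψ] at h1
    exact (isUnit_pow_iff hq).1 h1
  have hJ1 : (RingHom.ker πS).map FP ≤ maximalIdeal (PS h' l) := by
    rw [Ideal.map_le_iff_le_comap]
    intro a ha
    rw [Ideal.mem_comap, hFP, iterateFrobenius_def]
    exact Ideal.pow_mem_of_mem _ (K6_ker_le πS ha) _ (Nat.pos_of_ne_zero hq)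
  have lR1 := K6_local _ hI1
  have lS1 := K6_local _ hJ1
  obtain ⟨ψ, hψf, hψ⟩ := K6_desc πR hπR ψ0 (flat_map_PS_proved h (iterateFrobenius k p e))
  obtain ⟨α, hαf, hα⟩ := K6_desc πS hπS FP (flat_frob_PS_proved h' l p e)
  -- φ
  have hφ0 : ∀ a ∈ (RingHom.ker πR).map ψ0, (πR.comp θ0) a = 0 := by
    intro a ha
    have h1 : (RingHom.ker πR).map ψ0 ≤ RingHom.ker (πR.comp θ0) := by
      rw [Ideal.map_le_iff_le_comap]
      intro b hb
      rw [Ideal.mem_comap, RingHom.mem_ker, RingHom.comp_apply, hθψ, map_pow,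
        (RingHom.mem_ker).1 hb, zero_pow hq]
    exact (RingHom.mem_ker).1 (h1 ha)
  set φ : (PS h k ⧸ (RingHom.ker πR).map ψ0) →+* R := Ideal.Quotient.lift _ (πR.comp θ0) hφ0
    with hφdef
  have hφ : ∀ a, φ (Ideal.Quotient.mk _ a) = πR (θ0 a) := fun a => Ideal.Quotient.lift_mk _ _ _
  -- β
  have hβk : ∀ a ∈ (RingHom.ker πR).map ψ0,
      ((Ideal.Quotient.mk ((RingHom.ker πS).map FP)).comp β0) a = 0 := by
    intro a ha
    have h1 : (RingHom.ker πR).map ψ0 ≤
        RingHom.ker ((Ideal.Quotient.mk ((RingHom.ker πS).map FP)).comp β0) := by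
      rw [Ideal.map_le_iff_le_comap]
      intro b hb
      rw [Ideal.mem_comap, RingHom.mem_ker, RingHom.comp_apply, hψ0, hβ0,
        Ideal.Quotient.eq_zero_iff_mem]
      have h2 : ρ b ∈ RingHom.ker πS := by
        rw [RingHom.mem_ker, hρ, (RingHom.mem_ker).1 hb, map_zero]
      have h3 := Ideal.mem_map_of_mem FP h2
      rwa [hFP, iterateFrobenius_def] at h3
    exact (RingHom.mem_ker).1 (h1 ha)
  set β : (PS h k ⧸ (RingHom.ker πR).map ψ0) →+* (PS h' l ⧸ (RingHom.ker πS).map FP) :=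
    Ideal.Quotient.lift _ _ hβk with hβdef
  have hβ : ∀ a, β (Ideal.Quotient.mk _ a) = Ideal.Quotient.mk _ (β0 a) :=
    fun a => Ideal.Quotient.lift_mk _ _ _
  -- identities
  have h1 : ∀ r, φ (ψ r) = r ^ (p ^ e) := by
    intro r
    obtain ⟨a, rfl⟩ := hπR r
    rw [hψ, hφ, hθψ, map_pow]
  have h2 : ∀ r, ψ (φ r) = r ^ (p ^ e) := by
    intro r
    obtain ⟨a, rfl⟩ := Ideal.Quotient.mk_surjective r
    rw [hφ, hψ, hψθ, map_pow]
  have h3 : ∀ r, β (ψ r) = α (f r) := by
    intro r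
    obtain ⟨a, rfl⟩ := hπR r
    rw [hψ, hβ, ← hρ, hα, hψ0, hβ0, hFP, iterateFrobenius_def]
  have hψl : IsLocalHom ψ := ⟨fun r hr => by
    have h4 := hr.map φ
    rw [h1] at h4
    exact (isUnit_pow_iff hq).1 h4⟩
  have hφl : IsLocalHom φ := ⟨fun r hr => by
    have h4 := hr.map ψ
    rw [h2] at h4
    exact (isUnit_pow_iff hq).1 h4⟩
  have hαl : IsLocalHom α := ⟨fun s hs => by
    obtain ⟨b, rfl⟩ := hπS s
    rw [hα] at hs
    have h4 := K6_mk_unit _ hJ1 _ hs
    rw [hFP, iterateFrobenius_def] at h4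
    exact ((isUnit_pow_iff hq).1 h4).map πS⟩
  have hβl : IsLocalHom β := ⟨fun r hr => by
    have h4 : IsUnit (β (r ^ (p ^ e))) := by
      rw [map_pow]
      exact hr.pow _
    rw [← h2, h3] at h4
    exact isUnit_of_map_unit φ r (isUnit_of_map_unit f _ (isUnit_of_map_unit α _ h4))⟩
  -- maximal ideals
  have hmR : maximalIdeal R = Ideal.span (Set.range fun i => πR (MvPowerSeries.X i)) := by
    rw [← K6_max πR hπR, P202Y.mvps_maximal_proved, Ideal.map_span, ← Set.range_comp]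
    rfl
  have hm : (maximalIdeal R).map ψ = maximalIdeal (PS h k ⧸ (RingHom.ker πR).map ψ0) := by
    rw [← K6_max (Ideal.Quotient.mk ((RingHom.ker πR).map ψ0)) Ideal.Quotient.mk_surjective,
      P202Y.mvps_maximal_proved, hmR, Ideal.map_span, Ideal.map_span, ← Set.range_comp,
      ← Set.range_comp]
    congr 1
    apply congrArg
    funext i
    rw [Function.comp_apply, Function.comp_apply, hψ, hψX]
  refine ⟨PS h k ⧸ (RingHom.ker πR).map ψ0, PS h' l ⧸ (RingHom.ker πS).map FP, inferInstance,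
    inferInstance, lR1, inferInstance, lS1, inferInstance, ψ, φ, α, β, h1, h2, hψf, hψl, hm, hφl,
    ?_, ?_, hαf, hαl, ?_, ?_, hβl, h3⟩
  · refine RingHom.Finite.of_comp_finite (f := Ideal.Quotient.mk ((RingHom.ker πR).map ψ0)) ?_
    have h4 : φ.comp (Ideal.Quotient.mk ((RingHom.ker πR).map ψ0)) = πR.comp θ0 :=
      RingHom.ext fun a => hφ a
    rw [h4]
    exact (RingHom.Finite.of_surjective πR hπR).comp (theta_finite_proved h k p e)
  · intro x
    obtain ⟨t, ht⟩ := hkR x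
    refine ⟨Ideal.Quotient.mk _ (MvPowerSeries.C t), ?_⟩
    rw [hφ, hθC, hπRC]
    exact ht
  · have h4 : ∀ x ∈ maximalIdeal (PS h' l ⧸ (RingHom.ker πS).map FP),
        x ^ (p ^ e) ∈ (maximalIdeal S).map α := by
      intro x hx
      obtain ⟨b, rfl⟩ := Ideal.Quotient.mk_surjective x
      have hb : b ∈ maximalIdeal (PS h' l) := by
        rw [mem_maximalIdeal, mem_nonunits_iff] at hx ⊢
        exact fun h => hx (h.map _)
      have h5 : (Ideal.Quotient.mk ((RingHom.ker πS).map FP) b) ^ (p ^ e) = α (πS b) := by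
        rw [hα, hFP, iterateFrobenius_def, map_pow]
      rw [h5]
      refine Ideal.mem_map_of_mem _ ?_
      rw [← K6_max πS hπS]
      exact Ideal.mem_map_of_mem _ hb
    obtain ⟨N, hN⟩ := Ideal.exists_pow_le_of_le_radical_of_fg
      (I := maximalIdeal (PS h' l ⧸ (RingHom.ker πS).map FP)) (J := (maximalIdeal S).map α)
      (fun x hx => ⟨p ^ e, h4 x hx⟩) (IsNoetherian.noetherian _)
    exact Vale.Agent.P202.Pm.cl_ne_top ⟨N, hN⟩
  · let _ : Algebra R (PS h k ⧸ (RingHom.ker πR).map ψ0) := ψ.toAlgebra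
    let _ : Algebra (PS h k ⧸ (RingHom.ker πR).map ψ0) (PS h' l ⧸ (RingHom.ker πS).map FP) :=
      β.toAlgebra
    let _ : Algebra R (PS h' l ⧸ (RingHom.ker πS).map FP) := (α.comp f).toAlgebra
    have htow : IsScalarTower R (PS h k ⧸ (RingHom.ker πR).map ψ0)
        (PS h' l ⧸ (RingHom.ker πS).map FP) :=
      IsScalarTower.of_algebraMap_eq fun r => (h3 r).symm
    have hf1 : Module.Flat R (PS h k ⧸ (RingHom.ker πR).map ψ0) := hψf
    have hf2 : Module.Flat R (PS h' l ⧸ (RingHom.ker πS).map FP) := RingHom.Flat.comp hf hαf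
    have hloc : IsLocalHom (algebraMap (PS h k ⧸ (RingHom.ker πR).map ψ0)
      (PS h' l ⧸ (RingHom.ker πS).map FP)) := hβl
    have h5 := K7_base (R := R) (R1 := PS h k ⧸ (RingHom.ker πR).map ψ0)
      (S1 := PS h' l ⧸ (RingHom.ker πS).map FP) (maximalIdeal R)
    have hm' : (maximalIdeal R).map (algebraMap R (PS h k ⧸ (RingHom.ker πR).map ψ0)) =
      maximalIdeal (PS h k ⧸ (RingHom.ker πR).map ψ0) := hm
    rw [hm'] at h5
    exact K7_local h5

end Vale.Agent.P202K
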