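import Vale.Agent.P202C.UPlan
import Vale.Agent.P202C.BC
import Vale.Agent.P202C.V2

/-! # P202K, K9: homology lengths and flat local base change -/

set_option autoImplicit false

namespace Vale.Agent.P202K

open IsLocalRing Vale.Agent.P202C TensorProduct

universe u v w

section K9

variable {S : Type u} {S1 : Type v} [CommRing S] [CommRing S1] [Algebra S S1]
  {M : Type w} [AddCommGroup M] [Module S M]

/-- base change of vectors -/
noncomputable def K9_e (S1 : Type v) [CommRing S1] [Algebra S S1] (M : Type w) [AddCommGroup M]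
    [Module S M] (ι : Type) [Fintype ι] [DecidableEq ι] :
    S1 ⊗[S] (ι → M) ≃ₗ[S1] (ι → S1 ⊗[S] M) :=
  TensorProduct.piRight S S1 S1 (fun _ : ι => M)

theorem K9_e_tmul {ι : Type} [Fintype ι] [DecidableEq ι] (s : S1) (x : ι → M) (a : ι) :
    K9_e (S := S) S1 M ι (s ⊗ₜ[S] x) a = s ⊗ₜ[S] x a := by
  unfold K9_e
  rw [TensorProduct.piRight_apply, TensorProduct.piRightHom_tmul]

theorem K9_act {ι κ : Type} [Fintype ι] [Fintype κ] [DecidableEq ι] [DecidableEq κ]
    (m : Matrix κ ι S) (x : S1 ⊗[S] (ι → M)) :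
    K9_e (S := S) S1 M κ ((act m M).baseChange S1 x) =
      act (m.map (algebraMap S S1)) (S1 ⊗[S] M) (K9_e (S := S) S1 M ι x) := by
  induction x using TensorProduct.induction_on with
  | zero => simp only [map_zero]
  | add x y hx hy => simp only [map_add, hx, hy]
  | tmul s x =>
    funext a
    rw [LinearMap.baseChange_tmul, K9_e_tmul]
    have h1 : act (m.map (algebraMap S S1)) (S1 ⊗[S] M) (K9_e (S := S) S1 M ι (s ⊗ₜ[S] x)) a =
        ∑ b, (m.map (algebraMap S S1)) a b • (K9_e (S := S) S1 M ι (s ⊗ₜ[S] x)) b := rfl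
    have h2 : act m M x a = ∑ b, m a b • x b := rfl
    rw [h1, h2, TensorProduct.tmul_sum]
    refine Finset.sum_congr rfl fun b _ => ?_
    rw [K9_e_tmul, Matrix.map_apply, algebraMap_smul, TensorProduct.tmul_smul]

/-- the diagonal projection onto degree `j` -/
def K9_diag {ι : Type} [Fintype ι] [DecidableEq ι] (d : ι → ℤ) (S : Type u) [CommRing S] (j : ℤ) :
    Matrix ι ι S := Matrix.diagonal fun a => if d a = j then 1 else 0

theorem K9_diag_map {ι : Type} [Fintype ι] [DecidableEq ι] (d : ι → ℤ) (j : ℤ) :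
    (K9_diag d S j).map (algebraMap S S1) = K9_diag d S1 j := by
  unfold K9_diag
  rw [Matrix.diagonal_map (map_zero _)]
  congr 1
  funext a
  by_cases h : d a = j
  · simp only [if_pos h, map_one]
  · simp only [if_neg h, map_zero]

theorem K9_diag_apply {ι : Type} [Fintype ι] [DecidableEq ι] (d : ι → ℤ) (j : ℤ) (x : ι → M)
    (a : ι) : act (K9_diag d S j) M x a = if d a = j then x a else 0 := by
  have h1 : act (K9_diag d S j) M x a = ∑ b, (K9_diag d S j) a b • x b := rfl
  rw [h1, Finset.sum_eq_single a]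
  · unfold K9_diag
    rw [Matrix.diagonal_apply_eq]
    by_cases h : d a = j
    · rw [if_pos h, if_pos h, one_smul]
    · rw [if_neg h, if_neg h, zero_smul]
  · intro b _ hb
    unfold K9_diag
    rw [Matrix.diagonal_apply_ne _ (Ne.symm hb), zero_smul]
  · intro h
    exact absurd (Finset.mem_univ a) h

theorem K9_degPart {ι : Type} [Fintype ι] [DecidableEq ι] (G : FCx S ι) (j : ℤ) :
    degPart G M j = LinearMap.range (act (K9_diag G.deg S j) M) := by
  ext x
  rw [LinearMap.mem_range]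
  constructor
  · intro hx
    refine ⟨x, ?_⟩
    funext a
    rw [K9_diag_apply]
    by_cases h : G.deg a = j
    · rw [if_pos h]
    · rw [if_neg h]
      exact (hx a h).symm
  · rintro ⟨y, rfl⟩ a ha
    rw [K9_diag_apply, if_neg ha]

/-- transport of a base changed submodule -/
noncomputable def K9_T {ι : Type} [Fintype ι] [DecidableEq ι] (S1 : Type v) [CommRing S1]
    [Algebra S S1] (N : Submodule S (ι → M)) : Submodule S1 (ι → S1 ⊗[S] M) :=
  (N.baseChange S1).map (K9_e (S := S) S1 M ι).toLinearMap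

theorem K9_mem_T {ι : Type} [Fintype ι] [DecidableEq ι] (N : Submodule S (ι → M))
    (y : S1 ⊗[S] (ι → M)) :
    K9_e (S := S) S1 M ι y ∈ K9_T S1 N ↔ y ∈ N.baseChange S1 := by
  unfold K9_T
  constructor
  · rintro ⟨z, hz, h⟩
    have := (K9_e (S := S) S1 M ι).injective h
    rwa [← this]
  · intro h
    exact ⟨y, h, rfl⟩

theorem K9_T_map {ι κ : Type} [Fintype ι] [DecidableEq ι] [Fintype κ] [DecidableEq κ]
    (m : Matrix κ ι S) (N : Submodule S (ι → M)) :
    K9_T S1 (N.map (act m M)) =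
      (K9_T S1 N).map (act (m.map (algebraMap S S1)) (S1 ⊗[S] M)) := by
  unfold K9_T
  rw [bc_map]
  ext y
  constructor
  · rintro ⟨_, ⟨x, hx, rfl⟩, rfl⟩
    refine ⟨K9_e (S := S) S1 M ι x, ⟨x, hx, rfl⟩, ?_⟩
    exact (K9_act m x).symm
  · rintro ⟨_, ⟨x, hx, rfl⟩, rfl⟩
    refine ⟨(act m M).baseChange S1 x, ⟨x, hx, rfl⟩, ?_⟩
    exact K9_act m x

theorem K9_T_top {ι : Type} [Fintype ι] [DecidableEq ι] :
    K9_T S1 (⊤ : Submodule S (ι → M)) = ⊤ := by
  unfold K9_T
  rw [Submodule.baseChange_top, Submodule.map_top]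
  exact LinearEquiv.range _

theorem K9_T_bot {ι : Type} [Fintype ι] [DecidableEq ι] :
    K9_T S1 (⊥ : Submodule S (ι → M)) = ⊥ := by
  unfold K9_T
  rw [Submodule.baseChange_bot, Submodule.map_bot]

theorem K9_T_sup {ι : Type} [Fintype ι] [DecidableEq ι] (N P : Submodule S (ι → M)) :
    K9_T S1 (N ⊔ P) = K9_T S1 N ⊔ K9_T S1 P := by
  unfold K9_T
  rw [bc_sup, Submodule.map_sup]

variable [Module.Flat S S1]

theorem K9_T_inf {ι : Type} [Fintype ι] [DecidableEq ι] (N P : Submodule S (ι → M)) :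
    K9_T S1 (N ⊓ P) = K9_T S1 N ⊓ K9_T S1 P := by
  ext y
  obtain ⟨x, rfl⟩ := (K9_e (S := S) S1 M ι).surjective y
  rw [Submodule.mem_inf, K9_mem_T, K9_mem_T, K9_mem_T, bc_inf, Submodule.mem_inf]

theorem K9_T_comap {ι κ : Type} [Fintype ι] [DecidableEq ι] [Fintype κ] [DecidableEq κ]
    (m : Matrix κ ι S) (N : Submodule S (κ → M)) :
    K9_T S1 (N.comap (act m M)) =
      (K9_T S1 N).comap (act (m.map (algebraMap S S1)) (S1 ⊗[S] M)) := by
  ext y
  obtain ⟨x, rfl⟩ := (K9_e (S := S) S1 M ι).surjective y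
  rw [Submodule.mem_comap, K9_mem_T, bc_comap, Submodule.mem_comap, ← K9_act, K9_mem_T]

theorem K9_rlen {ι : Type} [Fintype ι] [DecidableEq ι] (N P : Submodule S (ι → M)) :
    rlen (K9_T S1 N) (K9_T S1 P) = rlen (N.baseChange S1) (P.baseChange S1) := by
  symm
  refine Vale.Agent.P202C.V.v2_rlen_eq _ _ _ _ (K9_e (S := S) S1 M ι).toLinearMap
    (K9_e (S := S) S1 M ι).symm.toLinearMap ?_ ?_ ?_ ?_ ?_ ?_
  · intro x hx
    exact (K9_mem_T P x).mpr hx
  · intro x hx
    exact (K9_mem_T N x).mpr hx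
  · intro y hy
    obtain ⟨x, rfl⟩ := (K9_e (S := S) S1 M ι).surjective y
    have h1 := (K9_mem_T P x).mp hy
    have h2 : (K9_e (S := S) S1 M ι).symm.toLinearMap (K9_e (S := S) S1 M ι x) = x :=
      (K9_e (S := S) S1 M ι).symm_apply_apply x
    rw [h2]
    exact h1
  · intro y hy
    obtain ⟨x, rfl⟩ := (K9_e (S := S) S1 M ι).surjective y
    have h1 := (K9_mem_T N x).mp hy
    have h2 : (K9_e (S := S) S1 M ι).symm.toLinearMap (K9_e (S := S) S1 M ι x) = x :=
      (K9_e (S := S) S1 M ι).symm_apply_apply x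
    rw [h2]
    exact h1
  · intro x _
    have h2 : (K9_e (S := S) S1 M ι).symm.toLinearMap
        ((K9_e (S := S) S1 M ι).toLinearMap x) = x :=
      (K9_e (S := S) S1 M ι).symm_apply_apply x
    rw [h2, sub_self]
    exact Submodule.zero_mem _
  · intro y _
    have h2 : (K9_e (S := S) S1 M ι).toLinearMap
        ((K9_e (S := S) S1 M ι).symm.toLinearMap y) = y :=
      (K9_e (S := S) S1 M ι).apply_symm_apply y
    rw [h2, sub_self]
    exact Submodule.zero_mem _

/-- flat local base change multiplies the lengths of homology -/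
theorem K9_Hc [IsLocalRing S] [IsLocalRing S1] [IsLocalHom (algebraMap S S1)] {ι : Type}
    [Fintype ι] (G : FCx S ι) (M : Type w) [AddCommGroup M] [Module S M] (j : ℤ) :
    Hc (G.map (algebraMap S S1)) (S1 ⊗[S] M) j =
      Hc G M j * Module.length S1 (S1 ⧸ (maximalIdeal S).map (algebraMap S S1)) := by
  classical
  have hdeg : ∀ i, degPart (G.map (algebraMap S S1)) (S1 ⊗[S] M) i =
      K9_T S1 (degPart G M i) := by
    intro i
    rw [K9_degPart, K9_degPart, ← Submodule.map_top, ← Submodule.map_top, K9_T_map, K9_T_top,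
      K9_diag_map]
    rfl
  have h1 : Hc (G.map (algebraMap S S1)) (S1 ⊗[S] M) j =
      rlen (K9_T S1 ((⊥ : Submodule S (ι → M)) ⊔ (degPart G M (j + 1)).map (act G.mat M)))
        (K9_T S1 (degPart G M j ⊓ (⊥ : Submodule S (ι → M)).comap (act G.mat M))) := by
    rw [K9_T_sup, K9_T_bot, K9_T_inf, K9_T_map, K9_T_comap, K9_T_bot, ← hdeg, ← hdeg]
    rfl
  rw [h1, K9_rlen, rlen_bc, IsLocalRing.length_baseChange S S1]
  rfl

theorem K9_KS {D : ℕ} (z : Fin D → S) :
    (KS z).map (algebraMap S S1) = KS fun i => algebraMap S S1 (z i) := by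
  unfold KS
  have h : ∀ i, (zmat z i).map (algebraMap S S1) = zmat (fun i => algebraMap S S1 (z i)) i := by
    intro i
    unfold zmat
    by_cases hi : i < D
    · rw [dif_pos hi, dif_pos hi]
      ext a b
      rw [Matrix.map_apply, Matrix.smul_apply, Matrix.smul_apply, smul_eq_mul, smul_eq_mul, map_mul,
        Matrix.one_apply, Matrix.one_apply]
      congr 1
      by_cases hab : a = b
      · rw [if_pos hab, if_pos hab, map_one]
      · rw [if_neg hab, if_neg hab, map_zero]
    · rw [dif_neg hi, dif_neg hi]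
      exact Matrix.map_zero _ (map_zero _)
  rw [Kz_map (algebraMap S S1) (zmat z) D (fun i _ j _ => zmat_comm z _ i) (by
    intro i _ j _
    rw [h i, h j]
    exact zmat_comm _ _ i)]
  congr 1
  funext i
  exact h i

end K9

/-- K9: flat local base change multiplies lengths of homology by the length of the closed fibre. -/
theorem Hc_scale_proved {S : Type u} {S1 : Type v} [CommRing S] [IsLocalRing S] [CommRing S1]
    [IsLocalRing S1] [Algebra S S1] [Module.Flat S S1] [IsLocalHom (algebraMap S S1)]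
    {D : ℕ} (z : Fin D → S) (M : Type w) [AddCommGroup M] [Module S M] (j : ℤ) :
    Hc (KS fun i => algebraMap S S1 (z i)) (S1 ⊗[S] M) j =
      Hc (KS z) M j * Module.length S1 (S1 ⧸ (maximalIdeal S).map (algebraMap S S1)) := by
  rw [← K9_KS, K9_Hc]

end Vale.Agent.P202K
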