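import Vale.Agent.P202K.K0
import Vale.Agent.P202Y.YD2
import Vale.Agent.P202C.UPlan

/-! # P202K: characteristic p, arbitrary residue fields (owner helper85): definitions

For `q = p^e` and a presentation `πR : k[[x]] → R` put `R1 = k[[x]]/ψ(I)`, `ψ` the coefficientwise
`q`-Frobenius, `θ` : `x_i ↦ x_i^q`, `k`-linear.  `θ ψ = ψ θ = F^e`.  `ψ` induces `R → R1`, flat,
and `θ` induces `φ : R1 → R`, finite, same residue field, `φ ψ = F^e`.
For `πS : l[[G]] → S` put `S1 = l[[G]]/J^[q]`; Frobenius induces `α : S → S1`, flat. -/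

set_option autoImplicit false

namespace Vale.Agent.P202K

universe u

/-- power series ring -/
abbrev PS (h : ℕ) (k : Type u) [CommRing k] : Type u := MvPowerSeries (Fin h) k

/-- coefficientwise Frobenius -/
noncomputable def psi (h : ℕ) (k : Type u) [Field k] (p : ℕ) [Fact p.Prime] [CharP k p] (e : ℕ) :
    PS h k →+* PS h k := MvPowerSeries.map (iterateFrobenius k p e)

/-- `x_i ↦ x_i^(p^e)` -/
noncomputable def theta (h : ℕ) (k : Type u) [Field k] (p : ℕ) [hp : Fact p.Prime] (e : ℕ) :
    PS h k →+* PS h k :=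
  (MvPowerSeries.expand (p ^ e) (pow_ne_zero e hp.out.ne_zero) : PS h k →ₐ[k] PS h k)

/-- characteristic of power series rings -/
instance charP_PS (h : ℕ) (l : Type u) [Field l] (p : ℕ) [CharP l p] : CharP (PS h l) p :=
  charP_of_injective_ringHom (f := (MvPowerSeries.C : l →+* PS h l)) MvPowerSeries.C_injective p

end Vale.Agent.P202K
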