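import Vale.Agent.P202K.KDefs
import Vale.Agent.P202K.K0
import Vale.Agent.P202K.K1
import Vale.Agent.P202K.K2
import Vale.Agent.P202K.K3
import Vale.Agent.P202K.K4a
import Vale.Agent.P202K.K4
import Vale.Agent.P202K.K5
import Vale.Agent.P202K.K5a
import Vale.Agent.P202K.K5b
import Vale.Agent.P202K.K5c
import Vale.Agent.P202K.K6
import Vale.Agent.P202K.K6a
import Vale.Agent.P202K.K6b
import Vale.Agent.P202K.K7
import Vale.Agent.P202K.K9
import Vale.Agent.P202Y.YD2
import Vale.Agent.P202C.UPlan

/-! # P202K: characteristic p, arbitrary residue fields (owner helper85): wiring of the modules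
(mathematics: notes/P202_residue.md). -/

set_option autoImplicit false

namespace Vale.Agent.P202K

open IsLocalRing Vale.Agent.P202 Vale.Agent.P202C TensorProduct

universe u v w

/-! ## 1. Fields and coefficient fields -/

/-- K1: field extensions of `F_p` are formally smooth (Mathlib: `Algebra.FormallySmooth.of_perfectField`
for finitely generated ones; the kernel `I/I² → Ω` is injective because it is so over finitely
generated subfields: `cotangentComplex_injective_iff`, `Algebra.FormallySmooth.iff_..`). -/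
theorem formallySmooth_field (p : ℕ) [Fact p.Prime] (K : Type u) [Field K] [Algebra (ZMod p) K] :
    Algebra.FormallySmooth (ZMod p) K :=
  formallySmooth_field_proved p K

/-- K2: coefficient fields (K1 and `Algebra.FormallySmooth.exists_mkₐ_comp_eq_of_isAdicComplete`). -/
theorem exists_coeff_p (p : ℕ) [Fact p.Prime] (R : Type u) [CommRing R] [IsLocalRing R] [CharP R p]
    [IsAdicComplete (maximalIdeal R) R] :
    ∃ (k : Type u) (_ : Field k) (_ : CharP k p) (a : k →+* R),
      ∀ x, ∃ t, x - a t ∈ maximalIdeal R :=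
  exists_coeff_p_proved p R

/-- K3: presentations (`P202Y.exists_psHom_proved`; surjective by completeness, see
`finite_of_residue` in K0.lean or `surjective_of_mk_map_comp_surjective`). -/
theorem exists_pres (R : Type u) [CommRing R] [IsLocalRing R] [IsNoetherianRing R]
    [IsAdicComplete (maximalIdeal R) R] {k : Type v} [Field k] (a : k →+* R)
    (hk : ∀ x, ∃ t, x - a t ∈ maximalIdeal R) :
    ∃ (h : ℕ) (π : PS h k →+* R), Function.Surjective π ∧ (∀ t, π (MvPowerSeries.C t) = a t) ∧
      (∀ i, π (MvPowerSeries.X i) ∈ maximalIdeal R) :=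
  exists_pres_proved R a hk

/-- K4a: lifting a field through a surjection of complete local rings (K1; `l[[G]]` is complete
for the topology of every proper ideal). -/
theorem exists_lift_field (p : ℕ) [Fact p.Prime] {k : Type u} [Field k] [CharP k p] {l : Type v}
    [Field l] {h : ℕ} {S : Type v} [CommRing S] (π : PS h l →+* S) (hπ : Function.Surjective π)
    [Nontrivial S] (f : k →+* S) : ∃ κ : k →+* PS h l, ∀ t, π (κ t) = f t :=
  exists_lift_field_proved p π hπ f

/-- K4: lifting the homomorphism `f : R → S` to the presentations, and the Frobenius companion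
`β` (`c ↦ κ c`, `x_i ↦ ρ(x_i)^q`). -/
theorem exists_lift (p : ℕ) [Fact p.Prime] (e : ℕ) {k : Type u} [Field k] [CharP k p] {l : Type v}
    [Field l] [CharP l p] {h h' : ℕ} {R : Type u} {S : Type v} [CommRing R] [IsLocalRing R]
    [CommRing S] [IsLocalRing S] [IsNoetherianRing S] [IsAdicComplete (maximalIdeal S) S]
    (f : R →+* S) [IsLocalHom f] (πR : PS h k →+* R) (hR : ∀ i, πR (MvPowerSeries.X i) ∈ maximalIdeal R)
    (πS : PS h' l →+* S) (hS : Function.Surjective πS)
    (hS' : ∀ i, πS (MvPowerSeries.X i) ∈ maximalIdeal S) :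
    ∃ (ρ β : PS h k →+* PS h' l),
      (∀ i, ρ (MvPowerSeries.X i) ∈ maximalIdeal (PS h' l)) ∧ (∀ a, πS (ρ a) = f (πR a)) ∧
      (∀ a, β (psi h k p e a) = (ρ a) ^ (p ^ e)) ∧
      (∀ i, β (MvPowerSeries.X i) = ρ (MvPowerSeries.X i) ^ (p ^ e)) :=
  exists_lift_proved p e f πR hR πS hS hS'

/-! ## 2. Flatness -/

/-- K5: a local homomorphism from a regular local ring is flat if a regular system of parameters
maps to a regular sequence (use P202C/Flat.lean: `flat_of_flatMod`, `flatMod_of_flat`; induction on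
the length of `rs`, quotient by the first element). -/
theorem flat_of_regular_seq (n : ℕ) {A : Type u} {B : Type v} [CommRing A] [IsLocalRing A]
    [IsNoetherianRing A] [CommRing B] [IsLocalRing B] [IsNoetherianRing B] (f : A →+* B)
    [IsLocalHom f] (rs : List A) (hn : rs.length = n) (hA : Ideal.ofList rs = maximalIdeal A)
    (hreg : RingTheory.Sequence.IsWeaklyRegular A rs)
    (hB : RingTheory.Sequence.IsWeaklyRegular B (rs.map f)) : f.Flat :=
  flat_of_regular_seq_proved n f rs hn hA hreg hB

/-- K5a: coefficient extensions of power series rings are flat (K5, P202Y/YC2 `mvps_regular`). -/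
theorem flat_map_PS (h : ℕ) {k : Type u} {k' : Type v} [Field k] [Field k'] (j : k →+* k') :
    (MvPowerSeries.map j : PS h k →+* PS h k').Flat :=
  flat_map_PS_proved h j

/-- K5b: Frobenius of a power series ring over a field is flat (K5; powers of a regular sequence). -/
theorem flat_frob_PS (h : ℕ) (l : Type u) [Field l] (p : ℕ) [Fact p.Prime] [CharP l p] (e : ℕ) :
    (iterateFrobenius (PS h l) p e).Flat :=
  flat_frob_PS_proved h l p e

/-- K5c: flatness passes to quotients: `A/I → B/IB`. -/
theorem flat_quot {A : Type u} {B : Type v} [CommRing A] [CommRing B] (f : A →+* B) (hf : f.Flat)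
    (I : Ideal A) : (Ideal.quotientMap (I.map f) f Ideal.le_comap_map : A ⧸ I →+* B ⧸ I.map f).Flat :=
  flat_quot_proved f hf I

/-- K7: length criterion of flatness: `R → R1` flat with `m R1 = m1`, `R → S1` flat, finite length
closed fibre ⇒ `R1 → S1` flat.  (For `I ⊇ m1^N`: `ℓ(S1/m1^N S1) = ℓ(R1/m1^N) λ` by `length_baseChange`
twice, `ℓ(M ⊗ S1) ≤ ℓ(M) λ` for every `M` of finite length, hence `(I/m1^N) ⊗ S1 → S1/m1^N S1` is
injective; Artin-Rees and Krull for `I ⊗ S1`.) -/
theorem flat_crit {R : Type u} {R1 : Type v} {S1 : Type w} [CommRing R] [IsLocalRing R]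
    [IsNoetherianRing R] [CommRing R1] [IsLocalRing R1] [IsNoetherianRing R1] [CommRing S1]
    [IsLocalRing S1] [IsNoetherianRing S1] [Algebra R R1] [Algebra R1 S1] [Algebra R S1]
    [IsScalarTower R R1 S1] [Module.Flat R R1] [Module.Flat R S1]
    [IsLocalHom (algebraMap R1 S1)]
    (hm : (maximalIdeal R).map (algebraMap R R1) = maximalIdeal R1)
    (hfin : Module.length S1 (S1 ⧸ (maximalIdeal R1).map (algebraMap R1 S1)) ≠ ⊤) :
    Module.Flat R1 S1 :=
  flat_crit_proved (R := R) hm hfin

/-! ## 3. `ψ`, `θ` -/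

/-- K6a -/
theorem theta_psi (h : ℕ) (k : Type u) [Field k] (p : ℕ) [Fact p.Prime] [CharP k p] (e : ℕ)
    (a : PS h k) : theta h k p e (psi h k p e a) = a ^ (p ^ e) :=
  theta_psi_proved h k p e a

/-- K6a' -/
theorem psi_theta (h : ℕ) (k : Type u) [Field k] (p : ℕ) [Fact p.Prime] [CharP k p] (e : ℕ)
    (a : PS h k) : psi h k p e (theta h k p e a) = a ^ (p ^ e) :=
  psi_theta_proved h k p e a

/-- K6b (`finite_of_residue` in K0.lean) -/
theorem theta_finite (h : ℕ) (k : Type u) [Field k] (p : ℕ) [Fact p.Prime] (e : ℕ) :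
    (theta h k p e).Finite :=
  theta_finite_proved h k p e

/-! ## 4. The construction -/

/-- K6: assembly of K2-K7. -/
theorem exists_twist (p : ℕ) [Fact p.Prime] (e : ℕ) (R : Type u) (S : Type v) [CommRing R]
    [IsLocalRing R] [IsNoetherianRing R] [CharP R p] [IsAdicComplete (maximalIdeal R) R]
    [CommRing S] [IsLocalRing S] [IsNoetherianRing S] [IsAdicComplete (maximalIdeal S) S]
    (f : R →+* S) [IsLocalHom f] (hf : f.Flat)
    (hfib : Module.length S (S ⧸ (maximalIdeal R).map f) ≠ ⊤) :
    ∃ (R1 : Type u) (S1 : Type v) (_ : CommRing R1) (_ : CommRing S1) (_ : IsLocalRing R1)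
      (_ : IsNoetherianRing R1) (_ : IsLocalRing S1) (_ : IsNoetherianRing S1)
      (ψ : R →+* R1) (φ : R1 →+* R) (α : S →+* S1) (β : R1 →+* S1),
      (∀ r, φ (ψ r) = r ^ (p ^ e)) ∧ (∀ r, ψ (φ r) = r ^ (p ^ e)) ∧ ψ.Flat ∧ IsLocalHom ψ ∧
      (maximalIdeal R).map ψ = maximalIdeal R1 ∧ IsLocalHom φ ∧ φ.Finite ∧
      (∀ x : R, ∃ r : R1, x - φ r ∈ maximalIdeal R) ∧
      α.Flat ∧ IsLocalHom α ∧ Module.length S1 (S1 ⧸ (maximalIdeal S).map α) ≠ ⊤ ∧
      β.Flat ∧ IsLocalHom β ∧ (∀ r, β (ψ r) = α (f r)) :=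
  exists_twist_proved p e R S f hf

/-! ## 5. Scaling -/

/-- K9: flat local base change multiplies lengths of homology by the length of the closed fibre
(`IsLocalRing.length_baseChange`, homology commutes with flat base change; see P202C/BC.lean). -/
theorem Hc_scale {S : Type u} {S1 : Type v} [CommRing S] [IsLocalRing S] [CommRing S1]
    [IsLocalRing S1] [Algebra S S1] [Module.Flat S S1] [IsLocalHom (algebraMap S S1)]
    {D : ℕ} (z : Fin D → S) (M : Type w) [AddCommGroup M] [Module S M] (j : ℤ) :
    Hc (KS fun i => algebraMap S S1 (z i)) (S1 ⊗[S] M) j =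
      Hc (KS z) M j * Module.length S1 (S1 ⧸ (maximalIdeal S).map (algebraMap S S1)) :=
  Hc_scale_proved z M j

end Vale.Agent.P202K
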