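import Vale.Agent.P202C.DecCon

/-!
P202 in characteristic p, arbitrary residue fields (helper19): the twist of modules and filtered
complexes by a ring homomorphism `φ : A → R` between two different rings.
-/

set_option autoImplicit false

namespace Vale.Agent.P202C

open IsLocalRing TensorProduct

universe u0 u v w

section Twist

/-- `V` with scalars acting through `φ` -/
def Tw2 {A : Type u0} [CommRing A] {R : Type u} [CommRing R] (_φ : A →+* R) (V : Type v) :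
    Type v := V

instance {A : Type u0} [CommRing A] {R : Type u} [CommRing R] (φ : A →+* R) (V : Type v)
    [AddCommGroup V] : AddCommGroup (Tw2 φ V) := inferInstanceAs (AddCommGroup V)

instance {A : Type u0} [CommRing A] {R : Type u} [CommRing R] (φ : A →+* R) (V : Type v)
    [AddCommGroup V] [Module R V] : Module A (Tw2 φ V) := Module.compHom V φ

/-- length of the twist of the residue field -/
noncomputable def twc2 {A : Type u0} [CommRing A] {R : Type u} [CommRing R] [IsLocalRing R]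
    (φ : A →+* R) : ℕ∞ :=
  Module.length A (Tw2 φ (R ⧸ maximalIdeal R))

variable {A : Type u0} [CommRing A] {R : Type u} [CommRing R]

/-- twist of a linear map -/
def v3Map2 (φ : A →+* R) {M : Type v} {N : Type w} [AddCommGroup M]
    [Module R M] [AddCommGroup N] [Module R N] (f : M →ₗ[R] N) : Tw2 φ M →ₗ[A] Tw2 φ N where
  toFun := f
  map_add' := f.map_add
  map_smul' := fun r x => f.map_smul (φ r) x

/-- twist of a linear equivalence -/
def v3Equiv2 (φ : A →+* R) {M : Type v} {N : Type w} [AddCommGroup M]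
    [Module R M] [AddCommGroup N] [Module R N] (e : M ≃ₗ[R] N) : Tw2 φ M ≃ₗ[A] Tw2 φ N where
  toFun := e
  map_add' := e.map_add
  map_smul' := fun r x => e.map_smul (φ r) x
  invFun := e.symm
  left_inv := e.left_inv
  right_inv := e.right_inv

/-- a submodule as a submodule of the twist -/
def v3Sub2 (φ : A →+* R) {M : Type v} [AddCommGroup M] [Module R M]
    (N : Submodule R M) : Submodule A (Tw2 φ M) where
  carrier := {x | (show M from x) ∈ N}
  zero_mem' := N.zero_mem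
  add_mem' := fun hx hy => N.add_mem hx hy
  smul_mem' := fun r _ hx => N.smul_mem (φ r) hx

theorem v3_length_le2 (φ : A →+* R) (M : Type v) [AddCommGroup M]
    [Module R M] : Module.length R M ≤ Module.length A (Tw2 φ M) := by
  rw [← WithBot.coe_le_coe, Module.coe_length, Module.coe_length]
  refine Order.krullDim_le_of_strictMono (v3Sub2 φ) ?_
  intro N N' h
  rw [lt_iff_le_not_ge] at h ⊢
  exact h

theorem v3_length_eq2 [IsLocalRing R] (φ : A →+* R) (M : Type v)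
    [AddCommGroup M] [Module R M] (hM : IsFiniteLength R M) :
    Module.length A (Tw2 φ M) = twc2 φ * Module.length R M := by
  induction hM with
  | @of_subsingleton M _ _ _ =>
    have h : Subsingleton (Tw2 φ M) := ‹Subsingleton M›
    rw [Module.length_eq_zero, Module.length_eq_zero, mul_zero]
  | @of_simple_quotient M _ _ N hs _ ih =>
    have h1 : Module.length A (Tw2 φ M)
        = Module.length A (Tw2 φ N) + Module.length A (Tw2 φ (M ⧸ N)) := by
      refine Module.length_eq_add_of_exact (v3Map2 φ N.subtype) (v3Map2 φ N.mkQ)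
        (Submodule.subtype_injective N) (Submodule.mkQ_surjective N) ?_
      exact LinearMap.exact_subtype_mkQ N
    have h2a : Module.length R (M ⧸ N) = 1 := Module.length_eq_one R (M ⧸ N)
    have h2 : Module.length R M = Module.length R N + 1 := by
      rw [Module.length_eq_add_of_exact N.subtype N.mkQ (Submodule.subtype_injective N)
        (Submodule.mkQ_surjective N) (LinearMap.exact_subtype_mkQ N), h2a]
    have h3 : Module.length A (Tw2 φ (M ⧸ N)) = twc2 φ := by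
      obtain ⟨I, hI, ⟨e⟩⟩ := isSimpleModule_iff_quot_maximal.1 hs
      have hI2 := IsLocalRing.eq_maximalIdeal hI
      subst hI2
      exact (v3Equiv2 φ e).length_eq
    rw [h1, h2, h3, ih, mul_add, mul_one]

theorem v3_rlen2 (φ : A →+* R) {M : Type v} {M' : Type w}
    [AddCommGroup M] [Module R M] [AddCommGroup M'] [Module A M'] (θ : M' ≃+ M)
    (hθ : ∀ (r : A) (x : M'), θ (r • x) = φ r • θ x) (N P : Submodule R M)
    (N' P' : Submodule A M') (hP : ∀ x, x ∈ P' ↔ θ x ∈ P) (hN : ∀ x, x ∈ N' ↔ θ x ∈ N) :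
    rlen N' P' = Module.length A (Tw2 φ (P ⧸ N.submoduleOf P)) := by
  let f : P' →ₗ[A] Tw2 φ (P ⧸ N.submoduleOf P) :=
    { toFun := fun x => (N.submoduleOf P).mkQ ⟨θ x, (hP x).1 x.2⟩
      map_add' := fun x y => by
        have h : (N.submoduleOf P).mkQ (⟨θ x, (hP x).1 x.2⟩ + ⟨θ y, (hP y).1 y.2⟩)
            = (N.submoduleOf P).mkQ ⟨θ x, (hP x).1 x.2⟩
              + (N.submoduleOf P).mkQ ⟨θ y, (hP y).1 y.2⟩ := map_add _ _ _
        refine Eq.trans ?_ h
        refine congrArg (N.submoduleOf P).mkQ (Subtype.ext ?_)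
        exact θ.map_add x y
      map_smul' := fun r x => by
        have h : (N.submoduleOf P).mkQ (φ r • ⟨θ x, (hP x).1 x.2⟩)
            = φ r • (N.submoduleOf P).mkQ ⟨θ x, (hP x).1 x.2⟩ := map_smul _ _ _
        refine Eq.trans ?_ h
        refine congrArg (N.submoduleOf P).mkQ (Subtype.ext ?_)
        exact hθ r x }
  have hker : LinearMap.ker f = N'.submoduleOf P' := by
    ext x
    have h3 : x ∈ N'.submoduleOf P' ↔ (x : M') ∈ N' := Iff.rfl
    rw [LinearMap.mem_ker, h3, hN]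
    have h : f x = 0 ↔ (N.submoduleOf P).mkQ ⟨θ x, (hP x).1 x.2⟩ = 0 := Iff.rfl
    rw [h, Submodule.mkQ_apply, Submodule.Quotient.mk_eq_zero]
    exact Iff.rfl
  have hsurj : Function.Surjective f := by
    intro y
    obtain ⟨z, hz⟩ := Submodule.mkQ_surjective (N.submoduleOf P) y
    have hz2 : θ (θ.symm z.1) ∈ P := by rw [θ.apply_symm_apply]; exact z.2
    refine ⟨⟨θ.symm z.1, (hP _).2 hz2⟩, ?_⟩
    refine Eq.trans ?_ hz
    refine congrArg (N.submoduleOf P).mkQ (Subtype.ext ?_)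
    exact θ.apply_symm_apply z.1
  unfold rlen
  rw [← hker]
  exact (f.quotKerEquivOfSurjective hsurj).length_eq

theorem v3_Hc2 {ι : Type} [Fintype ι] (G : FCx A ι) (φ : A →+* R)
    (V : Type v) [AddCommGroup V] [Module R V] (j : ℤ) :
    ∃ (H : Type v) (_ : AddCommGroup H) (_ : Module R H), Hc (G.map φ) V j = Module.length R H ∧
      Hc G (Tw2 φ V) j = Module.length A (Tw2 φ H) := by
  refine ⟨_, _, _, rfl, ?_⟩
  unfold Hc hl
  refine v3_rlen2 φ (M := ι → V) (M' := ι → Tw2 φ V) (AddEquiv.refl _) (fun r x => rfl) _ _ _ _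
    (fun x => Iff.rfl) (fun x => ?_)
  unfold botF
  rw [bot_sup_eq, bot_sup_eq]
  exact Iff.rfl

theorem Hc_twist_le2 {ι : Type} [Fintype ι] (G : FCx A ι) (φ : A →+* R)
    (V : Type v) [AddCommGroup V] [Module R V] (j : ℤ) :
    Hc (G.map φ) V j ≤ Hc G (Tw2 φ V) j := by
  obtain ⟨H, _, _, h1, h2⟩ := v3_Hc2 G φ V j
  rw [h1, h2]
  exact v3_length_le2 φ H

theorem Hc_twist2 [IsLocalRing R] {ι : Type} [Fintype ι] (G : FCx A ι)
    (φ : A →+* R) (V : Type v) [AddCommGroup V] [Module R V] (j : ℤ)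
    (h : Hc G (Tw2 φ V) j ≠ ⊤) : Hc G (Tw2 φ V) j = twc2 φ * Hc (G.map φ) V j := by
  obtain ⟨H, _, _, h1, h2⟩ := v3_Hc2 G φ V j
  rw [h2] at h
  rw [h1, h2]
  refine v3_length_eq2 φ H (Module.length_ne_top_iff.1 ?_)
  exact ne_top_of_le_ne_top h (v3_length_le2 φ H)

/-- the ring with the algebra structure given by `φ` -/
def V3R2 {A : Type u0} [CommRing A] {R : Type u} [CommRing R] (_φ : A →+* R) : Type u := R

instance (φ : A →+* R) : CommRing (V3R2 φ) :=
  inferInstanceAs (CommRing R)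

instance (φ : A →+* R) : Algebra A (V3R2 φ) := φ.toAlgebra

instance (φ : A →+* R) (V : Type v) [AddCommGroup V] [Module R V] :
    Module (V3R2 φ) (Tw2 φ V) := inferInstanceAs (Module R V)

instance (φ : A →+* R) (V : Type v) [AddCommGroup V] [Module R V] :
    IsScalarTower A (V3R2 φ) (Tw2 φ V) :=
  ⟨fun a b x => mul_smul (show R from φ a) (show R from b) (show V from x)⟩

theorem Tw_finite2 (φ : A →+* R) (hφ : φ.Finite)
    (V : Type v) [AddCommGroup V] [Module R V] [Module.Finite R V] :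
    Module.Finite A (Tw2 φ V) := by
  have h1 : Module.Finite A (V3R2 φ) := hφ
  have h2 : Module.Finite (V3R2 φ) (Tw2 φ V) := ‹Module.Finite R V›
  exact Module.Finite.trans (V3R2 φ) (Tw2 φ V)

theorem twc_ne_top2 [IsLocalRing A] [IsLocalRing R] (φ : A →+* R) (hφ : φ.Finite)
    (hloc : ∀ r ∈ maximalIdeal A, φ r ∈ maximalIdeal R) : twc2 φ ≠ ⊤ := by
  unfold twc2
  have := Tw_finite2 φ hφ (R ⧸ maximalIdeal R)
  refine V.v3_finite _ (fun r hr x => ?_)
  obtain ⟨y, hy⟩ := Submodule.mkQ_surjective (maximalIdeal R) (show R ⧸ maximalIdeal R from x)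
  have h : φ r • (show R ⧸ maximalIdeal R from x) = 0 := by
    rw [← hy, ← map_smul, Submodule.mkQ_apply, Submodule.Quotient.mk_eq_zero, smul_eq_mul]
    exact Ideal.mul_mem_right _ _ (hloc r hr)
  exact h

theorem twc_ne_zero2 [IsLocalRing R] (φ : A →+* R) : twc2 φ ≠ 0 := by
  unfold twc2
  rw [Ne, Module.length_eq_zero_iff]
  intro h
  have h2 : Subsingleton (R ⧸ maximalIdeal R) := h
  have h3 : Nontrivial (R ⧸ maximalIdeal R) := inferInstance
  exact not_subsingleton _ h2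

/-- if `φ` is surjective modulo the maximal ideal, then the twist of the residue field has
length one -/
theorem twc_eq_one2 [IsLocalRing A] [IsLocalRing R] (φ : A →+* R)
    (hloc : ∀ r ∈ maximalIdeal A, φ r ∈ maximalIdeal R)
    (hres : ∀ r : R, ∃ a : A, r - φ a ∈ maximalIdeal R) : twc2 φ = 1 := by
  unfold twc2
  have hs : IsSimpleModule A (A ⧸ maximalIdeal A) :=
    isSimpleModule_iff_quot_maximal.2 ⟨maximalIdeal A, inferInstance, ⟨LinearEquiv.refl _ _⟩⟩
  let f : A →ₗ[A] Tw2 φ (R ⧸ maximalIdeal R) :=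
    { toFun := fun a => (Submodule.Quotient.mk (φ a) : R ⧸ maximalIdeal R)
      map_add' := fun a b => by rw [map_add]; rfl
      map_smul' := fun a b => by rw [smul_eq_mul, map_mul]; rfl }
  have hsurj : Function.Surjective f := by
    intro x
    obtain ⟨r, hr⟩ := Submodule.mkQ_surjective (maximalIdeal R) (show R ⧸ maximalIdeal R from x)
    obtain ⟨a, ha⟩ := hres r
    refine ⟨a, ?_⟩
    change (Submodule.Quotient.mk (φ a) : R ⧸ maximalIdeal R) = x
    rw [← hr]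
    exact ((Submodule.Quotient.eq _).2 ha).symm
  have hker : LinearMap.ker f = maximalIdeal A := by
    refine le_antisymm ?_ fun a ha => ?_
    · refine IsLocalRing.le_maximalIdeal ?_
      intro htop
      have h1 : (1 : A) ∈ LinearMap.ker f := by rw [htop]; trivial
      rw [LinearMap.mem_ker] at h1
      change (Submodule.Quotient.mk (φ 1) : R ⧸ maximalIdeal R) = 0 at h1
      rw [Submodule.Quotient.mk_eq_zero, map_one] at h1
      exact (Ideal.ne_top_iff_one _).mp (maximalIdeal.isMaximal R).ne_top h1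
    · rw [LinearMap.mem_ker]
      change (Submodule.Quotient.mk (φ a) : R ⧸ maximalIdeal R) = 0
      rw [Submodule.Quotient.mk_eq_zero]
      exact hloc a ha
  rw [← (f.quotKerEquivOfSurjective hsurj).length_eq, hker]
  exact Module.length_eq_one A (A ⧸ maximalIdeal A)

variable {X : Type v} [AddCommGroup X] [Module R X]

/-- the twist of a filtered complex -/
def FiltCx.tw2 (C : FiltCx R X) (φ : A →+* R) : FiltCx A (Tw2 φ X) where
  d := v3Map2 φ C.d
  gr k := v3Sub2 φ (C.gr k)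
  F s := v3Sub2 φ (C.F s)
  dd := C.dd
  d_gr := C.d_gr
  d_F := C.d_F
  F_anti := fun s _ hx => C.F_anti s hx

/-- twist of contraction operators -/
def ConOp.tw2 {C : FiltCx R X} {m : ℕ} {M0 : ℤ} {ρ : Fin m → A} (φ : A →+* R)
    (hC : ConOp C m M0 (fun j => φ (ρ j))) : ConOp (C.tw2 φ) m M0 ρ where
  μ j := v3Map2 φ (hC.μ j)
  gr := hC.gr
  F := hC.F
  sum := hC.sum

theorem v3Sub_le2 {φ : A →+* R} {N P : Submodule R X} :
    v3Sub2 φ N ≤ v3Sub2 φ P ↔ N ≤ P := Iff.rfl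

/-- slices of the twist -/
theorem sl_tw2 [IsLocalRing R] (C : FiltCx R X) (φ : A →+* R) (s k : ℤ) (h : sl C s k ≠ ⊤) :
    sl (C.tw2 φ) s k = twc2 φ * sl C s k := by
  unfold sl
  have h1 := v3_rlen2 φ (M := X) (M' := Tw2 φ X) (AddEquiv.refl _) (fun r x => rfl)
    ((C.gr k ⊓ C.F (s + 1)) ⊔ (C.gr (k - 1) ⊓ C.F s).map C.d)
    (C.gr k ⊓ C.F s ⊓ (C.F (s + 1)).comap C.d)
    (((C.tw2 φ).gr k ⊓ (C.tw2 φ).F (s + 1)) ⊔ ((C.tw2 φ).gr (k - 1) ⊓ (C.tw2 φ).F s).map
      (C.tw2 φ).d)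
    ((C.tw2 φ).gr k ⊓ (C.tw2 φ).F s ⊓ ((C.tw2 φ).F (s + 1)).comap (C.tw2 φ).d)
    (fun x => Iff.rfl) (fun x => ?_)
  · rw [h1]
    exact v3_length_eq2 φ _ (Module.length_ne_top_iff.1 h)
  · constructor
    · intro hx
      obtain ⟨y, hy, z, ⟨w, hw, rfl⟩, hyz⟩ := Submodule.mem_sup.1 hx
      exact Submodule.mem_sup.2 ⟨y, hy, _, ⟨w, hw, rfl⟩, hyz⟩
    · intro hx
      obtain ⟨y, hy, z, ⟨w, hw, rfl⟩, hyz⟩ := Submodule.mem_sup.1 hx
      exact Submodule.mem_sup.2 ⟨y, hy, _, ⟨w, hw, rfl⟩, hyz⟩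

theorem slEul_tw2 [IsLocalRing R] (C : FiltCx R X) (φ : A →+* R) (n : ℕ) (s : ℤ)
    (h : ∀ k, sl C s k ≠ ⊤) :
    slEul (C.tw2 φ) n s = ((twc2 φ).toNat : ℤ) * slEul C n s := by
  unfold slEul
  rw [Finset.mul_sum]
  refine Finset.sum_congr rfl fun k _ => ?_
  rw [sl_tw2 C φ s k (h k), ENat.toNat_mul]
  push_cast
  ring

/-- exactness in the twist -/
theorem exact_tw2 (C : FiltCx R X) (φ : A →+* R) (s k : ℤ)
    (h : ∀ x ∈ C.gr k ⊓ C.F s, C.d x = 0 → ∃ w ∈ C.gr (k - 1) ⊓ C.F s, C.d w = x) :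
    ∀ x ∈ (C.tw2 φ).gr k ⊓ (C.tw2 φ).F s, (C.tw2 φ).d x = 0 →
      ∃ w ∈ (C.tw2 φ).gr (k - 1) ⊓ (C.tw2 φ).F s, (C.tw2 φ).d w = x := h

/-- the degree zero cocycles of the twist -/
theorem M0_tw2 (C : FiltCx R X) (φ : A →+* R) :
    MI.M0 (C.tw2 φ) = v3Sub2 φ (MI.M0 C) := rfl

end Twist

section Dec

variable (𝔽 : Type w) [Field 𝔽]

/-- the contraction hypothesis for the base change of a twist of `CR` -/
theorem con_dec2 (n D : ℕ) : ∃ c1 : ℕ, ∀ (A : Type u0) [CommRing A] (R : Type u) [CommRing R]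
    [Algebra (PolyA 𝔽 n) R]
    (φ : A →+* R) (S : Type v) [CommRing S] [Algebra A S] (b : Fin n → ℤ)
    (ρ : Fin (n + 1) → A) (N' : ℕ)
    (_ : ∀ j : Fin (n + 1), φ (ρ j) = yR 𝔽 R j ^ N')
    (ι : Type) [Fintype ι] [DecidableEq ι] (G : FCx S ι) (Q : ℤ)
    (_ : 0 ≤ Q) (_ : ∀ a, 0 ≤ G.deg a ∧ G.deg a ≤ D)
    (_ : ∀ j : Fin (n + 1), ∃ h : Matrix ι ι S, (∀ a b, h a b ≠ 0 → G.deg a = G.deg b + 1) ∧
      G.mat * h + h * G.mat = algebraMap A S (ρ j) • (1 : Matrix ι ι S)),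
    ∀ t j : ℤ, ∀ x ∈ fam G (((CR 𝔽 R b).tw2 φ).bc S) (fun i => t - i * Q) j,
      totd G (((CR 𝔽 R b).tw2 φ).bc S) x = 0 →
      ∃ w ∈ fam G (((CR 𝔽 R b).tw2 φ).bc S) (fun i => t - i * Q - c1 * (N' + 1 + Q)) (j + 1),
        totd G (((CR 𝔽 R b).tw2 φ).bc S) w = x := by
  obtain ⟨c0, hc0⟩ := conOp_CR 𝔽 n
  refine ⟨(2 * D + 1) * (c0 + 1), ?_⟩
  intro A _ R _ _ φ S _ _ b ρ N' hφ ι _ _ G Q hQ hdeg hh t j x hx hTx
  obtain ⟨op⟩ := hc0 R b N'
  have op1 : ConOp (CR 𝔽 R b) (n + 1) (c0 * (N' + 1) : ℕ) (fun j => φ (ρ j)) := by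
    have h1 : (fun j : Fin (n + 1) => φ (ρ j)) = fun j => yR 𝔽 R j ^ N' := funext hφ
    rw [h1]
    exact op
  have op2 := (ConOp.tw2 (ρ := ρ) φ op1).bc S
  obtain ⟨w, hw, hw2⟩ := op2.contract (Int.natCast_nonneg _) G Q hQ D hdeg hh t j x hx hTx
  refine ⟨w, fun a => ?_, hw2⟩
  have h1 := hw a
  refine ⟨h1.1, con_F_mono _ ?_ h1.2⟩
  show t - G.deg a * Q - (((2 * D + 1) * (c0 + 1) : ℕ) : ℤ) * (N' + 1 + Q) ≤
    t - G.deg a * Q - (2 * D + 1) * (((c0 * (N' + 1) : ℕ) : ℤ) + Q)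
  push_cast
  have h5 : (c0 : ℤ) * (N' + 1) + Q ≤ (c0 + 1) * (N' + 1 + Q) := by
    have h6 : (0 : ℤ) ≤ c0 := Int.natCast_nonneg _
    have h7 : (0 : ℤ) ≤ N' := Int.natCast_nonneg _
    nlinarith [mul_nonneg h6 hQ]
  have h8 : (0 : ℤ) ≤ 2 * D + 1 := by positivity
  have h9 := mul_le_mul_of_nonneg_left h5 h8
  linarith

/-- the maximal ideal raises the filtration of the twist by `Q` -/
theorem shift_tw2 {n : ℕ} {A : Type u0} [CommRing A] {R : Type u} [CommRing R]
    [Algebra (PolyA 𝔽 n) R]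
    (φ : A →+* R) (b : Fin n → ℤ) (Q : ℕ) (r : A) (hr : φ r ∈ yI 𝔽 n R ^ Q) (s : ℤ)
    (x : Tw2 φ (R ⊗[PolyA 𝔽 n] XA 𝔽 n)) (hx : x ∈ ((CR 𝔽 R b).tw2 φ).F s) :
    r • x ∈ ((CR 𝔽 R b).tw2 φ).F (s + Q) :=
  shift_CR 𝔽 R b Q (φ r) hr s x hx

end Dec

end Vale.Agent.P202C
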