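import Vale.Agent.P202K.Tw2
import Vale.Agent.P202C.Ult
import Vale.Agent.P202K.Frob2
import Vale.Agent.P202K.K9

/-!
P202 in characteristic p, arbitrary residue fields: the main inequality for one `q`, for a twist
`phi : A -> R` between two different rings (helper46).
-/

set_option autoImplicit false

namespace Vale.Agent.P202K

open IsLocalRing TensorProduct Vale.Agent.P202 Vale.Agent.P202C

universe u v w w'

section Step

variable {A : Type u} [CommRing A] [IsLocalRing A]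
  {R : Type v} [CommRing R] [IsLocalRing R]
  (k0 : Type) [Field k0] {n : ℕ} [Algebra (PolyA k0 n) R]
  {S : Type w} [CommRing S] [Algebra A S] [Module.Flat A S]

/-- the main inequality for one `q`: abstract form with the contraction as a hypothesis -/
theorem ult_step2 (φ : A →+* R) {ι : Type} [Fintype ι] [DecidableEq ι] (G : FCx S ι)
    (hdeg : ∀ a, 0 ≤ G.deg a ∧ G.deg a ≤ (n + 1 : ℕ))
    (h : ℕ → ℕ) (hh : ∀ i : ℕ, Hc G (S ⧸ (maximalIdeal A).map (algebraMap A S)) i = h i)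
    (hh' : ∀ i : ℤ, Hc G (S ⧸ (maximalIdeal A).map (algebraMap A S)) i ≠ ⊤)
    (C : ℕ) (c0 : ℤ) (hfin : ∀ (b : Fin n → ℤ) (s k : ℤ), sl (CR k0 R b) s k ≠ ⊤)
    (hbad : ∀ (b : Fin n → ℤ) (s k : ℤ), k ≠ negc b s →
        sl (CR k0 R b) s k ≤ ((C * P202G.Nz b s ^ (n - 1) : ℕ) : ℕ∞))
    (hex : ∀ (b : Fin n → ℤ) (s : ℤ), (∀ l, c0 ≤ b l + s) → ∀ k : ℤ, 1 ≤ k →
        ∀ x ∈ (CR k0 R b).gr k ⊓ (CR k0 R b).F s, (CR k0 R b).d x = 0 →
          ∃ w ∈ (CR k0 R b).gr (k - 1) ⊓ (CR k0 R b).F s, (CR k0 R b).d w = x)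
    (M K2 Q : ℕ) (hQ : 0 < Q) (hMK : M ≤ K2 * Q) (b : Fin n → ℤ) (hb0 : ∀ l, c0 ≤ b l)
    (hb : ∀ l : Fin n, (l : ℤ) * Q ≤ b l ∧ b l ≤ ((l : ℤ) + 1) * Q - 1)
    (hshift : ∀ r ∈ maximalIdeal A, φ r ∈ yI k0 n R ^ Q)
    (hcon : ∀ j : ℤ, ∀ x ∈ fam G (((CR k0 R b).tw2 φ).bc S) (fun i => (1 - i) * Q) j,
      totd G (((CR k0 R b).tw2 φ).bc S) x = 0 →
      ∃ w ∈ fam G (((CR k0 R b).tw2 φ).bc S) (fun i => (1 - i) * Q - M) (j + 1),
        totd G (((CR k0 R b).tw2 φ).bc S) w = x)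
    (htw : twc2 φ ≠ ⊤) (htw0 : twc2 φ ≠ 0) (X : ℤ)
    (hX : MI.chiG G (MI.M0 (((CR k0 R b).tw2 φ).bc S)) (n + 1) = (twc2 φ).toNat * X) :
    h 0 * (∑ s ∈ Finset.Ico (0 : ℤ) Q, slEul (CR k0 R b) n s) -
      (∑ i ∈ Finset.Ico 2 (n + 1 + 1), (-1 : ℤ) ^ i * h i *
        ∑ s ∈ Finset.Ico ((1 - (i : ℤ)) * Q) 0, slEul (CR k0 R b) n s) -
      ((n + 1 + n + 1 : ℕ) : ℤ) * (∑ i ∈ Finset.range (n + 1 + 1), h i) *
        (((K2 + (n + 1) : ℕ) : ℤ) * Q) *
        ((C * ((1 + n * (n + (n + 1 + K2) + 1)) * Q) ^ (n - 1) : ℕ) : ℤ) ≤ X := by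
  set κ : ℕ := (twc2 φ).toNat with hκ
  have hκt : twc2 φ = κ := (ENat.natCast_toNat htw).symm
  have hκ0 : 0 < κ := by
    rcases Nat.eq_zero_or_pos κ with h0 | h0
    · rw [h0] at hκt
      exact absurd hκt htw0
    · exact h0
  set K1 : ℕ := (1 + n * (n + (n + 1 + K2) + 1)) with hK1
  set E : ℕ := κ * (C * (K1 * Q) ^ (n - 1)) with hE
  have hslt : ∀ s k, sl ((CR k0 R b).tw2 φ) s k = κ * sl (CR k0 R b) s k := fun s k => by
    rw [sl_tw2 _ φ s k (hfin b s k), hκt]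
  have hbnd : ∀ s k : ℤ, k ≠ negc b s → -(((n + (n + 1 + K2) : ℕ) : ℤ) * Q) ≤ s → s ≤ Q →
      sl ((CR k0 R b).tw2 φ) s k ≤ E := by
    intro s k hk h1 h2
    rw [hslt]
    have h3 := ult_Nz_le b Q (n + 1 + K2) hQ hb s h1 h2
    have h4 : C * P202G.Nz b s ^ (n - 1) ≤ C * (K1 * Q) ^ (n - 1) := by
      gcongr
    have h5 := hbad b s k hk
    calc (κ : ℕ∞) * sl (CR k0 R b) s k ≤ κ * ((C * P202G.Nz b s ^ (n - 1) : ℕ) : ℕ∞) := by
          gcongr
      _ ≤ κ * ((C * (K1 * Q) ^ (n - 1) : ℕ) : ℕ∞) := by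
          gcongr
      _ = (E : ℕ∞) := by rw [hE]; push_cast; rfl
  have hiQ : ∀ i : ℕ, i ≤ n + 1 → (1 - (i : ℤ)) * Q ≥ -((n : ℤ) * Q) := by
    intro i hi
    have : -(n : ℤ) ≤ 1 - (i : ℤ) := by omega
    have := mul_le_mul_of_nonneg_right this (show (0 : ℤ) ≤ Q by positivity)
    linarith
  have hiQ' : ∀ i : ℕ, (1 - (i : ℤ)) * Q ≤ Q := by
    intro i
    have : (1 - (i : ℤ)) * Q ≤ 1 * Q :=
      mul_le_mul_of_nonneg_right (by omega) (show (0 : ℤ) ≤ Q by positivity)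
    linarith
  have hwin : ((n + (n + 1 + K2) : ℕ) : ℤ) * Q = n * Q + (n + 1) * Q + (K2 * Q : ℕ) := by
    push_cast; ring
  have hnQ : (0 : ℤ) ≤ (n : ℤ) * Q := by positivity
  have hnQ1 : (0 : ℤ) ≤ ((n : ℤ) + 1) * Q := by positivity
  have main := dec_ineq (R := A) (S := S) ((CR k0 R b).tw2 φ) G (Q : ℤ) (n + 1) n M E
    (by exact_mod_cast hQ) ?_ hdeg (fun k hk => ?_) (fun s k => ?_) hh' ?_ ?_ ?_ ?_
  · -- conclusion
    replace main := main.2
    rw [hX] at main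
    have hh0 : (Hc G (S ⧸ (maximalIdeal A).map (algebraMap A S)) 0).toNat = h 0 := by
      have := hh 0
      rw [Nat.cast_zero] at this
      rw [this, ENat.toNat_natCast]
    have hhi : ∀ i : ℕ, (Hc G (S ⧸ (maximalIdeal A).map (algebraMap A S)) (i : ℤ)).toNat = h i :=
      fun i => by rw [hh i, ENat.toNat_natCast]
    have hsum : ∀ f : ℤ → ℤ, ∑ i ∈ Finset.range (n + 1 + 1), (-1) ^ i * (h i : ℤ) *
        ∑ s ∈ Finset.Ico ((1 - (i : ℤ)) * Q) 0, f s =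
        ∑ i ∈ Finset.Ico 2 (n + 1 + 1), (-1) ^ i * (h i : ℤ) *
        ∑ s ∈ Finset.Ico ((1 - (i : ℤ)) * Q) 0, f s := by
      intro f
      symm
      refine Finset.sum_subset (fun i hi => ?_) (fun i hi hi2 => ?_)
      · rw [Finset.mem_Ico] at hi
        rw [Finset.mem_range]
        omega
      · rw [Finset.mem_range] at hi
        rw [Finset.mem_Ico] at hi2
        have : i = 0 ∨ i = 1 := by omega
        have hE0 : Finset.Ico ((1 - (i : ℤ)) * Q) 0 = ∅ := by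
          rw [Finset.Ico_eq_empty_iff]
          rcases this with rfl | rfl <;> simp
        rw [hE0, Finset.sum_empty, mul_zero]
    simp only [hh0, hhi, hsum] at main
    have e1 : ∀ s, slEul ((CR k0 R b).tw2 φ) n s = (κ : ℤ) * slEul (CR k0 R b) n s :=
      fun s => slEul_tw2 _ φ n s (hfin b s)
    simp only [e1, ← Finset.mul_sum] at main
    have e2 : ∑ i ∈ Finset.Ico 2 (n + 1 + 1), (-1 : ℤ) ^ i * h i *
        ((κ : ℤ) * ∑ s ∈ Finset.Ico ((1 - (i : ℤ)) * Q) 0, slEul (CR k0 R b) n s) =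
        κ * ∑ i ∈ Finset.Ico 2 (n + 1 + 1), (-1 : ℤ) ^ i * h i *
          ∑ s ∈ Finset.Ico ((1 - (i : ℤ)) * Q) 0, slEul (CR k0 R b) n s := by
      rw [Finset.mul_sum]
      exact Finset.sum_congr rfl fun i _ => by ring
    rw [e2] at main
    set A : ℤ := ∑ s ∈ Finset.Ico (0 : ℤ) Q, slEul (CR k0 R b) n s with hA
    set B : ℤ := ∑ i ∈ Finset.Ico 2 (n + 1 + 1), (-1 : ℤ) ^ i * h i *
          ∑ s ∈ Finset.Ico ((1 - (i : ℤ)) * Q) 0, slEul (CR k0 R b) n s with hB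
    rw [← Nat.cast_sum] at main
    set Hs : ℤ := ((∑ i ∈ Finset.range (n + 1 + 1), h i : ℕ) : ℤ) with hHs
    have hHs0 : 0 ≤ Hs := Int.natCast_nonneg _
    have e3 : ((M : ℤ) + ((n + 1 : ℕ) : ℤ) * Q) ≤ ((K2 + (n + 1) : ℕ) : ℤ) * Q := by
      have : (M : ℤ) ≤ (K2 : ℤ) * Q := by exact_mod_cast hMK
      push_cast
      nlinarith
    have e4 : (E : ℤ) = κ * ((C * (K1 * Q) ^ (n - 1) : ℕ) : ℤ) := by rw [hE]; push_cast; ring
    rw [e4] at main
    set Y : ℤ := ((C * (K1 * Q) ^ (n - 1) : ℕ) : ℤ) with hY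
    have hY0 : 0 ≤ Y := by rw [hY]; positivity
    have e5 : ((n + 1 + n + 1 : ℕ) : ℤ) * Hs * ((M : ℤ) + ((n + 1 : ℕ) : ℤ) * Q) * Y ≤
        ((n + 1 + n + 1 : ℕ) : ℤ) * Hs * (((K2 + (n + 1) : ℕ) : ℤ) * Q) * Y := by
      gcongr
    have e6 : (κ : ℤ) * (h 0 * A - B - ((n + 1 + n + 1 : ℕ) : ℤ) * Hs *
        ((M : ℤ) + ((n + 1 : ℕ) : ℤ) * Q) * Y) ≤ κ * X := by
      refine le_trans (le_of_eq ?_) main
      ring
    have e7 := le_of_mul_le_mul_left e6 (by exact_mod_cast hκ0)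
    linarith
  · intro r hr s x hx
    exact shift_CR k0 R b Q (φ r) (hshift r hr) s x hx
  · have h1 := gr_CR k0 R b k hk
    refine (Submodule.eq_bot_iff _).mpr fun x hx => ?_
    have h2 : (show (R ⊗[PolyA k0 n] XA k0 n) from x) ∈ (CR k0 R b).gr k := hx
    rw [h1] at h2
    exact h2
  · rw [hslt]
    exact WithTop.mul_ne_top (ENat.natCast_ne_top _) (hfin b s k)
  · intro i hi s k h1 h2 h3
    have h4 := hiQ i hi
    have h5 := hiQ' i
    have h6 : (M : ℤ) ≤ (K2 * Q : ℕ) := by exact_mod_cast hMK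
    refine hbnd s k ?_ (by omega) (by omega)
    have h7 := ult_negc_ge b Q hb i s hi h2
    omega
  · intro i hi s k h1 h2 h3
    have h4 := hiQ i hi
    have h7 := ult_negc_le b Q hb i s h1
    have : (0 : ℤ) ≤ (K2 * Q : ℕ) := by positivity
    exact hbnd s k (by omega) (by omega) (by omega)
  · intro s k hs hk
    exact exact_tw2 _ φ s k (hex b s (fun l => by have := hb0 l; omega) k hk)
  · exact hcon

end Step


/-- the data of one `q = p ^ e` -/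
def TwistData (p : ℕ) (e : ℕ) (R : Type u) (S : Type v) [CommRing R]
    [IsLocalRing R] [CommRing S] [IsLocalRing S] (f : R →+* S) : Prop :=
    ∃ (R1 : Type u) (S1 : Type v) (_ : CommRing R1) (_ : CommRing S1) (_ : IsLocalRing R1)
      (_ : IsNoetherianRing R1) (_ : IsLocalRing S1) (_ : IsNoetherianRing S1)
      (ψ : R →+* R1) (φ : R1 →+* R) (α : S →+* S1) (β : R1 →+* S1),
      (∀ r, φ (ψ r) = r ^ (p ^ e)) ∧ (∀ r, ψ (φ r) = r ^ (p ^ e)) ∧ ψ.Flat ∧ IsLocalHom ψ ∧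
      (maximalIdeal R).map ψ = maximalIdeal R1 ∧ IsLocalHom φ ∧ φ.Finite ∧
      (∀ x : R, ∃ r : R1, x - φ r ∈ maximalIdeal R) ∧
      α.Flat ∧ IsLocalHom α ∧ Module.length S1 (S1 ⧸ (maximalIdeal S).map α) ≠ ⊤ ∧
      β.Flat ∧ IsLocalHom β ∧ (∀ r, β (ψ r) = α (f r))

section Q

variable {R : Type u} [CommRing R] [IsLocalRing R] [IsNoetherianRing R]
    {p : ℕ} [Fact p.Prime] [CharP R p] {n : ℕ} [Algebra (PolyA (ZMod p) n) R]
    {S : Type v} [CommRing S] [IsLocalRing S] [IsNoetherianRing S] [Algebra R S] [Module.Flat R S]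
    [IsLocalHom (algebraMap R S)]

/-- the inequality for one `q = p ^ e = Q + c` -/
theorem ult_q (hD : ringKrullDim R = (n + 1 : ℕ))
    (hart : Module.length S (S ⧸ (maximalIdeal R).map (algebraMap R S)) ≠ ⊤)
    (z : Fin (n + 1) → S) (hzl : Module.length S (S ⧸ Ideal.span (Set.range z)) ≠ ⊤) (N1 : ℕ)
    (hyz : ∀ j : Fin (n + 1), algebraMap R S (yR (ZMod p) R j ^ N1) ∈ Ideal.span (Set.range z))
    (h : ℕ → ℕ)
    (hh : ∀ i : ℕ, Hc (KS z) (S ⧸ (maximalIdeal R).map (algebraMap R S)) i = h i)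
    (c : ℕ) (hc : ∀ t : ℕ, maximalIdeal R ^ (t + c) ≤ yI (ZMod p) n R ^ t)
    (C : ℕ) (c0 : ℤ) (hfin : ∀ (b : Fin n → ℤ) (s k : ℤ), sl (CR (ZMod p) R b) s k ≠ ⊤)
    (hbad : ∀ (b : Fin n → ℤ) (s k : ℤ), k ≠ negc b s →
        sl (CR (ZMod p) R b) s k ≤ ((C * P202G.Nz b s ^ (n - 1) : ℕ) : ℕ∞))
    (hex : ∀ (b : Fin n → ℤ) (s : ℤ), (∀ l, c0 ≤ b l + s) → ∀ k : ℤ, 1 ≤ k →
        ∀ x ∈ (CR (ZMod p) R b).gr k ⊓ (CR (ZMod p) R b).F s, (CR (ZMod p) R b).d x = 0 →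
          ∃ w ∈ (CR (ZMod p) R b).gr (k - 1) ⊓ (CR (ZMod p) R b).F s, (CR (ZMod p) R b).d w = x)
    (c1 : ℕ)
    (hcon : ∀ (A : Type u) [CommRing A] (φ : A →+* R) (S : Type v) [CommRing S] [Algebra A S]
      (b : Fin n → ℤ) (ρ : Fin (n + 1) → A) (N' : ℕ)
      (_ : ∀ j : Fin (n + 1), φ (ρ j) = yR (ZMod p) R j ^ N')
      (ι : Type) [Fintype ι] [DecidableEq ι] (G : FCx S ι) (Q : ℤ)
      (_ : 0 ≤ Q) (_ : ∀ a, 0 ≤ G.deg a ∧ G.deg a ≤ (n + 1 : ℕ))
      (_ : ∀ j : Fin (n + 1), ∃ h : Matrix ι ι S, (∀ a b, h a b ≠ 0 → G.deg a = G.deg b + 1) ∧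
        G.mat * h + h * G.mat = algebraMap A S (ρ j) • (1 : Matrix ι ι S)),
      ∀ t j : ℤ, ∀ x ∈ fam G (((CR (ZMod p) R b).tw2 φ).bc S) (fun i => t - i * Q) j,
      totd G (((CR (ZMod p) R b).tw2 φ).bc S) x = 0 →
      ∃ w ∈ fam G (((CR (ZMod p) R b).tw2 φ).bc S) (fun i => t - i * Q - c1 * (N' + 1 + Q)) (j + 1),
        totd G (((CR (ZMod p) R b).tw2 φ).bc S) w = x)
    (e Q : ℕ) (hQ : 0 < Q) (hQe : p ^ e = Q + c) (b : Fin n → ℤ) (hb0 : ∀ l, c0 ≤ b l)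
    (hb : ∀ l : Fin n, (l : ℤ) * Q ≤ b l ∧ b l ≤ ((l : ℤ) + 1) * Q - 1)
    (hMf : Module.Finite R (MI.M0 (CR (ZMod p) R b))) (m : ℕ)
    (f0 : MI.M0 (CR (ZMod p) R b) →ₗ[R] (Fin m → R)) (hf0 : Function.Injective f0)
    (y0 : R) (hy0 : y0 ∈ nonZeroDivisors R) (N0 : ℕ)
    (hN0 : ∀ v : Fin m → R, y0 ^ N0 • v ∈ LinearMap.range f0)
    (hT : TwistData p e R S (algebraMap R S)) :
    h 0 * (∑ s ∈ Finset.Ico (0 : ℤ) Q, slEul (CR (ZMod p) R b) n s) -
      (∑ i ∈ Finset.Ico 2 (n + 1 + 1), (-1 : ℤ) ^ i * h i *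
        ∑ s ∈ Finset.Ico ((1 - (i : ℤ)) * Q) 0, slEul (CR (ZMod p) R b) n s) -
      ((n + 1 + n + 1 : ℕ) : ℤ) * (∑ i ∈ Finset.range (n + 1 + 1), h i) *
        (((c1 * (N1 * (1 + c) + 2) + (n + 1) : ℕ) : ℤ) * Q) *
        ((C * ((1 + n * (n + (n + 1 + c1 * (N1 * (1 + c) + 2)) + 1)) * Q) ^ (n - 1) : ℕ) : ℤ) ≤
      (p : ℤ) ^ (e * (n + 1)) * (m * MI.chiG (KS z) S (n + 1)) := by
  obtain ⟨R1, S1, _, _, _, _, _, _, ψ, φ, α, β, hφψ, hψφ, hψ, hψl, hm, hφl, hφ, hres, hα, hαl,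
    hαf, hβ, hβl, hβψ⟩ := hT
  let _ : Algebra R1 S1 := β.toAlgebra
  let _ : Algebra S S1 := α.toAlgebra
  let _ : Algebra R R1 := ψ.toAlgebra
  have : Module.Flat R1 S1 := hβ
  have : Module.Flat R R1 := hψ
  have : Module.Flat S S1 := hα
  have : IsLocalHom (algebraMap R1 S1) := hβl
  have : IsLocalHom (algebraMap S S1) := hαl
  have hβ' : ∀ r, algebraMap R1 S1 r = β r := fun _ => rfl
  have hα' : ∀ s, algebraMap S S1 s = α s := fun _ => rfl
  -- the twist constant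
  have htw1 : twc2 φ = 1 := twc_eq_one2 φ (fun r hr => by
    rw [mem_maximalIdeal, mem_nonunits_iff] at hr ⊢
    exact fun hu => hr (isUnit_of_map_unit φ r hu)) hres
  -- the closed fibre of alpha
  set a : ℕ := (Module.length S1 (S1 ⧸ (maximalIdeal S).map (algebraMap S S1))).toNat with ha
  have haf : Module.length S1 (S1 ⧸ (maximalIdeal S).map (algebraMap S S1)) = a :=
    (ENat.natCast_toNat hαf).symm
  have ha0 : 0 < a := by
    rcases Nat.eq_zero_or_pos a with h0 | h0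
    · rw [h0] at haf
      rw [Nat.cast_zero, Module.length_eq_zero_iff, Ideal.Quotient.subsingleton_iff] at haf
      have h1 : (maximalIdeal S).map (algebraMap S S1) ≤ maximalIdeal S1 :=
        ((IsLocalRing.local_hom_TFAE (algebraMap S S1)).out 0 2).mp hαl
      rw [haf] at h1
      exact absurd (top_le_iff.mp h1) (maximalIdeal.isMaximal S1).ne_top
    · exact h0
  -- the two fibre ideals agree
  have hI : (maximalIdeal R1).map (algebraMap R1 S1) =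
      ((maximalIdeal R).map (algebraMap R S)).map (algebraMap S S1) := by
    rw [← hm, Ideal.map_map, Ideal.map_map]
    congr 1
    ext r
    exact hβψ r
  set z1 : Fin (n + 1) → S1 := fun i => algebraMap S S1 (z i) with hz1
  have hspan : Ideal.span (Set.range z1) = (Ideal.span (Set.range z)).map (algebraMap S S1) := by
    rw [Ideal.map_span, ← Set.range_comp]
    rfl
  have hh1 : ∀ i : ℤ, Hc (KS z1) (S1 ⧸ (maximalIdeal R1).map (algebraMap R1 S1)) i =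
      Hc (KS z) (S ⧸ (maximalIdeal R).map (algebraMap R S)) i * a := by
    intro i
    rw [hI, ← haf, ← Hc_scale_proved (S1 := S1) z (S ⧸ (maximalIdeal R).map (algebraMap R S)) i]
    exact SA.Hc_equiv (KS z1) (Algebra.TensorProduct.quotIdealMapEquivTensorQuot S1
      ((maximalIdeal R).map (algebraMap R S))).toLinearEquiv i
  have hchi1 : MI.chiG (KS z1) S1 (n + 1) = a * MI.chiG (KS z) S (n + 1) := by
    unfold MI.chiG
    rw [Finset.mul_sum]
    refine Finset.sum_congr rfl fun j _ => ?_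
    have h1 : Hc (KS z1) S1 j = Hc (KS z) S j * a := by
      rw [← haf, ← Hc_scale_proved (S1 := S1) z S j]
      exact (SA.Hc_equiv (KS z1) (TensorProduct.AlgebraTensorModule.rid S S1 S1) j).symm
    rw [h1, ENat.toNat_mul, ENat.toNat_natCast]
    push_cast
    ring
  have hfib1 : Module.length S1 (S1 ⧸ (maximalIdeal R1).map (algebraMap R1 S1)) ≠ ⊤ := by
    rw [hI, (Algebra.TensorProduct.quotIdealMapEquivTensorQuot S1
      ((maximalIdeal R).map (algebraMap R S))).toLinearEquiv.length_eq,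
      IsLocalRing.length_baseChange]
    exact WithTop.mul_ne_top hart hαf
  have hz1l : Module.length S1 (S1 ⧸ Ideal.span (Set.range z1)) ≠ ⊤ := by
    rw [hspan, (Algebra.TensorProduct.quotIdealMapEquivTensorQuot S1
      (Ideal.span (Set.range z))).toLinearEquiv.length_eq, IsLocalRing.length_baseChange]
    exact WithTop.mul_ne_top hzl hαf
  obtain ⟨-, -, -, -, -, -, hX⟩ := KS_comb_sub2 (S := S1) φ (p ^ e) hφ
    (pow_pos (Fact.out : p.Prime).pos e) hφψ hψφ hm hfib1 (n + 1) hD z1 hz1l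
    (MI.M0 (CR (ZMod p) R b)) m f0 y0 N0 hf0 hy0 hN0
  have hX' : MI.chiG (KS z1)
      (MI.M0 (((CR (ZMod p) R b).tw2 φ).bc S1)) (n + 1) =
      (twc2 φ).toNat * ((p : ℤ) ^ (e * (n + 1)) * (m * MI.chiG (KS z1) S1 (n + 1))) := by
    have e1 : MI.M0 (((CR (ZMod p) R b).tw2 φ).bc S1) =
        (v3Sub2 φ (MI.M0 (CR (ZMod p) R b))).baseChange S1 := by
      rw [← M0_tw2]
      exact fr_M0_bc (R := S1) ((CR (ZMod p) R b).tw2 φ)
    rw [e1, hX]
    push_cast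
    ring
  have hMK : c1 * (N1 * p ^ e + 1 + Q) ≤ (c1 * (N1 * (1 + c) + 2)) * Q := by
    rw [hQe, mul_assoc]
    refine Nat.mul_le_mul_left _ ?_
    have h1 : Q + c ≤ (1 + c) * Q := by nlinarith
    calc N1 * (Q + c) + 1 + Q ≤ N1 * ((1 + c) * Q) + Q + Q := by gcongr; omega
      _ = (N1 * (1 + c) + 2) * Q := by ring
  have hnul : ∀ j : Fin (n + 1), ∃ hm : Matrix (P202C.KI 1 (n + 1)) (P202C.KI 1 (n + 1)) S1,
      (∀ a b, hm a b ≠ 0 → (KS z1).deg a = (KS z1).deg b + 1) ∧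
      (KS z1).mat * hm + hm * (KS z1).mat = algebraMap R1 S1 (ψ (yR (ZMod p) R j ^ N1)) •
        (1 : Matrix (P202C.KI 1 (n + 1)) (P202C.KI 1 (n + 1)) S1) := by
    intro j
    refine KS_null z1 _ ?_
    rw [hβ', hβψ, ← hα', hspan]
    exact Ideal.mem_map_of_mem _ (hyz j)
  have key := ult_step2 (ZMod p) φ (KS z1) (KS_deg z1) (fun i => h i * a) (fun i => by
      rw [hh1, hh]; push_cast; rfl) (fun i => KS_fibre_fin _ _ hfib1 i) C c0 hfin hbad hex
      (c1 * (N1 * p ^ e + 1 + Q)) (c1 * (N1 * (1 + c) + 2)) Q hQ hMK b hb0 hb ?_ ?_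
      (by rw [htw1]; exact ENat.one_ne_top) (by rw [htw1]; exact one_ne_zero) _ hX'
  · -- divide by a
    rw [hchi1] at key
    have ha1 : (0 : ℤ) < a := by exact_mod_cast ha0
    refine le_of_mul_le_mul_left ?_ ha1
    refine le_trans (le_of_eq ?_) (le_trans key (le_of_eq ?_))
    · push_cast
      have e1 : ∑ i ∈ Finset.Ico 2 (n + 1 + 1), (-1 : ℤ) ^ i * ((h i : ℤ) * a) *
          ∑ s ∈ Finset.Ico ((1 - (i : ℤ)) * Q) 0, slEul (CR (ZMod p) R b) n s =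
          a * ∑ i ∈ Finset.Ico 2 (n + 1 + 1), (-1 : ℤ) ^ i * (h i : ℤ) *
          ∑ s ∈ Finset.Ico ((1 - (i : ℤ)) * Q) 0, slEul (CR (ZMod p) R b) n s := by
        rw [Finset.mul_sum]
        exact Finset.sum_congr rfl fun i _ => by ring
      have e2 : ∑ i ∈ Finset.range (n + 1 + 1), (h i : ℤ) * a =
          a * ∑ i ∈ Finset.range (n + 1 + 1), (h i : ℤ) := by
        rw [Finset.mul_sum]
        exact Finset.sum_congr rfl fun i _ => by ring
      rw [e1, e2]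
      ring
    · ring
  · -- shift
    intro r hr
    have h1 : maximalIdeal R1 ≤ (yI (ZMod p) n R ^ Q).comap φ := by
      rw [← hm, Ideal.map_le_iff_le_comap]
      intro x hx
      rw [Ideal.mem_comap, Ideal.mem_comap, hφψ, hQe]
      exact hc Q (Ideal.pow_mem_pow hx _)
    exact h1 hr
  · -- contraction
    intro j x hx hx0
    have h1 := hcon R1 φ S1 b (fun j => ψ (yR (ZMod p) R j ^ N1)) (N1 * p ^ e) (fun j => by
      rw [hφψ, ← pow_mul]) _ (KS z1) (Q : ℤ) (by positivity) (KS_deg z1) hnul (Q : ℤ) j x (by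
      have : (fun i : ℤ => (Q : ℤ) - i * Q) = fun i : ℤ => (1 - i) * (Q : ℤ) := by
        funext i
        ring
      rw [this]
      exact hx) hx0
    have : (fun i : ℤ => (Q : ℤ) - i * Q - c1 * (((N1 * p ^ e : ℕ) : ℤ) + 1 + Q)) =
        fun i : ℤ => (1 - i) * (Q : ℤ) - ((c1 * (N1 * p ^ e + 1 + Q) : ℕ) : ℤ) := by
      funext i
      push_cast
      ring
    rw [this] at h1
    exact h1

end Q

/-- the core inequality -/
theorem ult_core2 (R : Type u) [CommRing R] [IsLocalRing R] [IsNoetherianRing R]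
    (hinf : Infinite (ResidueField R)) (p : ℕ) [Fact p.Prime] [CharP R p]
    (S : Type v) [CommRing S] [IsLocalRing S] [IsNoetherianRing S] [Algebra R S] [Module.Flat R S]
    [IsLocalHom (algebraMap R S)] (n : ℕ) (hn : 1 ≤ n) (hD : ringKrullDim R = (n + 1 : ℕ))
    (hart : IsArtinianRing (S ⧸ (maximalIdeal R).map (algebraMap R S)))
    (hdep : ∃ a ∈ maximalIdeal R, a ∈ nonZeroDivisors R)
    (htwist : ∀ e : ℕ, TwistData p e R S (algebraMap R S)) :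
    ∃ eR : ℕ, HasMult R eR ∧ ∀ eS : ℝ, HasMult S eS → (eR : ℝ) ≤ eS := by
  obtain ⟨y, hy, hynz, hyl, c, -, hc⟩ := exists_red_reg (R := R) (n + 1) hD hdep
  let _ : Algebra (ZMod p) R := ZMod.algebra R p
  let _ : Algebra (PolyA (ZMod p) n) R := (MvPolynomial.aeval y).toRingHom.toAlgebra
  have hyR : ∀ j, yR (ZMod p) R j = y j := fun j => by
    show MvPolynomial.aeval y (MvPolynomial.X j) = y j
    rw [MvPolynomial.aeval_X]
  have hyI : yI (ZMod p) n R = Ideal.span (Set.range y) := by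
    unfold yI
    congr 1
    ext x
    simp only [hyR]
  have hmax : yI (ZMod p) n R ≤ maximalIdeal R := by
    rw [hyI, Ideal.span_le]
    rintro _ ⟨l, rfl⟩
    exact hy l
  obtain ⟨eR, heR, C, c0, hc0, hfin, hbad, hsE, hex, hM0⟩ := P202G.package (ZMod p) R hn hD
    (by rw [hyR, hyR]; exact mul_mem (hynz _) (hynz _)) (by rw [hyI]; exact hyl) hmax c
    (fun t => by rw [hyI]; exact hc t)
  refine ⟨eR, heR, fun eS heS => ?_⟩
  have hDS : ringKrullDim S = (n + 1 : ℕ) := by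
    rw [dim_eq (R := R) (S := S) hart, hD]
  have hinfS : Infinite (ResidueField S) :=
    Infinite.of_injective (ResidueField.map (algebraMap R S)) (RingHom.injective _)
  obtain ⟨z, hz, hzl, cS, -, hcS⟩ := exists_red_plain (R := S) (n + 1) hDS
  have hartl : Module.length S (S ⧸ (maximalIdeal R).map (algebraMap R S)) ≠ ⊤ := by
    rw [Module.length_eq_of_surjective (S := S)
      (R := S ⧸ (maximalIdeal R).map (algebraMap R S)) Ideal.Quotient.mk_surjective]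
    exact Module.length_ne_top
  obtain ⟨hfib, hfib0⟩ := KS_fibre R S (n + 1) z hz hartl
  obtain ⟨h, hh⟩ : ∃ h : ℕ → ℕ, ∀ i : ℕ,
      Hc (KS z) (S ⧸ (maximalIdeal R).map (algebraMap R S)) i = h i := by
    choose h hh using fun i : ℕ => ENat.ne_top_iff_exists.mp (hfib i)
    exact ⟨h, fun i => (hh i).symm⟩
  have hh0 : 1 ≤ h 0 := by
    have h1 := hh 0
    rw [Nat.cast_zero] at h1
    rw [h1] at hfib0
    exact_mod_cast hfib0
  have hchi := KS_mult' S (n + 1) (by omega) hDS z hz cS hcS eS heS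
  set χ : ℤ := MI.chiG (KS z) S (n + 1) with hχ
  have hyz : ∀ j : Fin (n + 1), algebraMap R S (yR (ZMod p) R j ^ (1 + cS)) ∈
      Ideal.span (Set.range z) := by
    intro j
    have h1 := hcS 1
    rw [pow_one] at h1
    refine h1 ?_
    rw [map_pow]
    refine Ideal.pow_mem_pow ?_ _
    rw [hyR]
    exact map_maximalIdeal_le (Ideal.mem_map_of_mem _ (hy j))
  obtain ⟨c1, hcon⟩ := con_dec2.{u, u, v, 0} (ZMod p) n (n + 1)
  obtain ⟨cn, hcn⟩ := numer2 n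
  obtain ⟨Q0, hQ0⟩ := hcn c0
  have heS0 := ult_hasMult_nonneg heS
  have key : ((h 0 * eR * n.factorial : ℕ) : ℝ) ≤ n.factorial * eS := by
    refine fin_limit _ _ ((2 * (∑ i ∈ Finset.range (n + 1 + 1), (h i : ℝ)) *
      (eR * cn + C * ((n + 2) * (n + 2)) ^ n)) +
      (n + 1 + n + 1 : ℕ) * (∑ i ∈ Finset.range (n + 1 + 1), h i : ℕ) *
      (c1 * ((1 + cS) * (1 + c) + 2) + (n + 1) : ℕ) *
      (C * (1 + n * (n + (n + 1 + c1 * ((1 + cS) * (1 + c) + 2)) + 1)) ^ (n - 1) : ℕ))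
      c n (by positivity) fun K => ?_
    have hp := (Fact.out : p.Prime).two_le
    obtain ⟨e, he⟩ : ∃ e : ℕ, K + Q0 + c + 1 ≤ p ^ e := by
      refine ⟨K + Q0 + c + 1, ?_⟩
      exact (Nat.lt_pow_self (by omega)).le
    obtain ⟨Q, hQ⟩ : ∃ Q : ℕ, p ^ e = Q + c := ⟨p ^ e - c, by omega⟩
    have hQpos : 0 < Q := by omega
    refine ⟨Q, by omega, ?_⟩
    obtain ⟨b, hb0, hb, hb1, hb2⟩ := hQ0 Q (by omega) hQpos
    obtain ⟨hMf, f0, N0, hf0, hN0⟩ := hM0 b hb0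
    have h2 := ult_q (S := S) hD hartl z hzl (1 + cS) hyz h hh c
      (fun t => by rw [hyI]; exact hc t) C c0 hfin hbad hex c1
      (fun A _ φ S _ _ b ρ N' h1 ι _ _ G Q h2 h3 h4 => hcon A R φ S b ρ N' h1 ι G Q h2 h3 h4)
      e Q hQpos hQ b hb0 hb hMf n.factorial f0 hf0 (yR (ZMod p) R 0)
      (by rw [hyR]; exact hynz 0) N0 hN0 (htwist e)
    have h3 := ult_num n (n + 1) Q eR C rfl hQpos h cn (slEul (CR (ZMod p) R b) n) b hb
      (fun s => hsE b s) hn hb1 hb2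
    have h4 := (Int.cast_le (R := ℝ)).mpr h2
    rw [Int.cast_sub] at h4
    have h7 : ((p : ℝ)) ^ e = Q + c := by exact_mod_cast hQ
    have h8 : (((p : ℤ) ^ (e * (n + 1)) * (n.factorial * χ) : ℤ) : ℝ) ≤
        n.factorial * eS * ((Q : ℝ) + c) ^ (n + 1) := by
      push_cast
      rw [pow_mul, h7]
      have h9 : (0 : ℝ) ≤ ((Q : ℝ) + c) ^ (n + 1) := by positivity
      have h10 : (0 : ℝ) ≤ n.factorial := by positivity
      calc ((Q : ℝ) + c) ^ (n + 1) * (n.factorial * (χ : ℝ)) ≤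
          ((Q : ℝ) + c) ^ (n + 1) * (n.factorial * eS) := by gcongr
        _ = n.factorial * eS * ((Q : ℝ) + c) ^ (n + 1) := by ring
    have h11 := ult_arr n hn (n + 1 + n + 1) (∑ i ∈ Finset.range (n + 1 + 1), h i)
      (c1 * ((1 + cS) * (1 + c) + 2) + (n + 1)) C
      (1 + n * (n + (n + 1 + c1 * ((1 + cS) * (1 + c) + 2)) + 1)) Q
    rw [h11] at h4
    rw [Int.cast_mul] at h4
    have h12 : (((((n + 1 + n + 1 : ℕ) : ℤ) * ((∑ i ∈ Finset.range (n + 1 + 1), h i : ℕ) : ℤ) *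
        ((c1 * ((1 + cS) * (1 + c) + 2) + (n + 1) : ℕ) : ℤ) *
        ((C * (1 + n * (n + (n + 1 + c1 * ((1 + cS) * (1 + c) + 2)) + 1)) ^ (n - 1) : ℕ) : ℤ)) : ℤ) : ℝ) =
        (n + 1 + n + 1 : ℕ) * (∑ i ∈ Finset.range (n + 1 + 1), h i : ℕ) *
      (c1 * ((1 + cS) * (1 + c) + 2) + (n + 1) : ℕ) *
      (C * (1 + n * (n + (n + 1 + c1 * ((1 + cS) * (1 + c) + 2)) + 1)) ^ (n - 1) : ℕ) := by
      simp only [Int.cast_mul, Int.cast_natCast]
    rw [h12] at h4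
    have h13 : (((Q : ℤ) ^ n : ℤ) : ℝ) = (Q : ℝ) ^ n := by push_cast; rfl
    rw [h13] at h4
    have h14 : ∀ (a b x y z : ℝ), a - b * z ≤ x → x - y * z ≤ eS → a - (b + y) * z ≤ eS :=
      fun a b x y z h1 h2 => by linarith
    linarith
  have hf : (0 : ℝ) < n.factorial := by exact_mod_cast n.factorial_pos
  have h5 : ((h 0 * eR : ℕ) : ℝ) ≤ eS := by
    push_cast at key
    push_cast
    have : (n.factorial : ℝ) * ((h 0 : ℝ) * eR) ≤ n.factorial * eS := by linarith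
    exact le_of_mul_le_mul_left this hf
  refine le_trans ?_ h5
  have : eR ≤ h 0 * eR := Nat.le_mul_of_pos_left _ (by omega)
  exact_mod_cast this


end Vale.Agent.P202K
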